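import Vale.Agent.P074.FiniteCore

open MeasureTheory Set Metric Filter Topology
open scoped ENNReal NNReal

set_option linter.unusedSectionVars false

namespace Vale.Agent.P074

variable {d : ℕ} {ι : Type*} [Fintype ι] [Nonempty ι]

lemma sq_norm_sub_expand (x y : Eu d) :
    ‖x - y‖ ^ 2 = ‖x‖ ^ 2 - 2 * inner ℝ x y + ‖y‖ ^ 2 := norm_sub_sq_real x y

/-- The cell map of a dual potential is an optimal map. -/
theorem cell_map_optimal {K : Set (Eu d)} (hK : IsCompact K) (h0 : volume K ≠ 0) {Y : ι → Eu d}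
    (hY : Function.Injective Y) {ψ : ι → ℝ} {ℓ : Eu d → ι} (hℓ : ∀ x, x ∈ ucell Y ψ (ℓ x))
    (hℓm : ∀ i, MeasurableSet (ℓ ⁻¹' {i})) :
    IsOptimalMap (unif K) (Measure.map (fun x => Y (ℓ x)) (unif K)) (fun x => Y (ℓ x)) := by
  classical
  have htop : volume K ≠ ∞ := hK.measure_lt_top.ne
  have hKm : MeasurableSet K := hK.measurableSet
  set ρ := unif K with hρ
  haveI : IsProbabilityMeasure ρ := isProbabilityMeasure_unif h0 htop hKm
  set T : Eu d → Eu d := fun x => Y (ℓ x) with hT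
  have hTm : Measurable T := measurable_comp_label hℓm Y
  refine ⟨hTm, rfl, ?_⟩
  intro S hS hSmap
  -- the function on the target
  set Ψ : Eu d → ℝ := fun y => ∑ j, ({Y j} : Set (Eu d)).indicator (fun _ => ψ j) y with hΨ
  have hΨm : Measurable Ψ :=
    Finset.measurable_fun_sum _ fun j _ => measurable_const.indicator (measurableSet_singleton _)
  have hΨY : ∀ i, Ψ (Y i) = ψ i := by
    intro i
    simp only [hΨ]
    rw [Finset.sum_eq_single i]
    · simp
    · intro j _ hji
      rw [indicator_of_notMem]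
      simp only [mem_singleton_iff]
      exact fun e => hji (hY e).symm
    · simp
  set h : Eu d → ℝ := fun y => ‖y‖ ^ 2 - 2 * Ψ y with hh
  have hhm : Measurable h := (measurable_norm.pow_const 2).sub (hΨm.const_mul 2)
  set A : Eu d → ℝ := fun x => ‖x‖ ^ 2 - 2 * lphi Y ψ x with hA
  have hAc : Continuous A := (continuous_norm.pow 2).sub ((continuous_lphi Y ψ).const_mul 2)
  have hTeq : ∀ x, ‖x - T x‖ ^ 2 = A x + h (T x) := by
    intro x
    simp only [hT, hA, hh, hΨY]
    rw [sq_norm_sub_expand, lphi_eq_of_mem (hℓ x)]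
    ring
  have hge : ∀ x i, A x + h (Y i) ≤ ‖x - Y i‖ ^ 2 := by
    intro x i
    simp only [hA, hh, hΨY]
    rw [sq_norm_sub_expand]
    have := le_lphi Y ψ x i
    linarith
  -- the almost sure range
  have hSr : ∀ᵐ x ∂ρ, S x ∈ range Y := by
    have hrange : MeasurableSet ((range Y)ᶜ) := (finite_range Y).measurableSet.compl
    have h1 : ρ (S ⁻¹' (range Y)ᶜ) = 0 := by
      rw [← Measure.map_apply hS hrange, hSmap, Measure.map_apply hTm hrange]
      have : T ⁻¹' (range Y)ᶜ = ∅ := by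
        ext x
        simp [hT]
      rw [this]
      simp
    have := measure_eq_zero_iff_ae_notMem.1 h1
    filter_upwards [this] with x hx
    simpa using hx
  -- the integrals of `h`
  have hint : ∫ x, h (S x) ∂ρ = ∫ x, h (T x) ∂ρ := by
    rw [← integral_map hS.aemeasurable hhm.aestronglyMeasurable, hSmap,
      integral_map hTm.aemeasurable hhm.aestronglyMeasurable]
  -- bounds
  have hAK : ∀ᵐ x ∂ρ, x ∈ K := ae_unif_mem htop hKm
  obtain ⟨MA, hMA⟩ := hK.exists_bound_of_continuousOn hAc.continuousOn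
  have hAi : Integrable A ρ :=
    Integrable.of_bound hAc.aestronglyMeasurable MA (hAK.mono fun x hx => hMA x hx)
  set Bh := ∑ j, |h (Y j)| with hBh
  have hhb : ∀ i, ‖h (Y i)‖ ≤ Bh := by
    intro i
    rw [Real.norm_eq_abs]
    exact Finset.single_le_sum (f := fun j => |h (Y j)|) (fun _ _ => abs_nonneg _) (Finset.mem_univ i)
  have hSi : Integrable (fun x => h (S x)) ρ :=
    Integrable.of_bound (hhm.comp hS).aestronglyMeasurable Bh (hSr.mono fun x hx => by
      obtain ⟨i, hi⟩ := hx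
      rw [← hi]
      exact hhb i)
  have hTi : Integrable (fun x => h (T x)) ρ :=
    Integrable.of_bound (hhm.comp hTm).aestronglyMeasurable Bh
      (ae_of_all _ fun x => hhb (ℓ x))
  -- the costs
  have hTcost : Integrable (fun x => ‖x - T x‖ ^ 2) ρ := by
    have : (fun x => ‖x - T x‖ ^ 2) = fun x => A x + h (T x) := funext hTeq
    rw [this]
    exact hAi.add hTi
  set RY := ∑ j, ‖Y j‖ with hRY
  obtain ⟨RK, hRK⟩ := hK.isBounded.subset_closedBall (0 : Eu d)
  have hSbd : ∀ᵐ x ∂ρ, ‖x - S x‖ ≤ |RK| + RY := by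
    filter_upwards [hSr, hAK] with x hx hxK
    obtain ⟨i, hi⟩ := hx
    rw [← hi]
    have h1 := norm_sub_le x (Y i)
    have h2 : ‖x‖ ≤ |RK| := by
      have := hRK hxK
      rw [mem_closedBall, dist_zero_right] at this
      exact this.trans (le_abs_self _)
    have h3 : ‖Y i‖ ≤ RY :=
      Finset.single_le_sum (f := fun j => ‖Y j‖) (fun _ _ => norm_nonneg _) (Finset.mem_univ i)
    linarith
  have hScost : Integrable (fun x => ‖x - S x‖ ^ 2) ρ := by
    refine Integrable.of_bound ((measurable_id.sub hS).norm.pow_const 2).aestronglyMeasurable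
      ((|RK| + RY) ^ 2) (hSbd.mono fun x hx => ?_)
    rw [Real.norm_of_nonneg (by positivity)]
    exact pow_le_pow_left₀ (norm_nonneg _) hx 2
  have hreal : ∫ x, ‖x - T x‖ ^ 2 ∂ρ ≤ ∫ x, ‖x - S x‖ ^ 2 ∂ρ := by
    have e1 : ∫ x, ‖x - T x‖ ^ 2 ∂ρ = ∫ x, (A x + h (T x)) ∂ρ :=
      integral_congr_ae (ae_of_all _ hTeq)
    have e2 : ∫ x, (A x + h (S x)) ∂ρ ≤ ∫ x, ‖x - S x‖ ^ 2 ∂ρ := by
      refine integral_mono_ae (hAi.add hSi) hScost ?_
      filter_upwards [hSr] with x hx
      obtain ⟨i, hi⟩ := hx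
      rw [← hi]
      exact hge x i
    rw [integral_add hAi hSi, hint] at e2
    rw [e1, integral_add hAi hTi]
    exact e2
  unfold cost
  simp only [enorm_sq_eq']
  rw [← ofReal_integral_eq_lintegral_ofReal hTcost (ae_of_all _ fun x => by positivity),
    ← ofReal_integral_eq_lintegral_ofReal hScost (ae_of_all _ fun x => by positivity)]
  exact ENNReal.ofReal_le_ofReal hreal

/-- The fibers of a label of a dual potential have the prescribed masses. -/
lemma unif_fiber {K : Set (Eu d)} (hK : IsCompact K) {Y : ι → Eu d} (hY : Function.Injective Y)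
    {ψ m : ι → ℝ} {ℓ : Eu d → ι} (hℓ : ∀ x, x ∈ ucell Y ψ (ℓ x))
    (hℓm : ∀ i, MeasurableSet (ℓ ⁻¹' {i})) (hd : IsDualW K Y ψ m) (hm : ∀ i, 0 < m i) (i : ι) :
    unif K (ℓ ⁻¹' {i}) = ENNReal.ofReal (m i / volume.real K) := by
  classical
  have htop : volume K ≠ ∞ := hK.measure_lt_top.ne
  have hsub : ℓ ⁻¹' {i} ∩ K ⊆ lcell K Y ψ i := by
    rintro x ⟨hx1, hx2⟩
    have hx1' : ℓ x = i := hx1
    exact ⟨hx2, hx1' ▸ hℓ x⟩
  have hnull : volume (lcell K Y ψ i \ (ℓ ⁻¹' {i} ∩ K)) = 0 := by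
    have hsub2 : lcell K Y ψ i \ (ℓ ⁻¹' {i} ∩ K) ⊆
        ⋃ j : {j : ι // j ≠ i}, (lcell K Y ψ i ∩ lcell K Y ψ j.1) := by
      rintro x ⟨hx1, hx2⟩
      have hne : ℓ x ≠ i := fun e => hx2 ⟨e, hx1.1⟩
      refine mem_iUnion.2 ⟨⟨ℓ x, hne⟩, hx1, hx1.1, hℓ x⟩
    refine measure_mono_null hsub2 (measure_iUnion_null fun j => ?_)
    exact lcell_inter_null K ψ (fun e => j.2 (hY e).symm)
  have hvol : volume (ℓ ⁻¹' {i} ∩ K) = volume (lcell K Y ψ i) :=
    measure_eq_measure_of_null_sdiff hsub hnull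
  have hcellfin : volume (lcell K Y ψ i) ≠ ∞ := (isCompact_lcell hK Y ψ i).measure_lt_top.ne
  have hofr : volume (lcell K Y ψ i) = ENNReal.ofReal (m i) := by
    rw [← hd i, measureReal_def, ENNReal.ofReal_toReal hcellfin]
  unfold unif
  rw [Measure.smul_apply, Measure.restrict_apply (hℓm i), hvol, hofr, smul_eq_mul,
    measureReal_def]
  have hV0 : (volume K).toReal ≠ 0 ∨ True := Or.inr trivial
  rw [div_eq_mul_inv, ENNReal.ofReal_mul (hm i).le, mul_comm]
  congr 1
  rw [ENNReal.ofReal_inv_of_pos, ENNReal.ofReal_toReal htop]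
  have h1 : volume K ≠ 0 := by
    intro h
    have h2 : volume (lcell K Y ψ i) = 0 := measure_mono_null inter_subset_left h
    rw [h2] at hofr
    have := ENNReal.ofReal_eq_zero.1 hofr.symm
    linarith [hm i]
  exact ENNReal.toReal_pos h1 htop

lemma measurable_comp_fiber {γ E : Type*} [MeasurableSpace γ] [MeasurableSpace E] {k : γ → ι}
    (hk : ∀ i, MeasurableSet (k ⁻¹' {i})) (Y : ι → E) : Measurable (fun x => Y (k x)) := by
  let _ : MeasurableSpace ι := ⊤
  have h1 : Measurable k := measurable_to_countable' hk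
  have h2 : Measurable Y := measurable_from_top
  exact h2.comp h1

lemma measure_preimage_comp_fiber {γ E : Type*} [MeasurableSpace γ] {k : γ → ι}
    (hk : ∀ i, MeasurableSet (k ⁻¹' {i})) (τ : Measure γ) (Y : ι → E) (B : Set E) [DecidablePred (· ∈ B)] :
    τ ((fun x => Y (k x)) ⁻¹' B) = ∑ i ∈ Finset.univ.filter (fun i => Y i ∈ B), τ (k ⁻¹' {i}) := by
  classical
  have e : (fun x => Y (k x)) ⁻¹' B = ⋃ i ∈ Finset.univ.filter (fun i => Y i ∈ B), k ⁻¹' {i} := by
    ext x
    simp
  rw [e, measure_biUnion_finset]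
  · intro i _ j _ hij
    refine Set.disjoint_left.2 ?_
    intro x hx hx'
    exact hij (hx.symm.trans hx')
  · intro i _
    exact hk i

/-- Two maps with finitely many values and equal fiber masses have equal image measures. -/
lemma map_eq_of_fibers {α β E : Type*} [MeasurableSpace α] [MeasurableSpace β] [MeasurableSpace E]
    {f : α → ι} {g : β → ι} (hf : ∀ i, MeasurableSet (f ⁻¹' {i})) (hg : ∀ i, MeasurableSet (g ⁻¹' {i}))
    {μ : Measure α} {ν : Measure β} (h : ∀ i, μ (f ⁻¹' {i}) = ν (g ⁻¹' {i})) (Y : ι → E) :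
    Measure.map (fun x => Y (f x)) μ = Measure.map (fun x => Y (g x)) ν := by
  classical
  ext B hB
  rw [Measure.map_apply (measurable_comp_fiber hf Y) hB, Measure.map_apply (measurable_comp_fiber hg Y) hB,
    measure_preimage_comp_fiber hf, measure_preimage_comp_fiber hg]
  exact Finset.sum_congr rfl fun i _ => h i

end Vale.Agent.P074
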