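import Vale.Agent.P074.Lebesgue

open MeasureTheory Set Metric Filter Topology
open scoped ENNReal NNReal

namespace Vale.Agent.P074

variable {d : ℕ}

/-- Partial sums along a chain. -/
noncomputable def chainSum (T : Eu d → Eu d) (x : ℕ → Eu d) (n : ℕ) : ℝ :=
  ∑ i ∈ Finset.range n, inner ℝ (x i) (T (x (i + 1)) - T (x i))

/-- The affine function attached to a chain. -/
noncomputable def chainVal (T : Eu d → Eu d) (x : ℕ → Eu d) (n : ℕ) (y : Eu d) : ℝ :=
  chainSum T x n + inner ℝ (x n) (y - T (x n))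

/-- Closed cycles have nonpositive sum at Lebesgue points. -/
lemma chain_cycle {K : Set (Eu d)} (hK : IsCompact K) (h0 : volume K ≠ 0)
    {μ : Measure (Eu d)} {T : Eu d → Eu d} {R : ℝ} (hbd : ∀ x, ‖T x‖ ≤ R)
    (hT : IsOptimalMap (unif K) μ T) {e : Eu d} (he : ‖e‖ = 1)
    (x : ℕ → Eu d) (hxK : ∀ i, x i ∈ interior K) (hgood : ∀ i, GoodPoint T (x i)) (n : ℕ) :
    chainVal T x n (T (x 0)) ≤ 0 := by
  have hmain := cyc_good hK h0 hbd hT he (ι := Fin (n + 1)) (fun j => (j : ℕ)) Fin.val_injective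
    (fun j => x j) (fun j => hxK j) (fun j => hgood j) (finRotate (n + 1))⁻¹
  rw [← Equiv.sum_comp (finRotate (n + 1))] at hmain
  simp only [Equiv.Perm.inv_def, Equiv.symm_apply_apply] at hmain
  rw [Fin.sum_univ_castSucc] at hmain
  have h1 : ∀ i : Fin n, finRotate (n + 1) i.castSucc = i.succ := by
    intro i
    simp
  simp only [h1, finRotate_last] at hmain
  simp only [Fin.val_castSucc, Fin.val_succ, Fin.val_last, Fin.val_zero] at hmain
  rw [← Finset.sum_range (fun i => inner ℝ (x i - x (i + 1)) (T (x (i + 1))))] at hmain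
  have htel : ∑ i ∈ Finset.range n, (inner ℝ (x (i + 1)) (T (x (i + 1))) - inner ℝ (x i) (T (x i)))
      = inner ℝ (x n) (T (x n)) - inner ℝ (x 0) (T (x 0)) :=
    Finset.sum_range_sub (fun i => (inner ℝ (x i) (T (x i)) : ℝ)) n
  have hsum : chainSum T x n = ∑ i ∈ Finset.range n, inner ℝ (x i - x (i + 1)) (T (x (i + 1)))
      + ∑ i ∈ Finset.range n, (inner ℝ (x (i + 1)) (T (x (i + 1))) - inner ℝ (x i) (T (x i))) := by
    unfold chainSum
    rw [← Finset.sum_add_distrib]
    refine Finset.sum_congr rfl fun i _ => ?_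
    simp only [inner_sub_left, inner_sub_right]
    ring
  unfold chainVal
  rw [hsum, htel]
  simp only [inner_sub_left, inner_sub_right] at hmain ⊢
  linarith

lemma chainVal_le {K : Set (Eu d)} (hK : IsCompact K) (h0 : volume K ≠ 0)
    {μ : Measure (Eu d)} {T : Eu d → Eu d} {R : ℝ} (hbd : ∀ x, ‖T x‖ ≤ R)
    (hT : IsOptimalMap (unif K) μ T) {e : Eu d} (he : ‖e‖ = 1)
    {RK : ℝ} (hRK : ∀ x ∈ K, ‖x‖ ≤ RK)
    (x : ℕ → Eu d) (hxK : ∀ i, x i ∈ interior K) (hgood : ∀ i, GoodPoint T (x i)) (n : ℕ)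
    (y : Eu d) :
    chainVal T x n y ≤ RK * ‖y - T (x 0)‖ := by
  have h1 := chain_cycle hK h0 hbd hT he x hxK hgood n
  have h2 : chainVal T x n y = chainVal T x n (T (x 0)) + inner ℝ (x n) (y - T (x 0)) := by
    unfold chainVal
    simp only [inner_sub_right]
    ring
  have h3 : (inner ℝ (x n) (y - T (x 0)) : ℝ) ≤ RK * ‖y - T (x 0)‖ := by
    refine (real_inner_le_norm _ _).trans ?_
    exact mul_le_mul_of_nonneg_right (hRK _ (interior_subset (hxK n))) (norm_nonneg _)
  rw [h2]
  linarith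

/-- **Rockafellar's construction.** An optimal map with bounded values is, at Lebesgue points,
a selection of the inverse subdifferential of a Lipschitz function. -/
lemma exists_potential {K : Set (Eu d)} (hK : IsCompact K) (h0 : volume K ≠ 0)
    {μ : Measure (Eu d)} {T : Eu d → Eu d} {R : ℝ} (hbd : ∀ x, ‖T x‖ ≤ R)
    (hT : IsOptimalMap (unif K) μ T) {e : Eu d} (he : ‖e‖ = 1)
    {RK : ℝ≥0} (hRK : ∀ x ∈ K, ‖x‖ ≤ RK)
    {x₀ : Eu d} (hx₀K : x₀ ∈ interior K) (hx₀g : GoodPoint T x₀) :
    ∃ ψ : Eu d → ℝ, LipschitzWith RK ψ ∧ ∀ a, a ∈ interior K → GoodPoint T a →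
      ∀ y, ψ (T a) + inner ℝ a (y - T a) ≤ ψ y := by
  classical
  let Ch := {p : ℕ × (ℕ → Eu d) // p.2 0 = x₀ ∧ ∀ i, p.2 i ∈ interior K ∧ GoodPoint T (p.2 i)}
  have hCh : Nonempty Ch := ⟨⟨(0, fun _ => x₀), rfl, fun _ => ⟨hx₀K, hx₀g⟩⟩⟩
  let ψ : Eu d → ℝ := fun y => ⨆ p : Ch, chainVal T p.1.2 p.1.1 y
  have hbdd : ∀ y, BddAbove (range fun p : Ch => chainVal T p.1.2 p.1.1 y) := by
    intro y
    refine ⟨RK * ‖y - T x₀‖, ?_⟩
    rintro _ ⟨p, rfl⟩
    have := chainVal_le hK h0 hbd hT he hRK p.1.2 (fun i => (p.2.2 i).1) (fun i => (p.2.2 i).2)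
      p.1.1 y
    simpa [p.2.1] using this
  refine ⟨ψ, ?_, ?_⟩
  · refine LipschitzWith.of_le_add_mul RK fun y y' => ?_
    refine ciSup_le fun p => ?_
    have h1 : chainVal T p.1.2 p.1.1 y' ≤ ψ y' := le_ciSup (hbdd y') p
    have h2 : chainVal T p.1.2 p.1.1 y = chainVal T p.1.2 p.1.1 y' + inner ℝ (p.1.2 p.1.1) (y - y') := by
      unfold chainVal
      simp only [inner_sub_right]
      ring
    have h3 : (inner ℝ (p.1.2 p.1.1) (y - y') : ℝ) ≤ RK * dist y y' := by
      rw [dist_eq_norm]
      refine (real_inner_le_norm _ _).trans ?_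
      exact mul_le_mul_of_nonneg_right (hRK _ (interior_subset (p.2.2 _).1)) (norm_nonneg _)
    rw [h2]
    linarith
  · intro a haK hag y
    have hle : ψ (T a) ≤ ψ y - inner ℝ a (y - T a) := by
      refine ciSup_le fun p => ?_
      obtain ⟨⟨n, x⟩, hx0, hx⟩ := p
      simp only at hx0 hx ⊢
      let x' : ℕ → Eu d := Function.update x (n + 1) a
      have hx'0 : x' 0 = x₀ := by
        simp only [x']
        rw [Function.update_of_ne (Nat.succ_ne_zero n).symm]
        exact hx0
      have hx'mem : ∀ i, x' i ∈ interior K ∧ GoodPoint T (x' i) := by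
        intro i
        by_cases hi : i = n + 1
        · subst hi
          simp only [x', Function.update_self]
          exact ⟨haK, hag⟩
        · simp only [x']
          rw [Function.update_of_ne hi]
          exact hx i
      have h1 : chainVal T x' (n + 1) y ≤ ψ y :=
        le_ciSup (hbdd y) (⟨(n + 1, x'), hx'0, hx'mem⟩ : Ch)
      have hn : x' n = x n := by
        simp only [x']
        rw [Function.update_of_ne (Nat.ne_of_lt (Nat.lt_succ_self n))]
      have hn1 : x' (n + 1) = a := by simp [x']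
      have hs : chainSum T x' n = chainSum T x n := by
        unfold chainSum
        refine Finset.sum_congr rfl fun i hi => ?_
        have hi' := Finset.mem_range.1 hi
        have e1 : x' i = x i := by
          simp only [x']
          rw [Function.update_of_ne (by omega)]
        have e2 : x' (i + 1) = x (i + 1) := by
          simp only [x']
          rw [Function.update_of_ne (by omega)]
        rw [e1, e2]
      have h2 : chainVal T x' (n + 1) y = chainVal T x n (T a) + inner ℝ a (y - T a) := by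
        unfold chainVal
        have : chainSum T x' (n + 1) = chainSum T x' n + inner ℝ (x' n) (T (x' (n + 1)) - T (x' n)) := by
          unfold chainSum
          rw [Finset.sum_range_succ]
        rw [this, hs, hn, hn1]
      rw [h2] at h1
      linarith
    linarith

end Vale.Agent.P074
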