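import Vale.Agent.P074.Translate
import Vale.Agent.P074.Potential

open MeasureTheory Set Metric Filter Topology
open scoped ENNReal NNReal

namespace Vale.Agent.P074

variable {d : ℕ}

/-- `x` is a subgradient of `ψ` at `T x`. -/
def IsDual (ψ : Eu d → ℝ) (T : Eu d → Eu d) (x : Eu d) : Prop :=
  ∀ y, ψ (T x) + inner ℝ x (y - T x) ≤ ψ y

lemma gap_lower {ψ : Eu d → ℝ} {T₀ T₁ : Eu d → Eu d} {x z : Eu d} (hx : IsDual ψ T₁ x)
    (hz : IsDual ψ T₁ z) :
    inner ℝ (z - x) (T₀ x - T₁ z) ≤ ψ (T₀ x) - ψ (T₁ x) - inner ℝ x (T₀ x - T₁ x) := by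
  have h1 := hz (T₀ x)
  have h2 := hx (T₁ z)
  simp only [inner_sub_left, inner_sub_right] at h1 h2 ⊢
  linarith

lemma gap_nonneg {ψ : Eu d → ℝ} {T₀ T₁ : Eu d → Eu d} {x : Eu d} (hx : IsDual ψ T₁ x) :
    0 ≤ ψ (T₀ x) - ψ (T₁ x) - inner ℝ x (T₀ x - T₁ x) := by
  have h1 := hx (T₀ x)
  linarith

lemma dual_mono {ψ : Eu d → ℝ} {T₁ : Eu d → Eu d} {x z : Eu d} (hx : IsDual ψ T₁ x)
    (hz : IsDual ψ T₁ z) : 0 ≤ inner ℝ (z - x) (T₁ z - T₁ x) := by
  have h1 := hz (T₁ x)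
  have h2 := hx (T₁ z)
  simp only [inner_sub_left, inner_sub_right] at h1 h2 ⊢
  linarith

/-- The pointwise estimate. -/
lemma pointwise_est {ψ : Eu d → ℝ} {T₀ T₁ : Eu d → Eu d} {x a u : Eu d} {t : ℝ} (ht : 0 < t)
    (ha : a = t • u) (hx : IsDual ψ T₁ x) (hp : IsDual ψ T₁ (x + a))
    (hm : IsDual ψ T₁ (x + -a)) :
    |inner ℝ u (T₀ x - T₁ x)| ≤ (1 / t) * (ψ (T₀ x) - ψ (T₁ x) - inner ℝ x (T₀ x - T₁ x))
      + (inner ℝ u (T₁ (x + a)) - inner ℝ u (T₁ (x + -a))) := by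
  set B := ψ (T₀ x) - ψ (T₁ x) - inner ℝ x (T₀ x - T₁ x) with hB
  have h1 : inner ℝ (x + a - x) (T₀ x - T₁ (x + a)) ≤ B := gap_lower hx hp
  have h2 : inner ℝ (x + -a - x) (T₀ x - T₁ (x + -a)) ≤ B := gap_lower hx hm
  have h3 := dual_mono hx hp
  have h4 := dual_mono hx hm
  have e1 : x + a - x = t • u := by rw [ha]; abel
  have e2 : x + -a - x = (-t) • u := by rw [ha, neg_smul]; abel
  rw [e1] at h1 h3
  rw [e2] at h2 h4
  simp only [real_inner_smul_left, inner_sub_right] at h1 h2 h3 h4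
  have hinv : (1 / t) * B = B / t := by ring
  rw [hinv, inner_sub_right]
  set A₀ : ℝ := inner ℝ u (T₀ x)
  set A₁ : ℝ := inner ℝ u (T₁ x)
  set A₂ : ℝ := inner ℝ u (T₁ (x + a))
  set A₃ : ℝ := inner ℝ u (T₁ (x + -a))
  have h5 : A₀ - A₂ ≤ B / t := by
    rw [le_div_iff₀ ht]; nlinarith
  have h6 : A₃ - A₀ ≤ B / t := by
    rw [le_div_iff₀ ht]; nlinarith
  have h7 : 0 ≤ A₂ - A₁ := by
    by_contra hcon
    push Not at hcon
    nlinarith
  have h8 : 0 ≤ A₁ - A₃ := by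
    by_contra hcon
    push Not at hcon
    nlinarith
  rw [abs_le]
  constructor <;> linarith


/-- The `L¹` estimate in a fixed direction. -/
theorem core_L1 {K : Set (Eu d)} (hK : IsCompact K) {T₀ T₁ : Eu d → Eu d} {R : ℝ}
    (hT₀m : Measurable T₀) (hT₁m : Measurable T₁) (hbd₀ : ∀ x, ‖T₀ x‖ ≤ R) (hbd₁ : ∀ x, ‖T₁ x‖ ≤ R)
    {ψ : Eu d → ℝ} {L : ℝ≥0} (hψ : LipschitzWith L ψ)
    (hdual : ∀ᵐ x ∂(volume.restrict K), IsDual ψ T₁ x)
    {c : ℝ} (hc : ∀ h : Eu d, (volume (K \ {x | x + h ∈ K})).toReal ≤ c * ‖h‖)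
    {u : Eu d} (hu : ‖u‖ = 1) {t : ℝ} (ht : 0 < t) :
    ∫ x in K, |inner ℝ u (T₀ x - T₁ x)| ≤
      (1 / t) * (∫ x in K, (ψ (T₀ x) - ψ (T₁ x) - inner ℝ x (T₀ x - T₁ x))) + 8 * R * c * t := by
  set a : Eu d := t • u with ha
  have hna : ‖a‖ = t := by
    rw [ha, norm_smul, hu, mul_one, Real.norm_of_nonneg ht.le]
  have hna' : ‖-a‖ = t := by rw [norm_neg, hna]
  have hKm : MeasurableSet K := hK.measurableSet
  have hKfin : volume K < ∞ := hK.measure_lt_top
  have hR0 : 0 ≤ R := (norm_nonneg _).trans (hbd₀ 0)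
  set S₁ : Set (Eu d) := {x | x + a ∈ K} with hS₁
  set S₂ : Set (Eu d) := {x | x + -a ∈ K} with hS₂
  have hS₁m : MeasurableSet S₁ := (measurable_id.add_const a) hKm
  have hS₂m : MeasurableSet S₂ := (measurable_id.add_const (-a)) hKm
  set Kt : Set (Eu d) := K ∩ S₁ ∩ S₂ with hKt
  have hKtm : MeasurableSet Kt := (hKm.inter hS₁m).inter hS₂m
  have hKtsub : Kt ⊆ K := fun x hx => hx.1.1
  have hKtfin : volume Kt < ∞ := (measure_mono hKtsub).trans_lt hKfin
  set δ := (volume (K \ Kt)).toReal with hδ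
  have hδle : δ ≤ 2 * c * t := by
    have hsub : K \ Kt ⊆ (K \ S₁) ∪ (K \ S₂) := by
      intro x hx
      by_cases h1 : x ∈ S₁
      · right
        exact ⟨hx.1, fun h2 => hx.2 ⟨⟨hx.1, h1⟩, h2⟩⟩
      · left
        exact ⟨hx.1, h1⟩
    have h1 := hc a
    have h2 := hc (-a)
    rw [hna] at h1
    rw [hna'] at h2
    have hf1 : volume (K \ S₁) ≠ ∞ := ((measure_mono sdiff_subset).trans_lt hKfin).ne
    have hf2 : volume (K \ S₂) ≠ ∞ := ((measure_mono sdiff_subset).trans_lt hKfin).ne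
    have : δ ≤ (volume (K \ S₁)).toReal + (volume (K \ S₂)).toReal := by
      rw [← ENNReal.toReal_add hf1 hf2]
      exact ENNReal.toReal_mono (ENNReal.add_ne_top.2 ⟨hf1, hf2⟩)
        ((measure_mono hsub).trans (measure_union_le _ _))
    linarith
  -- the functions
  set w : Eu d → ℝ := fun x => |inner ℝ u (T₀ x - T₁ x)| with hw
  set g : Eu d → ℝ := fun x => inner ℝ u (T₁ x) with hg
  set B : Eu d → ℝ := fun x => ψ (T₀ x) - ψ (T₁ x) - inner ℝ x (T₀ x - T₁ x) with hB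
  have hψm : Measurable ψ := hψ.continuous.measurable
  have hwm : Measurable w := ((measurable_const.inner (hT₀m.sub hT₁m))).abs
  have hgm : Measurable g := measurable_const.inner hT₁m
  have hBm : Measurable B :=
    ((hψm.comp hT₀m).sub (hψm.comp hT₁m)).sub (measurable_id.inner (hT₀m.sub hT₁m))
  have hwbd : ∀ x, ‖w x‖ ≤ 2 * R := by
    intro x
    simp only [hw, norm_abs_eq_norm, Real.norm_eq_abs]
    refine (abs_real_inner_le_norm _ _).trans ?_
    rw [hu, one_mul]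
    have := norm_sub_le (T₀ x) (T₁ x)
    linarith [hbd₀ x, hbd₁ x]
  have hgbd : ∀ x, ‖g x‖ ≤ R := by
    intro x
    simp only [hg, Real.norm_eq_abs]
    refine (abs_real_inner_le_norm _ _).trans ?_
    rw [hu, one_mul]
    exact hbd₁ x
  obtain ⟨RK, hRK⟩ := hK.isBounded.subset_closedBall (0 : Eu d)
  have hRKn : ∀ x ∈ K, ‖x‖ ≤ RK := fun x hx => by simpa using hRK hx
  have hBbd : ∀ x ∈ K, ‖B x‖ ≤ (L + |RK|) * (2 * R) := by
    intro x hx
    have h1 : |ψ (T₀ x) - ψ (T₁ x)| ≤ L * ‖T₀ x - T₁ x‖ := by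
      have := hψ.dist_le_mul (T₀ x) (T₁ x)
      rwa [Real.dist_eq, dist_eq_norm] at this
    have h2 : |(inner ℝ x (T₀ x - T₁ x) : ℝ)| ≤ ‖x‖ * ‖T₀ x - T₁ x‖ := abs_real_inner_le_norm _ _
    have h3 : ‖T₀ x - T₁ x‖ ≤ 2 * R := by
      have := norm_sub_le (T₀ x) (T₁ x)
      linarith [hbd₀ x, hbd₁ x]
    have h4 : ‖x‖ ≤ |RK| := (hRKn x hx).trans (le_abs_self _)
    simp only [hB, Real.norm_eq_abs]
    have h5 : |ψ (T₀ x) - ψ (T₁ x) - inner ℝ x (T₀ x - T₁ x)|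
        ≤ |ψ (T₀ x) - ψ (T₁ x)| + |(inner ℝ x (T₀ x - T₁ x) : ℝ)| := abs_sub _ _
    have hL : (0 : ℝ) ≤ L := L.2
    have h6 : ‖x‖ * ‖T₀ x - T₁ x‖ ≤ |RK| * (2 * R) :=
      mul_le_mul h4 h3 (norm_nonneg _) (abs_nonneg _)
    have h7 : (L : ℝ) * ‖T₀ x - T₁ x‖ ≤ L * (2 * R) := mul_le_mul_of_nonneg_left h3 hL
    nlinarith
  have hint : ∀ (f : Eu d → ℝ) (S : Set (Eu d)) (C : ℝ), Measurable f → MeasurableSet S →
      volume S < ∞ → (∀ x ∈ S, ‖f x‖ ≤ C) → IntegrableOn f S := by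
    intro f S C hf hS hSf hb
    exact Measure.integrableOn_of_bounded hSf.ne hf.aestronglyMeasurable (M := C)
      (ae_restrict_of_forall_mem hS hb)
  have hwi : IntegrableOn w K := hint w K _ hwm hKm hKfin fun x _ => hwbd x
  have hgi : IntegrableOn g K := hint g K _ hgm hKm hKfin fun x _ => hgbd x
  have hBi : IntegrableOn B K := hint B K _ hBm hKm hKfin hBbd
  have hg₁i : IntegrableOn (fun x => g (x + a)) Kt :=
    hint _ Kt R (hgm.comp (measurable_id.add_const a)) hKtm hKtfin fun x _ => hgbd _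
  have hg₂i : IntegrableOn (fun x => g (x + -a)) Kt :=
    hint _ Kt R (hgm.comp (measurable_id.add_const (-a))) hKtm hKtfin fun x _ => hgbd _
  -- almost everywhere pointwise bound
  have hd1 : ∀ᵐ x, x ∈ K → IsDual ψ T₁ x := (ae_restrict_iff' hKm).1 hdual
  have hd2 : ∀ᵐ x, x + a ∈ K → IsDual ψ T₁ (x + a) :=
    (measurePreserving_add_right volume a).quasiMeasurePreserving.ae hd1
  have hd3 : ∀ᵐ x, x + -a ∈ K → IsDual ψ T₁ (x + -a) :=
    (measurePreserving_add_right volume (-a)).quasiMeasurePreserving.ae hd1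
  have hpt : ∀ᵐ x, x ∈ Kt → w x ≤ (1 / t) * B x + (g (x + a) - g (x + -a)) := by
    filter_upwards [hd1, hd2, hd3] with x h1 h2 h3 hx
    exact pointwise_est ht rfl (h1 hx.1.1) (h2 hx.1.2) (h3 hx.2)
  have hRHSi : IntegrableOn (fun x => (1 / t) * B x + (g (x + a) - g (x + -a))) Kt :=
    ((hBi.mono_set hKtsub).const_mul _).add (hg₁i.sub hg₂i)
  have hI1 : ∫ x in Kt, w x ≤ ∫ x in Kt, ((1 / t) * B x + (g (x + a) - g (x + -a))) :=
    setIntegral_mono_on_ae (hwi.mono_set hKtsub) hRHSi hKtm hpt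
  have hI2 : ∫ x in Kt, ((1 / t) * B x + (g (x + a) - g (x + -a)))
      = (1 / t) * (∫ x in Kt, B x) + ((∫ x in Kt, g (x + a)) - ∫ x in Kt, g (x + -a)) := by
    have h1 : ∫ x in Kt, ((1 / t) * B x + (g (x + a) - g (x + -a)))
        = (∫ x in Kt, (1 / t) * B x) + ∫ x in Kt, (g (x + a) - g (x + -a)) :=
      integral_add ((hBi.mono_set hKtsub).const_mul _) (hg₁i.sub hg₂i)
    have h2 : ∫ x in Kt, (g (x + a) - g (x + -a))
        = (∫ x in Kt, g (x + a)) - ∫ x in Kt, g (x + -a) :=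
      integral_sub hg₁i hg₂i
    rw [h1, h2, integral_const_mul]
  -- shifted integrals
  set A₁ : Set (Eu d) := {y | y + -a ∈ Kt} with hA₁
  set A₂ : Set (Eu d) := {y | y + a ∈ Kt} with hA₂
  have hA₁m : MeasurableSet A₁ := (measurable_id.add_const (-a)) hKtm
  have hA₂m : MeasurableSet A₂ := (measurable_id.add_const a) hKtm
  have hA₁sub : A₁ ⊆ K := by
    intro y hy
    have h : y + -a + a ∈ K := hy.1.2
    simpa using h
  have hA₂sub : A₂ ⊆ K := by
    intro y hy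
    have h : y + a + -a ∈ K := hy.2
    simpa using h
  have hvA₁ : volume A₁ = volume Kt := measure_preimage_add_right volume (-a) Kt
  have hvA₂ : volume A₂ = volume Kt := measure_preimage_add_right volume a Kt
  have hshift₁ : ∫ x in Kt, g (x + a) = ∫ y in A₁, g y := by
    have h := (measurePreserving_add_right volume a).setIntegral_preimage_emb
      (measurableEmbedding_addRight a) g A₁
    have hpre : (fun x => x + a) ⁻¹' A₁ = Kt := by
      ext x
      simp [hA₁]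
    rw [hpre] at h
    exact h
  have hshift₂ : ∫ x in Kt, g (x + -a) = ∫ y in A₂, g y := by
    have h := (measurePreserving_add_right volume (-a)).setIntegral_preimage_emb
      (measurableEmbedding_addRight (-a)) g A₂
    have hpre : (fun x => x + -a) ⁻¹' A₂ = Kt := by
      ext x
      simp [hA₂]
    rw [hpre] at h
    exact h
  have hdiffbd : ∀ A : Set (Eu d), MeasurableSet A → A ⊆ K → volume A = volume Kt →
      |(∫ x in K, g x) - ∫ x in A, g x| ≤ R * δ := by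
    intro A hAm hAsub hAv
    rw [← setIntegral_sdiff hAm hgi hAsub, ← Real.norm_eq_abs]
    have hfin : volume (K \ A) < ∞ := (measure_mono sdiff_subset).trans_lt hKfin
    refine (norm_setIntegral_le_of_norm_le_const hfin fun x _ => hgbd x).trans ?_
    have hAfin : volume A ≠ ∞ := ((measure_mono hAsub).trans_lt hKfin).ne
    have h2 : volume (K \ A) = volume (K \ Kt) := by
      rw [measure_sdiff hAsub hAm.nullMeasurableSet hAfin,
        measure_sdiff hKtsub hKtm.nullMeasurableSet hKtfin.ne, hAv]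
    unfold Measure.real
    rw [h2]
  have hgdiff : (∫ x in Kt, g (x + a)) - (∫ x in Kt, g (x + -a)) ≤ 2 * R * δ := by
    rw [hshift₁, hshift₂]
    have h1 := abs_le.1 (hdiffbd A₁ hA₁m hA₁sub hvA₁)
    have h2 := abs_le.1 (hdiffbd A₂ hA₂m hA₂sub hvA₂)
    linarith [h1.1, h2.2]
  -- the bad set
  have hbad : ∫ x in K, w x ≤ (∫ x in Kt, w x) + 2 * R * δ := by
    have h1 := setIntegral_sdiff hKtm hwi hKtsub
    have hfin : volume (K \ Kt) < ∞ := (measure_mono sdiff_subset).trans_lt hKfin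
    have h2 : ‖∫ x in K \ Kt, w x‖ ≤ 2 * R * (volume.real (K \ Kt)) :=
      norm_setIntegral_le_of_norm_le_const hfin fun x _ => hwbd x
    have h3 : ∫ x in K \ Kt, w x ≤ 2 * R * δ := (le_abs_self _).trans h2
    linarith
  have hBnn : 0 ≤ᵐ[volume.restrict K] B := by
    filter_upwards [hdual] with x hx
    exact gap_nonneg hx
  have hBle : ∫ x in Kt, B x ≤ ∫ x in K, B x :=
    setIntegral_mono_set hBi hBnn (LE.le.eventuallyLE hKtsub)
  have hinvt : 0 ≤ 1 / t := by positivity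
  have hfinal : (1 / t) * (∫ x in Kt, B x) ≤ (1 / t) * ∫ x in K, B x :=
    mul_le_mul_of_nonneg_left hBle hinvt
  have hRδ : 4 * R * δ ≤ 8 * R * c * t := by nlinarith
  linarith

end Vale.Agent.P074
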