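import Vale.Agent.P074.Final

open MeasureTheory Set Metric Filter Topology
open scoped ENNReal NNReal

namespace Vale.Agent.P074

variable {d : ℕ}

/-- The pointwise estimate from two subgradient families. -/
lemma pointwise_quad {φ₀ φ₁ : Eu d → ℝ} {T₀ T₁ : Eu d → Eu d} {c : ℝ}
    (hs₀ : ∀ x y, φ₀ x + inner ℝ (y - x) (T₀ x) ≤ φ₀ y)
    (hs₁ : ∀ x y, φ₁ x + inner ℝ (y - x) (T₁ x) ≤ φ₁ y)
    {x a u : Eu d} {t : ℝ} (ht : 0 < t) (ha : a = t • u) :
    let q := fun z => φ₁ z - φ₀ z + c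
    let g := fun z => (inner ℝ u (T₁ z) : ℝ)
    0 ≤ g (x + a) - g (x + -a) ∧
    |inner ℝ u (T₀ x - T₁ x)| ≤ (|q x| + |q (x + a)| + |q (x + -a)|) / t + (g (x + a) - g (x + -a)) := by
  intro q g
  have e1 : x + a - x = t • u := by rw [ha]; abel
  have e2 : x + -a - x = (-t) • u := by rw [ha, neg_smul]; abel
  have e3 : x - (x + a) = (-t) • u := by rw [ha, neg_smul]; abel
  have e4 : x - (x + -a) = t • u := by rw [ha]; abel
  -- the four subgradient inequalities at the shifted points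
  have h1 := hs₀ x (x + a)
  have h2 := hs₁ (x + a) x
  have h3 := hs₀ x (x + -a)
  have h4 := hs₁ (x + -a) x
  have h5 := hs₁ x (x + a)
  have h6 := hs₁ x (x + -a)
  rw [e1] at h1 h5
  rw [e2] at h3 h6
  rw [e3] at h2
  rw [e4] at h4
  simp only [real_inner_smul_left] at h1 h2 h3 h4 h5 h6
  set A₀ : ℝ := inner ℝ u (T₀ x) with hA₀
  have hA₁ : (inner ℝ u (T₁ x) : ℝ) = g x := rfl
  have hA₂ : (inner ℝ u (T₁ (x + a)) : ℝ) = g (x + a) := rfl
  have hA₃ : (inner ℝ u (T₁ (x + -a)) : ℝ) = g (x + -a) := rfl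
  rw [hA₁] at h5 h6
  rw [hA₂] at h2
  rw [hA₃] at h4
  -- monotonicity of `g`
  have hm1 : g x ≤ g (x + a) := by
    by_contra hcon
    push Not at hcon
    nlinarith
  have hm2 : g (x + -a) ≤ g x := by
    by_contra hcon
    push Not at hcon
    nlinarith
  refine ⟨by linarith, ?_⟩
  rw [inner_sub_right, ← hA₀, hA₁]
  have hq1 : φ₁ x - φ₀ x + c = q x := rfl
  have hq2 : φ₁ (x + a) - φ₀ (x + a) + c = q (x + a) := rfl
  have hq3 : φ₁ (x + -a) - φ₀ (x + -a) + c = q (x + -a) := rfl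
  have hF1 : t * (A₀ - g (x + a)) ≤ q x - q (x + a) := by
    rw [← hq1, ← hq2]; nlinarith
  have hF2 : t * (g (x + -a) - A₀) ≤ q x - q (x + -a) := by
    rw [← hq1, ← hq3]; nlinarith
  have hb1 := le_abs_self (q x)
  have hb2 := neg_abs_le (q (x + a))
  have hb3 := neg_abs_le (q (x + -a))
  have hb4 := abs_nonneg (q x)
  have hb5 := abs_nonneg (q (x + a))
  have hb6 := abs_nonneg (q (x + -a))
  set F := |q x| + |q (x + a)| + |q (x + -a)| with hF
  have h7 : A₀ - g (x + a) ≤ F / t := by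
    rw [le_div_iff₀ ht]
    nlinarith
  have h8 : g (x + -a) - A₀ ≤ F / t := by
    rw [le_div_iff₀ ht]
    nlinarith
  rw [abs_le]
  constructor <;> linarith

/-- The quadratic estimate in a fixed direction. -/
theorem core_quad {K : Set (Eu d)} (hK : IsCompact K) {T₀ T₁ : Eu d → Eu d} {R : ℝ}
    (hT₀m : Measurable T₀) (hT₁m : Measurable T₁) (hbd₀ : ∀ x, ‖T₀ x‖ ≤ R) (hbd₁ : ∀ x, ‖T₁ x‖ ≤ R)
    {q : Eu d → ℝ} (hq : Continuous q)
    {c : ℝ} (hc : ∀ h : Eu d, (volume (K \ {x | x + h ∈ K})).toReal ≤ c * ‖h‖)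
    {u : Eu d} (hu : ‖u‖ = 1) {t : ℝ} (ht : 0 < t)
    (hg : ∀ x, 0 ≤ (inner ℝ u (T₁ (x + t • u)) : ℝ) - inner ℝ u (T₁ (x + -(t • u))))
    (hpt : ∀ x, |inner ℝ u (T₀ x - T₁ x)| ≤ (|q x| + |q (x + t • u)| + |q (x + -(t • u))|) / t
        + ((inner ℝ u (T₁ (x + t • u)) : ℝ) - inner ℝ u (T₁ (x + -(t • u))))) :
    ∫ x in K, (inner ℝ u (T₀ x - T₁ x) : ℝ) ^ 2 ≤ (9 / t ^ 2) * (∫ x in K, q x ^ 2) + 24 * R ^ 2 * c * t := by
  set a : Eu d := t • u with ha
  have hna : ‖a‖ = t := by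
    rw [ha, norm_smul, hu, mul_one, Real.norm_of_nonneg ht.le]
  have hna' : ‖-a‖ = t := by rw [norm_neg, hna]
  have hKm : MeasurableSet K := hK.measurableSet
  have hKfin : volume K < ∞ := hK.measure_lt_top
  have hR0 : 0 ≤ R := (norm_nonneg _).trans (hbd₀ 0)
  set S₁ : Set (Eu d) := {x | x + a ∈ K} with hS₁
  set S₂ : Set (Eu d) := {x | x + -a ∈ K} with hS₂
  have hS₁m : MeasurableSet S₁ := (measurable_id.add_const a) hKm
  have hS₂m : MeasurableSet S₂ := (measurable_id.add_const (-a)) hKm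
  set Kt : Set (Eu d) := K ∩ S₁ ∩ S₂ with hKt
  have hKtm : MeasurableSet Kt := (hKm.inter hS₁m).inter hS₂m
  have hKtsub : Kt ⊆ K := fun x hx => hx.1.1
  have hKtfin : volume Kt < ∞ := (measure_mono hKtsub).trans_lt hKfin
  set δ := (volume (K \ Kt)).toReal with hδ
  have hδle : δ ≤ 2 * c * t := by
    have hsub : K \ Kt ⊆ (K \ S₁) ∪ (K \ S₂) := by
      intro x hx
      by_cases h1 : x ∈ S₁
      · right
        exact ⟨hx.1, fun h2 => hx.2 ⟨⟨hx.1, h1⟩, h2⟩⟩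
      · left
        exact ⟨hx.1, h1⟩
    have h1 := hc a
    have h2 := hc (-a)
    rw [hna] at h1
    rw [hna'] at h2
    have hf1 : volume (K \ S₁) ≠ ∞ := ((measure_mono sdiff_subset).trans_lt hKfin).ne
    have hf2 : volume (K \ S₂) ≠ ∞ := ((measure_mono sdiff_subset).trans_lt hKfin).ne
    have : δ ≤ (volume (K \ S₁)).toReal + (volume (K \ S₂)).toReal := by
      rw [← ENNReal.toReal_add hf1 hf2]
      exact ENNReal.toReal_mono (ENNReal.add_ne_top.2 ⟨hf1, hf2⟩)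
        ((measure_mono hsub).trans (measure_union_le _ _))
    linarith
  -- the functions
  set w : Eu d → ℝ := fun x => inner ℝ u (T₀ x - T₁ x) with hw
  set g : Eu d → ℝ := fun x => inner ℝ u (T₁ x) with hgd
  have hwm : Measurable w := measurable_const.inner (hT₀m.sub hT₁m)
  have hgm : Measurable g := measurable_const.inner hT₁m
  have hwbd : ∀ x, |w x| ≤ 2 * R := by
    intro x
    refine (abs_real_inner_le_norm _ _).trans ?_
    rw [hu, one_mul]
    have := norm_sub_le (T₀ x) (T₁ x)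
    linarith [hbd₀ x, hbd₁ x]
  have hgbd : ∀ x, ‖g x‖ ≤ R := by
    intro x
    simp only [hgd, Real.norm_eq_abs]
    refine (abs_real_inner_le_norm _ _).trans ?_
    rw [hu, one_mul]
    exact hbd₁ x
  have hw2bd : ∀ x, ‖w x ^ 2‖ ≤ (2 * R) ^ 2 := by
    intro x
    rw [Real.norm_of_nonneg (sq_nonneg _), ← sq_abs]
    exact pow_le_pow_left₀ (abs_nonneg _) (hwbd x) 2
  have hw2i : IntegrableOn (fun x => w x ^ 2) K :=
    integrableOn_of_bd (hwm.pow_const 2) hKm hKfin fun x _ => hw2bd x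
  have hgi : IntegrableOn g K := integrableOn_of_bd hgm hKm hKfin fun x _ => hgbd x
  have hg₁i : IntegrableOn (fun x => g (x + a)) Kt :=
    integrableOn_of_bd (hgm.comp (measurable_id.add_const a)) hKtm hKtfin fun x _ => hgbd _
  have hg₂i : IntegrableOn (fun x => g (x + -a)) Kt :=
    integrableOn_of_bd (hgm.comp (measurable_id.add_const (-a))) hKtm hKtfin fun x _ => hgbd _
  have hq2c : Continuous (fun x => q x ^ 2) := hq.pow 2
  have hq2i : IntegrableOn (fun x => q x ^ 2) K := hq2c.continuousOn.integrableOn_compact hK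
  -- the shifted sets
  set A₁ : Set (Eu d) := {y | y + -a ∈ Kt} with hA₁
  set A₂ : Set (Eu d) := {y | y + a ∈ Kt} with hA₂
  have hA₁m : MeasurableSet A₁ := (measurable_id.add_const (-a)) hKtm
  have hA₂m : MeasurableSet A₂ := (measurable_id.add_const a) hKtm
  have hA₁sub : A₁ ⊆ K := by
    intro y hy
    have h : y + -a + a ∈ K := hy.1.2
    simpa using h
  have hA₂sub : A₂ ⊆ K := by
    intro y hy
    have h : y + a + -a ∈ K := hy.2
    simpa using h
  have hvA₁ : volume A₁ = volume Kt := measure_preimage_add_right volume (-a) Kt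
  have hvA₂ : volume A₂ = volume Kt := measure_preimage_add_right volume a Kt
  have hshift₁ : ∀ f : Eu d → ℝ, ∫ x in Kt, f (x + a) = ∫ y in A₁, f y := by
    intro f
    have h := (measurePreserving_add_right volume a).setIntegral_preimage_emb
      (measurableEmbedding_addRight a) f A₁
    have hpre : (fun x => x + a) ⁻¹' A₁ = Kt := by
      ext x
      simp [hA₁]
    rw [hpre] at h
    exact h
  have hshift₂ : ∀ f : Eu d → ℝ, ∫ x in Kt, f (x + -a) = ∫ y in A₂, f y := by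
    intro f
    have h := (measurePreserving_add_right volume (-a)).setIntegral_preimage_emb
      (measurableEmbedding_addRight (-a)) f A₂
    have hpre : (fun x => x + -a) ⁻¹' A₂ = Kt := by
      ext x
      simp [hA₂]
    rw [hpre] at h
    exact h
  have hdiffbd : ∀ A : Set (Eu d), MeasurableSet A → A ⊆ K → volume A = volume Kt →
      |(∫ x in K, g x) - ∫ x in A, g x| ≤ R * δ := by
    intro A hAm hAsub hAv
    rw [← setIntegral_sdiff hAm hgi hAsub, ← Real.norm_eq_abs]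
    have hfin : volume (K \ A) < ∞ := (measure_mono sdiff_subset).trans_lt hKfin
    refine (norm_setIntegral_le_of_norm_le_const hfin fun x _ => hgbd x).trans ?_
    have hAfin : volume A ≠ ∞ := ((measure_mono hAsub).trans_lt hKfin).ne
    have h2 : volume (K \ A) = volume (K \ Kt) := by
      rw [measure_sdiff hAsub hAm.nullMeasurableSet hAfin,
        measure_sdiff hKtsub hKtm.nullMeasurableSet hKtfin.ne, hAv]
    unfold Measure.real
    rw [h2]
  have hgdiff : (∫ x in Kt, g (x + a)) - (∫ x in Kt, g (x + -a)) ≤ 2 * R * δ := by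
    rw [hshift₁ g, hshift₂ g]
    have h1 := abs_le.1 (hdiffbd A₁ hA₁m hA₁sub hvA₁)
    have h2 := abs_le.1 (hdiffbd A₂ hA₂m hA₂sub hvA₂)
    linarith [h1.1, h2.2]
  -- the pointwise bound
  have hqnn : ∀ S : Set (Eu d), S ⊆ K → ∫ x in S, q x ^ 2 ≤ ∫ x in K, q x ^ 2 := by
    intro S hS
    exact setIntegral_mono_set hq2i (ae_of_all _ (fun x => sq_nonneg _))
      (LE.le.eventuallyLE hS)
  have hq2ci : IntegrableOn (fun x => q x ^ 2) Kt := hq2i.mono_set hKtsub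
  have hq21 : IntegrableOn (fun x => q (x + a) ^ 2) Kt :=
    ((hq2c.comp (continuous_id.add continuous_const)).continuousOn.integrableOn_compact hK).mono_set
      hKtsub
  have hq22 : IntegrableOn (fun x => q (x + -a) ^ 2) Kt :=
    ((hq2c.comp (continuous_id.add continuous_const)).continuousOn.integrableOn_compact hK).mono_set
      hKtsub
  have htsq : 0 < t ^ 2 := by positivity
  have hpt2 : ∀ x, w x ^ 2 ≤ (3 / t ^ 2) * (q x ^ 2 + q (x + a) ^ 2 + q (x + -a) ^ 2)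
      + 4 * R * (g (x + a) - g (x + -a)) := by
    intro x
    have h1 := hpt x
    have h2 := hg x
    have h3 := hwbd x
    set D := |w x| with hD
    have hD0 : 0 ≤ D := abs_nonneg _
    set G := g (x + a) - g (x + -a) with hG
    set F := |q x| + |q (x + a)| + |q (x + -a)| with hF
    have hF0 : 0 ≤ F := by positivity
    have hsq : w x ^ 2 = D ^ 2 := (sq_abs _).symm
    rw [hsq]
    have h4 : D ^ 2 ≤ D * (F / t + G) := by
      rw [pow_two]
      exact mul_le_mul_of_nonneg_left h1 hD0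
    have h5 : D * (F / t) ≤ D ^ 2 / 2 + (F / t) ^ 2 / 2 := by
      nlinarith [sq_nonneg (D - F / t)]
    have h6 : D * G ≤ 2 * R * G := mul_le_mul_of_nonneg_right h3 h2
    have h7 : D ^ 2 ≤ (F / t) ^ 2 + 4 * R * G := by nlinarith
    have h8 : F ^ 2 ≤ 3 * (q x ^ 2 + q (x + a) ^ 2 + q (x + -a) ^ 2) := by
      rw [hF]
      have e1 := sq_abs (q x)
      have e2 := sq_abs (q (x + a))
      have e3 := sq_abs (q (x + -a))
      nlinarith [sq_nonneg (|q x| - |q (x + a)|), sq_nonneg (|q x| - |q (x + -a)|),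
        sq_nonneg (|q (x + a)| - |q (x + -a)|)]
    have h9 : (F / t) ^ 2 ≤ (3 / t ^ 2) * (q x ^ 2 + q (x + a) ^ 2 + q (x + -a) ^ 2) := by
      rw [div_pow, div_mul_eq_mul_div]
      exact div_le_div_of_nonneg_right h8 htsq.le
    linarith
  have hI1 : ∫ x in Kt, w x ^ 2 ≤ ∫ x in Kt, ((3 / t ^ 2) * (q x ^ 2 + q (x + a) ^ 2 + q (x + -a) ^ 2)
      + 4 * R * (g (x + a) - g (x + -a))) := by
    refine setIntegral_mono (hw2i.mono_set hKtsub) ?_ hpt2
    exact (((hq2ci.add hq21).add hq22).const_mul _).add ((hg₁i.sub hg₂i).const_mul _)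
  have hI2 : ∫ x in Kt, ((3 / t ^ 2) * (q x ^ 2 + q (x + a) ^ 2 + q (x + -a) ^ 2)
      + 4 * R * (g (x + a) - g (x + -a)))
      = (3 / t ^ 2) * ((∫ x in Kt, q x ^ 2) + (∫ x in Kt, q (x + a) ^ 2) + ∫ x in Kt, q (x + -a) ^ 2)
        + 4 * R * ((∫ x in Kt, g (x + a)) - ∫ x in Kt, g (x + -a)) := by
    have a1 : IntegrableOn (fun x => q x ^ 2 + q (x + a) ^ 2 + q (x + -a) ^ 2) Kt :=
      (hq2ci.add hq21).add hq22
    have a2 : IntegrableOn (fun x => g (x + a) - g (x + -a)) Kt := hg₁i.sub hg₂i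
    have e1 : ∫ x in Kt, (q x ^ 2 + q (x + a) ^ 2)
        = (∫ x in Kt, q x ^ 2) + ∫ x in Kt, q (x + a) ^ 2 := integral_add hq2ci hq21
    have e2 : ∫ x in Kt, (q x ^ 2 + q (x + a) ^ 2 + q (x + -a) ^ 2)
        = (∫ x in Kt, (q x ^ 2 + q (x + a) ^ 2)) + ∫ x in Kt, q (x + -a) ^ 2 :=
      integral_add (hq2ci.add hq21) hq22
    have e3 : ∫ x in Kt, (g (x + a) - g (x + -a))
        = (∫ x in Kt, g (x + a)) - ∫ x in Kt, g (x + -a) := integral_sub hg₁i hg₂i
    have e4 : ∫ x in Kt, ((3 / t ^ 2) * (q x ^ 2 + q (x + a) ^ 2 + q (x + -a) ^ 2)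
        + 4 * R * (g (x + a) - g (x + -a)))
        = (∫ x in Kt, (3 / t ^ 2) * (q x ^ 2 + q (x + a) ^ 2 + q (x + -a) ^ 2))
          + ∫ x in Kt, 4 * R * (g (x + a) - g (x + -a)) :=
      integral_add (a1.const_mul _) (a2.const_mul _)
    rw [e4, integral_const_mul, integral_const_mul, e2, e1, e3]
  have hq31 : ∫ x in Kt, q (x + a) ^ 2 ≤ ∫ x in K, q x ^ 2 := by
    rw [hshift₁ (fun x => q x ^ 2)]
    exact hqnn _ hA₁sub
  have hq32 : ∫ x in Kt, q (x + -a) ^ 2 ≤ ∫ x in K, q x ^ 2 := by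
    rw [hshift₂ (fun x => q x ^ 2)]
    exact hqnn _ hA₂sub
  have hq33 : ∫ x in Kt, q x ^ 2 ≤ ∫ x in K, q x ^ 2 := hqnn _ hKtsub
  -- the bad set
  have hbad : ∫ x in K, w x ^ 2 ≤ (∫ x in Kt, w x ^ 2) + (2 * R) ^ 2 * δ := by
    have h1 := setIntegral_sdiff hKtm hw2i hKtsub
    have hfin : volume (K \ Kt) < ∞ := (measure_mono sdiff_subset).trans_lt hKfin
    have h2 : ‖∫ x in K \ Kt, w x ^ 2‖ ≤ (2 * R) ^ 2 * (volume.real (K \ Kt)) :=
      norm_setIntegral_le_of_norm_le_const hfin fun x _ => hw2bd x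
    have h3 : ∫ x in K \ Kt, w x ^ 2 ≤ (2 * R) ^ 2 * δ := (le_abs_self _).trans h2
    linarith
  have h3t : 0 ≤ 3 / t ^ 2 := by positivity
  have hsum3 : (3 / t ^ 2) * ((∫ x in Kt, q x ^ 2) + (∫ x in Kt, q (x + a) ^ 2) + ∫ x in Kt, q (x + -a) ^ 2)
      ≤ (9 / t ^ 2) * ∫ x in K, q x ^ 2 := by
    have h1 : (3 / t ^ 2) * ((∫ x in Kt, q x ^ 2) + (∫ x in Kt, q (x + a) ^ 2) + ∫ x in Kt, q (x + -a) ^ 2)
        ≤ (3 / t ^ 2) * (3 * ∫ x in K, q x ^ 2) :=
      mul_le_mul_of_nonneg_left (by linarith) h3t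
    refine h1.trans (le_of_eq ?_)
    ring
  have hRg : 4 * R * ((∫ x in Kt, g (x + a)) - ∫ x in Kt, g (x + -a)) ≤ 4 * R * (2 * R * δ) :=
    mul_le_mul_of_nonneg_left hgdiff (by positivity)
  have hδ2 : 12 * R ^ 2 * δ ≤ 12 * R ^ 2 * (2 * c * t) :=
    mul_le_mul_of_nonneg_left hδle (by positivity)
  nlinarith

/-- The vector estimate, summing over the coordinate directions. -/
theorem core_quad_vec {K : Set (Eu d)} (hK : IsCompact K) {T₀ T₁ : Eu d → Eu d} {R : ℝ}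
    (hT₀m : Measurable T₀) (hT₁m : Measurable T₁) (hbd₀ : ∀ x, ‖T₀ x‖ ≤ R) (hbd₁ : ∀ x, ‖T₁ x‖ ≤ R)
    {φ₀ φ₁ : Eu d → ℝ} {c' : ℝ} (hφ₀ : Continuous φ₀) (hφ₁ : Continuous φ₁)
    (hs₀ : ∀ x y, φ₀ x + inner ℝ (y - x) (T₀ x) ≤ φ₀ y)
    (hs₁ : ∀ x y, φ₁ x + inner ℝ (y - x) (T₁ x) ≤ φ₁ y)
    {c : ℝ} (hc : ∀ h : Eu d, (volume (K \ {x | x + h ∈ K})).toReal ≤ c * ‖h‖)
    {t : ℝ} (ht : 0 < t) :
    ∫ x in K, ‖T₀ x - T₁ x‖ ^ 2 ≤
      d * ((9 / t ^ 2) * (∫ x in K, (φ₁ x - φ₀ x + c') ^ 2) + 24 * R ^ 2 * c * t) := by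
  have hKm : MeasurableSet K := hK.measurableSet
  have hKfin : volume K < ∞ := hK.measure_lt_top
  have hR0 : 0 ≤ R := (norm_nonneg _).trans (hbd₀ 0)
  set q : Eu d → ℝ := fun x => φ₁ x - φ₀ x + c' with hq
  have hqc : Continuous q := (hφ₁.sub hφ₀).add continuous_const
  set Ball := (9 / t ^ 2) * (∫ x in K, q x ^ 2) + 24 * R ^ 2 * c * t with hBall
  have hcoord : ∀ k : Fin d, ∫ x in K, (T₀ x - T₁ x) k ^ 2 ≤ Ball := by
    intro k
    have hu : ‖(EuclideanSpace.single k (1 : ℝ) : Eu d)‖ = 1 := by simp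
    have hp := fun x => pointwise_quad (φ₀ := φ₀) (φ₁ := φ₁) (T₀ := T₀) (T₁ := T₁) (c := c') hs₀ hs₁
      (x := x) (a := t • (EuclideanSpace.single k (1 : ℝ) : Eu d))
      (u := (EuclideanSpace.single k (1 : ℝ) : Eu d)) ht rfl
    have h1 := core_quad hK hT₀m hT₁m hbd₀ hbd₁ hqc hc hu ht (fun x => (hp x).1) (fun x => (hp x).2)
    have h2 : ∀ x, inner ℝ (EuclideanSpace.single k (1 : ℝ) : Eu d) (T₀ x - T₁ x)
        = (T₀ x - T₁ x) k := by
      intro x
      simp [EuclideanSpace.inner_single_left]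
    simp_rw [h2] at h1
    exact h1
  have hcm : ∀ k : Fin d, Measurable fun x => (T₀ x - T₁ x) k := by
    intro k
    have : (fun x => (T₀ x - T₁ x) k) = fun x =>
        inner ℝ (EuclideanSpace.single k (1 : ℝ) : Eu d) (T₀ x - T₁ x) := by
      ext x
      simp [EuclideanSpace.inner_single_left]
    rw [this]
    exact measurable_const.inner (hT₀m.sub hT₁m)
  have hwbd : ∀ x, ‖T₀ x - T₁ x‖ ≤ 2 * R := by
    intro x
    have := norm_sub_le (T₀ x) (T₁ x)
    linarith [hbd₀ x, hbd₁ x]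
  have hci : ∀ k : Fin d, IntegrableOn (fun x => (T₀ x - T₁ x) k ^ 2) K := by
    intro k
    refine integrableOn_of_bd (C := (2 * R) ^ 2) ((hcm k).pow_const 2) hKm hKfin fun x _ => ?_
    rw [Real.norm_of_nonneg (sq_nonneg _), ← sq_abs]
    have := PiLp.norm_apply_le (T₀ x - T₁ x) k
    rw [Real.norm_eq_abs] at this
    exact pow_le_pow_left₀ (abs_nonneg _) (this.trans (hwbd x)) 2
  have hptw : ∀ x, ‖T₀ x - T₁ x‖ ^ 2 = ∑ k, (T₀ x - T₁ x) k ^ 2 := by
    intro x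
    rw [EuclideanSpace.norm_sq_eq]
    simp
  simp_rw [hptw]
  rw [integral_finsetSum _ fun k _ => hci k]
  calc ∑ k, ∫ x in K, (T₀ x - T₁ x) k ^ 2 ≤ ∑ _k : Fin d, Ball := Finset.sum_le_sum fun k _ => hcoord k
    _ = d * Ball := by simp

end Vale.Agent.P074
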