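import Vale.Agent.P074.Rearrange

open MeasureTheory Set Metric
open scoped ENNReal NNReal

namespace Vale.Agent.P074

variable {d : ℕ}

lemma unif_apply_eq {K : Set (Eu d)} (f : Eu d → ℝ) :
    ∫ x, f x ∂(unif K) = (volume K).toReal⁻¹ * ∫ x in K, f x := by
  unfold unif
  rw [integral_smul_measure]
  simp [smul_eq_mul, ENNReal.toReal_inv]

lemma isProbabilityMeasure_unif {K : Set (Eu d)} (h0 : volume K ≠ 0) (htop : volume K ≠ ∞)
    (hK : MeasurableSet K) : IsProbabilityMeasure (unif K) := by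
  constructor
  unfold unif
  simp only [Measure.smul_apply, Measure.restrict_apply_univ, smul_eq_mul]
  exact ENNReal.inv_mul_cancel h0 htop

lemma ae_unif_iff {K : Set (Eu d)} (htop : volume K ≠ ∞) {p : Eu d → Prop} :
    (∀ᵐ x ∂(unif K), p x) ↔ ∀ᵐ x ∂(volume.restrict K), p x := by
  unfold unif
  exact Measure.ae_ennreal_smul_measure_iff (ENNReal.inv_ne_zero.mpr htop)

lemma ae_unif_mem {K : Set (Eu d)} (htop : volume K ≠ ∞) (hK : MeasurableSet K) :
    ∀ᵐ x ∂(unif K), x ∈ K :=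
  (ae_unif_iff htop).2 (ae_restrict_mem hK)

lemma enorm_sq_eq' (v : Eu d) : ‖v‖ₑ ^ (2 : ℕ) = ENNReal.ofReal (‖v‖ ^ 2) := by
  rw [ENNReal.ofReal_pow (norm_nonneg v), ofReal_norm]

/-- The rearrangement inequality: a Borel optimal map with bounded values cannot be improved by
permuting a finite family of disjoint balls. -/
lemma cyc_rearr {ι : Type*} [Fintype ι] {K : Set (Eu d)} (hK : IsCompact K) (h0 : volume K ≠ 0)
    {μ : Measure (Eu d)} {T : Eu d → Eu d} {R : ℝ} (hbd : ∀ x, ‖T x‖ ≤ R)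
    (hT : IsOptimalMap (unif K) μ T) (c : ι → Eu d) {r : ℝ} (hr : 0 < r)
    (hdisj : Pairwise (Function.onFun Disjoint fun j => closedBall (c j) r))
    (hsub : ∀ j, closedBall (c j) r ⊆ K) (σ : Equiv.Perm ι) :
    ∑ j, inner ℝ (c (σ j) - c j) (∫ y in closedBall (c j) r, T y) ≤ 0 := by
  classical
  obtain ⟨hTm, hTmap, hTopt⟩ := hT
  have htop : volume K ≠ ∞ := hK.measure_lt_top.ne
  have hKm : MeasurableSet K := hK.measurableSet
  set V := (volume K).toReal with hV
  have hVpos : 0 < V := ENNReal.toReal_pos h0 htop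
  set B : ι → Set (Eu d) := fun j => closedBall (c j) r with hBdef
  have hBm : ∀ j, MeasurableSet (B j) := fun j => measurableSet_closedBall
  set τ : Equiv.Perm ι := σ⁻¹ with hτdef
  set a : ι → Eu d := fun j => c (τ j) - c j with ha
  set b : ι → Eu d := fun j => c (σ j) - c j with hb
  have hτ : ∀ j x, x ∈ B j ↔ x + a j ∈ B (τ j) := by
    intro j x
    simp only [hBdef, mem_closedBall, dist_eq_norm, ha]
    have : x + (c (τ j) - c j) - c (τ j) = x - c j := by abel
    rw [this]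
  have hσ : ∀ j x, x ∈ B j ↔ x + b j ∈ B (σ j) := by
    intro j x
    simp only [hBdef, mem_closedBall, dist_eq_norm, hb]
    have : x + (c (σ j) - c j) - c (σ j) = x - c j := by abel
    rw [this]
  have hab : ∀ j, b (τ j) = - a j := by
    intro j
    simp only [hb, ha, hτdef]
    simp
  set Φ := pw B a with hΦ
  set Ψ := pw B b with hΨ
  have hΦm : Measurable Φ := measurable_pw a hBm
  have hΨm : Measurable Ψ := measurable_pw b hBm
  have hΨΦ : ∀ x, Ψ (Φ x) = x := fun x =>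
    pw_pw hdisj τ a b hτ hab (fun _ h => h) x
  have hmapν : Measure.map Φ (volume.restrict K) = volume.restrict K :=
    map_pw hKm hdisj hBm hsub τ a hτ
  have hmap : Measure.map Φ (unif K) = unif K := by
    unfold unif
    rw [Measure.map_smul, hmapν]
  have hSmap : Measure.map (T ∘ Φ) (unif K) = μ := by
    rw [← Measure.map_map hTm hΦm, hmap, hTmap]
  have hcost := hTopt (T ∘ Φ) (hTm.comp hΦm) hSmap
  -- rewrite the competitor cost by change of variables
  have hcost2 : cost (unif K) (T ∘ Φ) = ∫⁻ y, ‖Ψ y - T y‖ₑ ^ (2 : ℕ) ∂(unif K) := by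
    unfold cost
    have hm : Measurable fun y => ‖Ψ y - T y‖ₑ ^ (2 : ℕ) :=
      ((hΨm.sub hTm).enorm).pow_const 2
    conv_rhs => rw [← hmap]
    rw [lintegral_map hm hΦm]
    refine lintegral_congr fun x => ?_
    simp [hΨΦ]
  have hprob : IsProbabilityMeasure (unif K) := isProbabilityMeasure_unif h0 htop hKm
  obtain ⟨RK, hRK⟩ := hK.isBounded.subset_closedBall (0 : Eu d)
  have hRKn : ∀ x ∈ K, ‖x‖ ≤ RK := fun x hx => by simpa using hRK hx
  have hae : ∀ᵐ x ∂(unif K), x ∈ K := ae_unif_mem htop hKm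
  have hΨK : ∀ x ∈ K, Ψ x ∈ K := by
    intro x hx
    by_cases h : ∃ j, x ∈ B j
    · obtain ⟨j, hj⟩ := h
      rw [hΨ, pw_of_mem b hdisj hj]
      exact hsub _ ((hσ j x).1 hj)
    · push Not at h
      rw [hΨ, pw_of_notMem b h]
      exact hx
  -- integrability
  have hR0 : 0 ≤ R := (norm_nonneg _).trans (hbd 0)
  have hF0m : Measurable fun y => ‖y - T y‖ ^ 2 := ((measurable_id.sub hTm).norm).pow_const 2
  have hF1m : Measurable fun y => ‖Ψ y - T y‖ ^ 2 := ((hΨm.sub hTm).norm).pow_const 2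
  have hF0i : Integrable (fun y => ‖y - T y‖ ^ 2) (unif K) := by
    refine Integrable.of_bound hF0m.aestronglyMeasurable ((RK + R) ^ 2) ?_
    filter_upwards [hae] with y hy
    rw [Real.norm_of_nonneg (sq_nonneg _)]
    have h1 : ‖y - T y‖ ≤ RK + R := (norm_sub_le _ _).trans (add_le_add (hRKn y hy) (hbd y))
    exact pow_le_pow_left₀ (norm_nonneg _) h1 2
  have hF1i : Integrable (fun y => ‖Ψ y - T y‖ ^ 2) (unif K) := by
    refine Integrable.of_bound hF1m.aestronglyMeasurable ((RK + R) ^ 2) ?_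
    filter_upwards [hae] with y hy
    rw [Real.norm_of_nonneg (sq_nonneg _)]
    have h1 : ‖Ψ y - T y‖ ≤ RK + R :=
      (norm_sub_le _ _).trans (add_le_add (hRKn _ (hΨK y hy)) (hbd y))
    exact pow_le_pow_left₀ (norm_nonneg _) h1 2
  -- the real inequality
  have hreal : ∫ y, ‖y - T y‖ ^ 2 ∂(unif K) ≤ ∫ y, ‖Ψ y - T y‖ ^ 2 ∂(unif K) := by
    rw [hcost2] at hcost
    unfold cost at hcost
    simp_rw [enorm_sq_eq'] at hcost
    rw [← ofReal_integral_eq_lintegral_ofReal hF0i (Filter.Eventually.of_forall fun y => by positivity),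
      ← ofReal_integral_eq_lintegral_ofReal hF1i (Filter.Eventually.of_forall fun y => by positivity)] at hcost
    exact (ENNReal.ofReal_le_ofReal_iff (integral_nonneg fun y => by positivity)).1 hcost
  -- second moments agree
  have hmom : ∫ y, ‖Ψ y‖ ^ 2 ∂(unif K) = ∫ y, ‖y‖ ^ 2 ∂(unif K) := by
    have hm : Measurable fun y => ‖Ψ y‖ ^ 2 := (hΨm.norm).pow_const 2
    conv_lhs => rw [← hmap]
    rw [integral_map hΦm.aemeasurable hm.aestronglyMeasurable]
    refine integral_congr_ae (Filter.Eventually.of_forall fun x => ?_)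
    simp [hΨΦ]
  have hG0i : Integrable (fun y => ‖y‖ ^ 2) (unif K) := by
    refine Integrable.of_bound ((measurable_id.norm).pow_const 2).aestronglyMeasurable (RK ^ 2) ?_
    filter_upwards [hae] with y hy
    rw [Real.norm_of_nonneg (sq_nonneg _)]
    exact pow_le_pow_left₀ (norm_nonneg _) (hRKn y hy) 2
  have hG1i : Integrable (fun y => ‖Ψ y‖ ^ 2) (unif K) := by
    refine Integrable.of_bound ((hΨm.norm).pow_const 2).aestronglyMeasurable (RK ^ 2) ?_
    filter_upwards [hae] with y hy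
    rw [Real.norm_of_nonneg (sq_nonneg _)]
    exact pow_le_pow_left₀ (norm_nonneg _) (hRKn _ (hΨK y hy)) 2
  -- the linear functional
  set L : Eu d → ℝ := fun y => inner ℝ (Ψ y - y) (T y) with hL
  have hLeq : ∀ y, ‖Ψ y - T y‖ ^ 2 - ‖y - T y‖ ^ 2 = ‖Ψ y‖ ^ 2 - ‖y‖ ^ 2 - 2 * L y := by
    intro y
    rw [norm_sub_sq_real, norm_sub_sq_real, hL]
    simp only [inner_sub_left]
    ring
  have hLi : Integrable L (unif K) := by
    have : L = fun y => (‖Ψ y‖ ^ 2 - ‖y‖ ^ 2 - (‖Ψ y - T y‖ ^ 2 - ‖y - T y‖ ^ 2)) / 2 := by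
      ext y; rw [hLeq]; ring
    rw [this]
    exact ((hG1i.sub hG0i).sub (hF1i.sub hF0i)).div_const 2
  have hLle : ∫ y, L y ∂(unif K) ≤ 0 := by
    have h1 : ∫ y, (‖Ψ y - T y‖ ^ 2 - ‖y - T y‖ ^ 2) ∂(unif K)
        = ∫ y, (‖Ψ y‖ ^ 2 - ‖y‖ ^ 2 - 2 * L y) ∂(unif K) :=
      integral_congr_ae (Filter.Eventually.of_forall hLeq)
    have h2 : ∫ y, (‖Ψ y‖ ^ 2 - ‖y‖ ^ 2 - 2 * L y) ∂(unif K)
        = ∫ y, ‖Ψ y‖ ^ 2 ∂(unif K) - ∫ y, ‖y‖ ^ 2 ∂(unif K) - 2 * ∫ y, L y ∂(unif K) := by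
      have h3 : ∫ y, (‖Ψ y‖ ^ 2 - ‖y‖ ^ 2 - 2 * L y) ∂(unif K)
          = ∫ y, (‖Ψ y‖ ^ 2 - ‖y‖ ^ 2) ∂(unif K) - ∫ y, 2 * L y ∂(unif K) :=
        integral_sub (hG1i.sub hG0i) (hLi.const_mul 2)
      rw [h3, integral_sub hG1i hG0i, integral_const_mul]
    rw [integral_sub hF1i hF0i, h2, hmom] at h1
    linarith
  -- expand the functional over the balls
  have hLexp : ∀ y, L y = ∑ j, (B j).indicator (fun y => inner ℝ (b j) (T y)) y := by
    intro y
    have : Ψ y - y = ∑ j, (B j).indicator (fun _ => b j) y := by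
      simp [hΨ, pw]
    rw [hL]
    simp only [this]
    rw [sum_inner]
    refine Finset.sum_congr rfl fun j _ => ?_
    by_cases hy : y ∈ B j <;> simp [hy]
  have hTi : ∀ s : Set (Eu d), volume s ≠ ∞ → IntegrableOn T s := by
    intro s hs
    refine Measure.integrableOn_of_bounded hs hTm.aestronglyMeasurable (M := R) ?_
    exact Filter.Eventually.of_forall hbd
  have hBfin : ∀ j, volume (B j) ≠ ∞ := fun j => measure_closedBall_lt_top.ne
  have hint : ∀ j, ∫ y in K, (B j).indicator (fun y => inner ℝ (b j) (T y)) y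
      = inner ℝ (b j) (∫ y in B j, T y) := by
    intro j
    rw [integral_indicator (hBm j), Measure.restrict_restrict (hBm j),
      inter_eq_left.2 (hsub j), integral_inner (hTi _ (hBfin j))]
  have hLK : ∫ y, L y ∂(unif K) = V⁻¹ * ∑ j, inner ℝ (b j) (∫ y in B j, T y) := by
    rw [unif_apply_eq]
    congr 1
    simp_rw [hLexp]
    rw [integral_finset_sum]
    · exact Finset.sum_congr rfl fun j _ => hint j
    · intro j _
      refine Integrable.indicator ?_ (hBm j)
      refine Integrable.const_inner (b j) ?_ 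
      exact hTi _ htop
  rw [hLK] at hLle
  have hVinv : 0 < V⁻¹ := inv_pos.mpr hVpos
  by_contra hcon
  push Not at hcon
  have := mul_pos hVinv hcon
  linarith

end Vale.Agent.P074
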