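import Mathlib

open MeasureTheory Set
open scoped ENNReal NNReal

namespace Vale.Agent.P074

/-- The ambient Euclidean space `ℝ^d`. -/
abbrev Eu (d : ℕ) := EuclideanSpace ℝ (Fin d)

/-- The uniform probability measure `|K|⁻¹ 1_K dx`. -/
noncomputable def unif {d : ℕ} (K : Set (Eu d)) : Measure (Eu d) :=
  (volume K)⁻¹ • volume.restrict K

/-- The quadratic transport cost `∫ |x - T x|² dρ`. -/
noncomputable def cost {d : ℕ} (ρ : Measure (Eu d)) (T : Eu d → Eu d) : ℝ≥0∞ :=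
  ∫⁻ x, ‖x - T x‖ₑ ^ (2 : ℕ) ∂ρ

/-- `T` is a quadratic optimal transport map from `ρ` to `μ`: a Borel map pushing `ρ` to `μ`
with least quadratic cost among all such Borel maps. -/
def IsOptimalMap {d : ℕ} (ρ μ : Measure (Eu d)) (T : Eu d → Eu d) : Prop :=
  Measurable T ∧ Measure.map T ρ = μ ∧
    ∀ S : Eu d → Eu d, Measurable S → Measure.map S ρ = μ → cost ρ T ≤ cost ρ S

/-- The quadratic Wasserstein distance: the infimum over couplings `π` of `μ, ν` of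
`(∫ |y - z|² dπ)^(1/2)`. -/
noncomputable def W2 {d : ℕ} (μ ν : Measure (Eu d)) : ℝ≥0∞ :=
  (⨅ (π : Measure (Eu d × Eu d)) (_ : π.map Prod.fst = μ ∧ π.map Prod.snd = ν),
      ∫⁻ p, ‖p.1 - p.2‖ₑ ^ (2 : ℕ) ∂π) ^ (1 / 2 : ℝ)

/-- The Wasserstein distance `W₁`: the infimum over couplings `π` of `μ, ν` of `∫ |y - z| dπ`. -/
noncomputable def W1 {d : ℕ} (μ ν : Measure (Eu d)) : ℝ≥0∞ :=
  ⨅ (π : Measure (Eu d × Eu d)) (_ : π.map Prod.fst = μ ∧ π.map Prod.snd = ν),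
      ∫⁻ p, ‖p.1 - p.2‖ₑ ∂π

/-- The exponent `α` is admissible in dimension `d`: for every convex body `K` and every nonempty
compact `Y` there is a constant `C` with `‖T_μ - T_ν‖_{L²(ρ)} ≤ C W₂(μ, ν)^α` for all probability
measures `μ, ν` supported in `Y`, where `ρ` is uniform on `K`. -/
def Admissible (d : ℕ) (α : ℝ) : Prop :=
  ∀ K : Set (Eu d), IsCompact K → Convex ℝ K → (interior K).Nonempty →
  ∀ Y : Set (Eu d), IsCompact Y → Y.Nonempty →
  ∃ C : ℝ≥0, ∀ μ ν : Measure (Eu d), IsProbabilityMeasure μ → IsProbabilityMeasure ν →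
    μ Yᶜ = 0 → ν Yᶜ = 0 →
    ∀ Tμ Tν : Eu d → Eu d, IsOptimalMap (unif K) μ Tμ → IsOptimalMap (unif K) ν Tν →
      eLpNorm (fun x => Tμ x - Tν x) 2 (unif K) ≤ (C : ℝ≥0∞) * W2 μ ν ^ α

end Vale.Agent.P074
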