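import Vale.Agent.P074.CellOpt

open MeasureTheory Set Metric Filter Topology
open scoped ENNReal NNReal

set_option linter.unusedSectionVars false

namespace Vale.Agent.P074

variable {d : ℕ}

/-- A measurable selection from a finite measurable cover, for a general finite index type. -/
lemma exists_fin_label {α ι : Type*} [MeasurableSpace α] [Fintype ι] {A : ι → Set α}
    (hA : ∀ i, MeasurableSet (A i)) (hcov : ∀ x, ∃ i, x ∈ A i) :
    ∃ ℓ : α → ι, (∀ x, x ∈ A (ℓ x)) ∧ ∀ i, MeasurableSet (ℓ ⁻¹' {i}) := by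
  classical
  set e := Fintype.equivFin ι with he
  obtain ⟨ℓ, h1, h2⟩ := exists_label_aux (α := α) (A := fun i => A (e.symm i))
    (fun i => hA _) (by
      intro x
      obtain ⟨i, hi⟩ := hcov x
      exact ⟨e i, by simpa using hi⟩)
  refine ⟨fun x => e.symm (ℓ x), h1, fun i => ?_⟩
  have e2 : (fun x => e.symm (ℓ x)) ⁻¹' {i} = ℓ ⁻¹' {e i} := by
    ext x
    simp only [mem_preimage, mem_singleton_iff]
    exact Equiv.symm_apply_eq e
  rw [e2]
  exact h2 (e i)

/-- A Borel map with finitely many values approximating the identity on a compact set. -/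
lemma exists_quantizer {Y : Set (Eu d)} (hY : IsCompact Y) (hYne : Y.Nonempty) {δ : ℝ} (hδ : 0 < δ) :
    ∃ q : Eu d → Eu d, Measurable q ∧ (range q).Finite ∧ (∀ y, q y ∈ Y) ∧ ∀ y ∈ Y, ‖y - q y‖ < δ := by
  classical
  obtain ⟨t, htY, htfin, hcover⟩ := hY.finite_cover_balls hδ
  have : Fintype t := Set.Finite.fintype htfin
  have htne : t.Nonempty := by
    obtain ⟨y, hy⟩ := hYne
    obtain ⟨x, hx, _⟩ := mem_iUnion₂.1 (hcover hy)
    exact ⟨x, hx⟩
  set U : Set (Eu d) := ⋃ x ∈ t, ball x δ with hU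
  have hUm : MeasurableSet U := (isOpen_biUnion (fun _ _ => isOpen_ball)).measurableSet
  obtain ⟨x₀, hx₀⟩ := htne
  have : Nonempty t := ⟨⟨x₀, hx₀⟩⟩
  obtain ⟨ℓ, hℓ, hℓm⟩ := exists_fin_label (α := Eu d) (ι := t)
    (A := fun x => ball x.1 δ ∪ Uᶜ) (fun x => measurableSet_ball.union hUm.compl) (by
      intro y
      by_cases hy : y ∈ U
      · obtain ⟨x, hx, hyx⟩ := mem_iUnion₂.1 hy
        exact ⟨⟨x, hx⟩, Or.inl hyx⟩
      · exact ⟨⟨x₀, hx₀⟩, Or.inr hy⟩)
  refine ⟨fun y => (ℓ y).1, measurable_comp_fiber hℓm (fun x : t => x.1), ?_, ?_, ?_⟩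
  · refine Set.Finite.subset htfin ?_
    rintro _ ⟨y, rfl⟩
    exact (ℓ y).2
  · intro y
    exact htY (ℓ y).2
  · intro y hy
    have hyU : y ∈ U := hcover hy
    rcases hℓ y with h | h
    · rw [mem_ball, dist_eq_norm] at h
      exact h
    · exact absurd hyU h

/-- The discretization of a coupling. -/
theorem discretize {Y : Set (Eu d)} (hY : IsCompact Y) (hYne : Y.Nonempty)
    {π : Measure (Eu d × Eu d)} [IsProbabilityMeasure π] (hπ₁ : ∀ᵐ p ∂π, p.1 ∈ Y)
    (hπ₂ : ∀ᵐ p ∂π, p.2 ∈ Y) {δ : ℝ} (hδ : 0 < δ) :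
    ∃ (ι : Type) (_ : Fintype ι) (_ : Nonempty ι) (lab : Eu d × Eu d → ι) (u v : ι → Eu d),
      (∀ i, MeasurableSet (lab ⁻¹' {i})) ∧ (∀ i, 0 < π (lab ⁻¹' {i})) ∧
      Function.Injective (fun i => (u i, v i)) ∧ (∀ i, u i ∈ Y ∧ v i ∈ Y) ∧
      ∀ᵐ p ∂π, ‖p.1 - u (lab p)‖ < δ ∧ ‖p.2 - v (lab p)‖ < δ := by
  classical
  obtain ⟨q, hqm, hqfin, hqY, hqδ⟩ := exists_quantizer hY hYne hδ
  set P : Eu d × Eu d → Eu d × Eu d := fun p => (q p.1, q p.2) with hP
  have hPm : Measurable P := (hqm.comp measurable_fst).prodMk (hqm.comp measurable_snd)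
  set F : Set (Eu d × Eu d) := range P with hF
  have hFfin : F.Finite := by
    refine (hqfin.prod hqfin).subset ?_
    rintro _ ⟨p, rfl⟩
    exact ⟨mem_range_self _, mem_range_self _⟩
  have hPfib : ∀ S : Set (Eu d × Eu d), MeasurableSet (P ⁻¹' S) := by
    intro S
    have e : P ⁻¹' S = P ⁻¹' (S ∩ F) := by
      ext p
      simp [hF]
    rw [e]
    exact hPm (hFfin.subset inter_subset_right).measurableSet
  set G : Set (Eu d × Eu d) := {a | a ∈ F ∧ 0 < π (P ⁻¹' {a})} with hG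
  have hGfin : G.Finite := hFfin.subset (fun a ha => ha.1)
  have hae : ∀ᵐ p ∂π, 0 < π (P ⁻¹' {P p}) := by
    have hnull : π (⋃ a ∈ F \ G, P ⁻¹' {a}) = 0 := by
      refine (measure_biUnion_null_iff (hFfin.subset sdiff_subset).countable).2 ?_
      intro a ha
      by_contra hcon
      exact ha.2 ⟨ha.1, pos_iff_ne_zero.mpr hcon⟩
    have := measure_eq_zero_iff_ae_notMem.1 hnull
    filter_upwards [this] with p hp
    by_contra hcon
    refine hp (mem_iUnion₂.2 ⟨P p, ⟨mem_range_self _, fun h => hcon h.2⟩, rfl⟩)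
  have hGne : G.Nonempty := by
    obtain ⟨p, hp⟩ := hae.exists
    exact ⟨P p, mem_range_self _, hp⟩
  obtain ⟨a₀, ha₀⟩ := hGne
  let _ : Fintype G := hGfin.fintype
  have : Nonempty G := ⟨⟨a₀, ha₀⟩⟩
  set f : Eu d × Eu d → G := fun a => if h : a ∈ G then ⟨a, h⟩ else ⟨a₀, ha₀⟩ with hf
  set lab : Eu d × Eu d → G := fun p => f (P p) with hlab
  have hlabeq : ∀ p, 0 < π (P ⁻¹' {P p}) → (lab p : Eu d × Eu d) = P p := by
    intro p hp
    have hmem : P p ∈ G := ⟨mem_range_self _, hp⟩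
    simp only [hlab, hf, dif_pos hmem]
  refine ⟨G, inferInstance, inferInstance, lab, fun i => i.1.1, fun i => i.1.2, ?_, ?_, ?_, ?_, ?_⟩
  · intro i
    exact hPfib (f ⁻¹' {i})
  · intro i
    refine lt_of_lt_of_le i.2.2 (measure_mono ?_)
    intro p hp
    have hp' : P p = i.1 := hp
    show f (P p) = i
    rw [hp']
    simp only [hf, dif_pos i.2]
  · intro i j hij
    have h1 : i.1.1 = j.1.1 := congrArg Prod.fst hij
    have h2 : i.1.2 = j.1.2 := congrArg Prod.snd hij
    exact Subtype.ext (Prod.ext h1 h2)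
  · intro i
    obtain ⟨p, hp⟩ := i.2.1
    have h1 : i.1.1 = q p.1 := by rw [← hp]
    have h2 : i.1.2 = q p.2 := by rw [← hp]
    refine ⟨?_, ?_⟩
    · show i.1.1 ∈ Y
      rw [h1]; exact hqY _
    · show i.1.2 ∈ Y
      rw [h2]; exact hqY _
  · filter_upwards [hae, hπ₁, hπ₂] with p hp h1 h2
    have he := hlabeq p hp
    have e1 : (lab p : Eu d × Eu d).1 = q p.1 := by rw [he]
    have e2 : (lab p : Eu d × Eu d).2 = q p.2 := by rw [he]
    simp only [e1, e2]
    exact ⟨hqδ _ h1, hqδ _ h2⟩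

/-- The parameters at which two distinct pairs of points collide along the interpolation are
finitely many. -/
lemma bad_finite_pair {ι : Type*} [Fintype ι] {u v : ι → Eu d}
    (huv : Function.Injective (fun i => (u i, v i))) :
    ({s : ℝ | Function.Injective (fun i => u i + s • (v i - u i))}ᶜ).Finite := by
  classical
  have hsub : {s : ℝ | Function.Injective (fun i => u i + s • (v i - u i))}ᶜ ⊆
      ⋃ p : {p : ι × ι // p.1 ≠ p.2},
        {s : ℝ | u p.1.1 + s • (v p.1.1 - u p.1.1) = u p.1.2 + s • (v p.1.2 - u p.1.2)} := by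
    intro s hs
    simp only [mem_compl_iff, mem_ofPred_eq, Function.Injective, not_forall] at hs
    obtain ⟨i, j, hij, hne⟩ := hs
    exact mem_iUnion.2 ⟨⟨(i, j), hne⟩, hij⟩
  refine Set.Finite.subset (Set.finite_iUnion (fun p => ?_)) hsub
  refine Set.Subsingleton.finite ?_
  intro s hs t ht
  have hs' : u p.1.1 + s • (v p.1.1 - u p.1.1) = u p.1.2 + s • (v p.1.2 - u p.1.2) := hs
  have ht' : u p.1.1 + t • (v p.1.1 - u p.1.1) = u p.1.2 + t • (v p.1.2 - u p.1.2) := ht
  have hne : (u p.1.1, v p.1.1) ≠ (u p.1.2, v p.1.2) := fun e => p.2 (huv e)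
  by_contra hst
  set U := u p.1.1 - u p.1.2 with hU
  set W := v p.1.1 - v p.1.2 with hW
  have h1 : U + s • (W - U) = 0 := by
    have : U + s • (W - U) = (u p.1.1 + s • (v p.1.1 - u p.1.1)) - (u p.1.2 + s • (v p.1.2 - u p.1.2)) := by
      simp only [hU, hW, smul_sub]
      abel
    rw [this, hs', sub_self]
  have h2 : U + t • (W - U) = 0 := by
    have : U + t • (W - U) = (u p.1.1 + t • (v p.1.1 - u p.1.1)) - (u p.1.2 + t • (v p.1.2 - u p.1.2)) := by
      simp only [hU, hW, smul_sub]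
      abel
    rw [this, ht', sub_self]
  have h3 : (s - t) • (W - U) = 0 := by
    rw [sub_smul]
    have := h1.trans h2.symm
    exact sub_eq_zero.2 (add_left_cancel this)
  have h4 : W - U = 0 := by
    rcases smul_eq_zero.1 h3 with h | h
    · exact absurd (sub_eq_zero.1 h) hst
    · exact h
  rw [h4, smul_zero, add_zero] at h1
  have h5 : W = 0 := by
    have := sub_eq_zero.1 h4
    rw [this, h1]
  apply hne
  exact Prod.ext (sub_eq_zero.1 h1) (sub_eq_zero.1 h5)

end Vale.Agent.P074
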