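import Vale.Agent.P074.Laguerre

open MeasureTheory Set Metric Filter Topology
open scoped ENNReal NNReal

set_option linter.unusedSectionVars false

namespace Vale.Agent.P074

variable {d : ℕ} {ι : Type*} [Fintype ι] [Nonempty ι]

lemma Jfun_dual_le {K : Set (Eu d)} (hK : IsCompact K) {Y : ι → Eu d} (hY : Function.Injective Y)
    {ψ w : ι → ℝ} (hd : IsDualW K Y ψ w) (ψ' : ι → ℝ) : Jfun K Y w ψ ≤ Jfun K Y w ψ' := by
  rw [Jfun_eq_of_dual hK hY hd]
  exact weak_dual hK hY hd Y ψ'

lemma Jfun_dual_eq {K : Set (Eu d)} (hK : IsCompact K) {Y : ι → Eu d} (hY : Function.Injective Y)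
    {ψ ψ' w : ι → ℝ} (hd : IsDualW K Y ψ w) (hd' : IsDualW K Y ψ' w) :
    Jfun K Y w ψ = Jfun K Y w ψ' :=
  le_antisymm (Jfun_dual_le hK hY hd ψ') (Jfun_dual_le hK hY hd' ψ)

/-- A minimizer of the Kantorovich functional differs from a dual potential by a constant. -/
theorem min_unique {K : Set (Eu d)} (hK : IsCompact K) (hconv : Convex ℝ K)
    (hint : (interior K).Nonempty) {Y : ι → Eu d} (hY : Function.Injective Y) {ψ ψ₁ m : ι → ℝ}
    (hd : IsDualW K Y ψ m) (hm : ∀ i, 0 < m i) (hmin : Jfun K Y m ψ₁ ≤ Jfun K Y m ψ) :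
    ∃ c : ℝ, ∀ i, ψ₁ i - ψ i = c := by
  classical
  set h : Eu d → ℝ := fun x => lphi Y ψ₁ x - lphi Y ψ x with hh
  have hcont : Continuous h := (continuous_lphi Y ψ₁).sub (continuous_lphi Y ψ)
  set val : ι → ℝ := fun i => ψ i - ψ₁ i with hval
  have hlow : ∀ i, ∀ x ∈ lcell K Y ψ i, val i ≤ h x := by
    intro i x hx
    simp only [hval, hh]
    rw [lphi_eq_of_mem hx.2]
    have := le_lphi Y ψ₁ x i
    linarith
  have hC : ∀ i, IsCompact (lcell K Y ψ i) := isCompact_lcell hK Y ψ
  have hCm : ∀ i, MeasurableSet (lcell K Y ψ i) := measurableSet_lcell hK Y ψ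
  have hinti : ∀ i, IntegrableOn h (lcell K Y ψ i) := fun i => integrableOn_of_continuous (hC i) hcont
  -- the excess on each cell
  set ex : ι → ℝ := fun i => ∫ x in lcell K Y ψ i, (h x - val i) with hex
  have hex0 : ∀ i, 0 ≤ ex i := by
    intro i
    refine setIntegral_nonneg (hCm i) (fun x hx => ?_)
    linarith [hlow i x hx]
  have hexform : ∀ i, ex i = (∫ x in lcell K Y ψ i, h x) - m i * val i := by
    intro i
    simp only [hex]
    rw [integral_sub (hinti i) (integrableOn_of_continuous (hC i) continuous_const),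
      setIntegral_const, hd i]
    simp
  have hsumex : ∑ i, ex i ≤ 0 := by
    simp only [hexform, Finset.sum_sub_distrib]
    rw [← integral_cells hK hY ψ (integrableOn_of_continuous hK hcont)]
    unfold Jfun at hmin
    have e1 : ∫ x in K, h x = (∫ x in K, lphi Y ψ₁ x) - ∫ x in K, lphi Y ψ x :=
      integral_sub (integrableOn_of_continuous hK (continuous_lphi Y ψ₁))
        (integrableOn_of_continuous hK (continuous_lphi Y ψ))
    have e2 : ∑ i, m i * val i = ∑ i, m i * ψ i - ∑ i, m i * ψ₁ i := by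
      rw [← Finset.sum_sub_distrib]
      refine Finset.sum_congr rfl (fun i _ => ?_)
      simp only [hval]
      ring
    rw [e1, e2]
    linarith
  have hexz : ∀ i, ex i = 0 := by
    intro i
    have h1 := (Finset.sum_eq_zero_iff_of_nonneg (fun i _ => hex0 i)).1
      (le_antisymm hsumex (Finset.sum_nonneg (fun i _ => hex0 i)))
    exact h1 i (Finset.mem_univ i)
  -- almost everywhere equality on the cells
  have hae : ∀ i, ∀ᵐ x ∂(volume.restrict (lcell K Y ψ i)), h x = val i := by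
    intro i
    have h1 : 0 ≤ᵐ[volume.restrict (lcell K Y ψ i)] fun x => h x - val i := by
      refine (ae_restrict_iff' (hCm i)).2 (ae_of_all _ (fun x hx => ?_))
      have := hlow i x hx
      simp only [Pi.zero_apply]
      linarith
    have h2 := (integral_eq_zero_iff_of_nonneg_ae h1
      ((hinti i).sub (integrableOn_of_continuous (hC i) continuous_const))).1 (hexz i)
    filter_upwards [h2] with x hx
    have : h x - val i = 0 := hx
    linarith
  set F : Set ℝ := range val with hF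
  have hFfin : F.Finite := finite_range val
  have hFcl : IsClosed F := hFfin.isClosed
  have haeK : ∀ᵐ x ∂(volume.restrict K), h x ∈ F := by
    rw [← iUnion_lcell K Y ψ, ae_restrict_iUnion_iff]
    intro i
    filter_upwards [hae i] with x hx
    rw [hx]
    exact mem_range_self i
  have hclosedset : IsClosed (h ⁻¹' F) := hFcl.preimage hcont
  have hinterior : interior K ⊆ h ⁻¹' F := by
    intro x hx
    by_contra hcon
    set U := interior K ∩ (h ⁻¹' F)ᶜ with hU
    have hUo : IsOpen U := isOpen_interior.inter hclosedset.isOpen_compl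
    have hUne : U.Nonempty := ⟨x, hx, hcon⟩
    have hpos := hUo.measure_pos volume hUne
    have hnull : volume {x | ¬ (x ∈ K → h x ∈ F)} = 0 := by
      have := (ae_restrict_iff' hK.measurableSet).1 haeK
      exact ae_iff.1 this
    refine absurd (measure_mono_null ?_ hnull) hpos.ne'
    rintro y ⟨hy1, hy2⟩
    simp only [mem_ofPred_eq, Classical.not_imp]
    exact ⟨interior_subset hy1, hy2⟩
  have hKsub : K ⊆ h ⁻¹' F := by
    have h1 : closure (interior K) = closure K :=
      hconv.closure_interior_eq_closure_of_nonempty_interior hint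
    have h2 : closure K = K := hK.isClosed.closure_eq
    intro x hx
    have h3 : x ∈ closure (interior K) := by rw [h1, h2]; exact hx
    exact (closure_minimal hinterior hclosedset) h3
  have hconst : ∀ x ∈ K, ∀ z ∈ K, h x = h z := by
    intro x hx z hz
    exact hconv.isPreconnected.constant_of_mapsTo hFfin.isDiscrete hcont.continuousOn hKsub hx hz
  -- each cell contains a point with equality
  have hpt : ∀ i, ∃ x ∈ lcell K Y ψ i, h x = val i := by
    intro i
    by_contra hcon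
    push Not at hcon
    have h1 := (ae_restrict_iff' (hCm i)).1 (hae i)
    have h2 : volume {x | ¬ (x ∈ lcell K Y ψ i → h x = val i)} = 0 := ae_iff.1 h1
    have h3 : volume (lcell K Y ψ i) = 0 := by
      refine measure_mono_null ?_ h2
      intro x hx
      simp only [mem_ofPred_eq, Classical.not_imp]
      exact ⟨hx, hcon x hx⟩
    have h4 := hd i
    rw [measureReal_def, h3] at h4
    have := hm i
    simp at h4
    linarith
  obtain ⟨i₀⟩ := ‹Nonempty ι›
  obtain ⟨x₀, hx₀, hx₀v⟩ := hpt i₀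
  refine ⟨- h x₀, fun i => ?_⟩
  obtain ⟨x, hx, hxv⟩ := hpt i
  have h1 := hconst x hx.1 x₀ hx₀.1
  rw [← h1, hxv]
  simp only [hval]
  ring

lemma lcell_nonempty {K : Set (Eu d)} {Y : ι → Eu d} {ψ w : ι → ℝ} (hd : IsDualW K Y ψ w)
    (hw : ∀ i, 0 < w i) (i : ι) : (lcell K Y ψ i).Nonempty := by
  by_contra hcon
  rw [not_nonempty_iff_eq_empty] at hcon
  have h := hd i
  rw [hcon] at h
  have := hw i
  simp at h
  linarith

lemma dual_bound {K : Set (Eu d)} {R : ℝ} (hKR : ∀ x ∈ K, ‖x‖ ≤ R) {Y : ι → Eu d}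
    {ψ w : ι → ℝ} (hd : IsDualW K Y ψ w) (hw : ∀ i, 0 < w i) (i j : ι) :
    ψ i - ψ j ≤ R * ‖Y i - Y j‖ := by
  obtain ⟨x, hx⟩ := lcell_nonempty hd hw i
  have h1 := hx.2 j
  have h2 : inner ℝ x (Y i - Y j) ≤ ‖x‖ * ‖Y i - Y j‖ := real_inner_le_norm _ _
  have h3 : ‖x‖ * ‖Y i - Y j‖ ≤ R * ‖Y i - Y j‖ :=
    mul_le_mul_of_nonneg_right (hKR x hx.1) (norm_nonneg _)
  rw [inner_sub_right] at h2
  linarith

/-- Continuity of the pairing of dual potentials under a perturbation of the masses. -/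
theorem dual_pairing_small {K : Set (Eu d)} (hK : IsCompact K) (hconv : Convex ℝ K)
    (hint : (interior K).Nonempty) {R : ℝ} (hKR : ∀ x ∈ K, ‖x‖ ≤ R) {Y : ι → Eu d}
    (hY : Function.Injective Y) {ψ₀ m κ : ι → ℝ} (hd : IsDualW K Y ψ₀ m) (hm : ∀ i, 0 < m i)
    (hκ : ∑ i, m i * κ i = 0) {ε : ℝ} (hε : 0 < ε) :
    ∃ τ₀ : ℝ, 0 < τ₀ ∧ ∀ τ : ℝ, |τ| ≤ τ₀ → ∀ ψ : ι → ℝ,
      (∀ i, 0 < m i * (1 + τ * κ i)) → IsDualW K Y ψ (fun i => m i * (1 + τ * κ i)) →
      |∑ i, m i * κ i * (ψ i - ψ₀ i)| < ε := by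
  classical
  obtain ⟨i₀⟩ := ‹Nonempty ι›
  have hR0 : 0 ≤ R := by
    obtain ⟨x, hx⟩ := hint
    exact (norm_nonneg _).trans (hKR x (interior_subset hx))
  set A₀ : ℝ := R * (2 * ∑ j, ‖Y j‖) with hA₀
  have hsumn : ∀ i j, ‖Y i - Y j‖ ≤ 2 * ∑ j, ‖Y j‖ := by
    intro i j
    have h1 : ‖Y i‖ ≤ ∑ j, ‖Y j‖ :=
      Finset.single_le_sum (f := fun j => ‖Y j‖) (fun j _ => norm_nonneg _) (Finset.mem_univ i)
    have h2 : ‖Y j‖ ≤ ∑ j, ‖Y j‖ :=
      Finset.single_le_sum (f := fun j => ‖Y j‖) (fun j _ => norm_nonneg _) (Finset.mem_univ j)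
    have := norm_sub_le (Y i) (Y j)
    linarith
  have hA₀0 : 0 ≤ A₀ := by
    have : 0 ≤ ∑ j, ‖Y j‖ := Finset.sum_nonneg fun _ _ => norm_nonneg _
    positivity
  set Q : Set (ι → ℝ) := Icc (fun _ => -A₀) (fun _ => A₀) with hQ
  have hQc : IsCompact Q := isCompact_Icc
  set L : (ι → ℝ) → ℝ := fun φ => ∑ i, m i * κ i * (φ i - ψ₀ i) with hL
  have hLc : Continuous L := by fun_prop
  have hLconst : ∀ (φ : ι → ℝ) (c : ℝ), L (fun j => φ j - c) = L φ := by
    intro φ c
    simp only [hL]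
    have e : ∀ i, m i * κ i * (φ i - c - ψ₀ i) = m i * κ i * (φ i - ψ₀ i) - c * (m i * κ i) := by
      intro i; ring
    simp only [e, Finset.sum_sub_distrib, ← Finset.mul_sum, hκ]
    ring
  set S : Set (ι → ℝ) := Q ∩ {φ | ε ≤ |L φ|} with hS
  have hSc : IsCompact S :=
    hQc.inter_right (isClosed_le continuous_const hLc.abs)
  set G₀ := Jfun K Y m ψ₀ with hG₀
  have hsumm : ∑ i, m i = volume.real K := by
    rw [← sum_volume_cells hK hY ψ₀]
    exact Finset.sum_congr rfl (fun i _ => (hd i).symm)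
  obtain ⟨C, hC⟩ := hQc.exists_bound_of_continuousOn hLc.continuousOn
  -- the basic inequality for perturbed duals
  have hbasic : ∀ τ : ℝ, ∀ ψ : ι → ℝ, (∀ i, 0 < m i * (1 + τ * κ i)) →
      IsDualW K Y ψ (fun i => m i * (1 + τ * κ i)) →
      (fun j => ψ j - ψ i₀) ∈ Q ∧ L (fun j => ψ j - ψ i₀) = L ψ ∧
        Jfun K Y m (fun j => ψ j - ψ i₀) - G₀ ≤ - (τ * L (fun j => ψ j - ψ i₀)) := by
    intro τ ψ hw hdw
    set φ : ι → ℝ := fun j => ψ j - ψ i₀ with hφ
    set w : ι → ℝ := fun i => m i * (1 + τ * κ i) with hwd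
    have hsumw : ∑ i, w i = volume.real K := by
      have e : ∀ i, w i = m i + τ * (m i * κ i) := by
        intro i; simp only [hwd]; ring
      simp only [e, Finset.sum_add_distrib, ← Finset.mul_sum, hκ, hsumm]
      ring
    refine ⟨⟨fun j => ?_, fun j => ?_⟩, hLconst ψ (ψ i₀), ?_⟩
    · have h1 := dual_bound hKR hdw hw i₀ j
      have h2 : R * ‖Y i₀ - Y j‖ ≤ A₀ := mul_le_mul_of_nonneg_left (hsumn i₀ j) hR0
      simp only [hφ]
      linarith
    · have h1 := dual_bound hKR hdw hw j i₀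
      have h2 : R * ‖Y j - Y i₀‖ ≤ A₀ := mul_le_mul_of_nonneg_left (hsumn j i₀) hR0
      simp only [hφ]
      linarith
    · have h1 : Jfun K Y w φ = Jfun K Y w ψ := Jfun_sub_const hK Y hsumw ψ (ψ i₀)
      have h2 := Jfun_dual_le hK hY hdw ψ₀
      have hsplit : ∀ θ : ι → ℝ, Jfun K Y w θ = Jfun K Y m θ + τ * ∑ i, m i * κ i * θ i := by
        intro θ
        unfold Jfun
        rw [add_assoc]
        congr 1
        rw [Finset.mul_sum, ← Finset.sum_add_distrib]
        refine Finset.sum_congr rfl (fun i _ => ?_)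
        simp only [hwd]
        ring
      rw [← h1, hsplit, hsplit] at h2
      have hLform : L φ = ∑ i, m i * κ i * φ i - ∑ i, m i * κ i * ψ₀ i := by
        simp only [hL]
        rw [← Finset.sum_sub_distrib]
        refine Finset.sum_congr rfl (fun i _ => ?_)
        ring
      rw [hLform]
      nlinarith
  by_cases hSne : S.Nonempty
  · obtain ⟨φs, hφs, hmin⟩ := hSc.exists_isMinOn hSne (continuous_Jfun hK Y m).continuousOn
    set δ := Jfun K Y m φs - G₀ with hδ
    have hδ0 : 0 < δ := by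
      have h1 : 0 ≤ δ := sub_nonneg.mpr (Jfun_dual_le hK hY hd φs)
      rcases h1.lt_or_eq with h2 | h2
      · exact h2
      · exfalso
        have h3 : Jfun K Y m φs ≤ Jfun K Y m ψ₀ := by
          have : Jfun K Y m φs - G₀ = 0 := h2.symm
          rw [hG₀] at this
          linarith
        obtain ⟨c, hc⟩ := min_unique hK hconv hint hY hd hm h3
        have h4 : L φs = 0 := by
          simp only [hL, hc, ← Finset.sum_mul, hκ, zero_mul]
        have h5 := hφs.2
        have h6 : ε ≤ |L φs| := h5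
        rw [h4, abs_zero] at h6
        linarith
    have hC1 : 0 < |C| + 1 := by positivity
    refine ⟨δ / (2 * (|C| + 1)), by positivity, ?_⟩
    intro τ hτ ψ hw hdw
    obtain ⟨h1, h2, h3⟩ := hbasic τ ψ hw hdw
    rw [← hL] at *
    show |L ψ| < ε
    rw [← h2]
    by_contra hcon
    push Not at hcon
    have hmem : (fun j => ψ j - ψ i₀) ∈ S := ⟨h1, hcon⟩
    have h4 : Jfun K Y m φs ≤ Jfun K Y m (fun j => ψ j - ψ i₀) := hmin hmem
    have h5 : |L (fun j => ψ j - ψ i₀)| ≤ |C| := by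
      have := hC _ h1
      rw [Real.norm_eq_abs] at this
      exact this.trans (le_abs_self _)
    have h6 : - (τ * L (fun j => ψ j - ψ i₀)) ≤ |τ| * |C| := by
      have h7 := neg_abs_le (τ * L (fun j => ψ j - ψ i₀))
      rw [abs_mul] at h7
      have h8 : |τ| * |L (fun j => ψ j - ψ i₀)| ≤ |τ| * |C| :=
        mul_le_mul_of_nonneg_left h5 (abs_nonneg _)
      linarith
    have h7 : |τ| * |C| ≤ δ / 2 := by
      have h8 : |τ| * |C| ≤ (δ / (2 * (|C| + 1))) * (|C| + 1) :=
        mul_le_mul hτ (by linarith) (abs_nonneg _) (by positivity)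
      have h9 : (δ / (2 * (|C| + 1))) * (|C| + 1) = δ / 2 := by
        field_simp
      linarith
    linarith
  · refine ⟨1, one_pos, ?_⟩
    intro τ _ ψ hw hdw
    obtain ⟨h1, h2, _⟩ := hbasic τ ψ hw hdw
    show |L ψ| < ε
    rw [← h2]
    by_contra hcon
    push Not at hcon
    exact hSne ⟨_, h1, hcon⟩

end Vale.Agent.P074
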