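import Mathlib

open Set Filter Topology

namespace Vale.Agent.P074

/-- A mixed difference bound along a path, from subgradient inequalities on a cofinite set. -/
lemma mixed_difference {g₁ g₂ a₁ a₂ : ℝ → ℝ} {Good : Set ℝ} (h0 : (0 : ℝ) ∈ Good)
    (h1 : (1 : ℝ) ∈ Good) (hbad : (Goodᶜ).Finite) {A B : ℝ}
    (hsub₁ : ∀ s ∈ Good, ∀ s' ∈ Good, g₁ s + (s' - s) * a₁ s ≤ g₁ s')
    (hsub₂ : ∀ s ∈ Good, ∀ s' ∈ Good, g₂ s + (s' - s) * a₂ s ≤ g₂ s')
    (hdiff : ∀ s ∈ Good, a₁ s - a₂ s ≤ A) (hbd₂ : ∀ s ∈ Good, |a₂ s| ≤ B) :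
    (g₁ 1 - g₂ 1) - (g₁ 0 - g₂ 0) ≤ A := by
  have hB0 : 0 ≤ B := (abs_nonneg _).trans (hbd₂ 0 h0)
  -- monotonicity of `a₂`
  have hmono : ∀ s ∈ Good, ∀ s' ∈ Good, s < s' → a₂ s ≤ a₂ s' := by
    intro s hs s' hs' hlt
    have h2 := hsub₂ s hs s' hs'
    have h3 := hsub₂ s' hs' s hs
    have h4 : 0 < s' - s := sub_pos.mpr hlt
    have h5 : (s' - s) * (a₂ s - a₂ s') ≤ 0 := by nlinarith
    by_contra hcon
    push Not at hcon
    nlinarith
  -- one step of the chain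
  have hstep : ∀ δ : ℝ, 0 ≤ δ → ∀ s ∈ Good, ∀ s' ∈ Good, s < s' → s' - s ≤ δ →
      (g₁ s' - g₂ s') - (g₁ s - g₂ s) ≤ (s' - s) * A + δ * (a₂ s' - a₂ s) := by
    intro δ hδ s hs s' hs' hlt hgap
    have h2 := hsub₁ s' hs' s hs
    have h3 := hsub₂ s hs s' hs'
    have h4 := hdiff s' hs'
    have h5 := hmono s hs s' hs' hlt
    have h6 : 0 < s' - s := sub_pos.mpr hlt
    have h7 : (s' - s) * (a₁ s' - a₂ s') ≤ (s' - s) * A := mul_le_mul_of_nonneg_left h4 h6.le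
    have h8 : (s' - s) * (a₂ s' - a₂ s) ≤ δ * (a₂ s' - a₂ s) :=
      mul_le_mul_of_nonneg_right hgap (by linarith)
    nlinarith
  have hinf : ∀ x y : ℝ, x < y → ∃ t ∈ Good, x < t ∧ t < y := by
    intro x y hxy
    have h2 : ((Ioo x y) \ Goodᶜ).Nonempty := ((Ioo_infinite hxy).sdiff hbad).nonempty
    obtain ⟨t, ht, htG⟩ := h2
    exact ⟨t, not_not.mp htG, ht.1, ht.2⟩
  refine le_of_forall_pos_le_add (fun ε hε => ?_)
  -- choose the mesh
  obtain ⟨N, hN⟩ := exists_nat_gt (4 * B / ε)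
  have hNpos : (0 : ℝ) < (N : ℝ) + 1 := by positivity
  set n : ℕ := N + 1 with hn
  have hn0 : (0 : ℝ) < n := by rw [hn]; push_cast; exact hNpos
  set δ : ℝ := 2 / n with hδ
  have hδ0 : 0 < δ := by positivity
  have hclaim : ∀ k : ℕ, k ≤ n → ∃ t ∈ Good, t ≤ (k : ℝ) / n ∧ (k : ℝ) / n - 1 / n ≤ t ∧
      (g₁ t - g₂ t) - (g₁ 0 - g₂ 0) ≤ t * A + δ * (a₂ t - a₂ 0) := by
    intro k
    induction k with
    | zero =>
      intro _
      refine ⟨0, h0, by simp, ?_, by simp⟩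
      have : (0 : ℝ) ≤ 1 / n := by positivity
      simp only [Nat.cast_zero, zero_div]
      linarith
    | succ k ih =>
      intro hk
      obtain ⟨t, htG, ht1, ht2, ht3⟩ := ih (by omega)
      have hlt : (k : ℝ) / n < ((k : ℝ) + 1) / n := by
        apply div_lt_div_of_pos_right _ hn0
        linarith
      obtain ⟨t', ht'G, ht'1, ht'2⟩ := hinf _ _ hlt
      have htt' : t < t' := lt_of_le_of_lt ht1 ht'1
      have hgap : t' - t ≤ δ := by
        have e : ((k : ℝ) + 1) / n = (k : ℝ) / n + 1 / n := by ring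
        rw [e] at ht'2
        rw [hδ]
        have e2 : (2 : ℝ) / n = 1 / n + 1 / n := by ring
        rw [e2]
        linarith
      have h5 := hstep δ hδ0.le t htG t' ht'G htt' hgap
      refine ⟨t', ht'G, ?_, ?_, ?_⟩
      · push_cast; exact ht'2.le
      · push_cast
        have e : ((k : ℝ) + 1) / n - 1 / n = (k : ℝ) / n := by ring
        rw [e]
        exact ht'1.le
      · nlinarith
  obtain ⟨t, htG, ht1, ht2, ht3⟩ := hclaim n le_rfl
  have hnn : (n : ℝ) / n = 1 := div_self hn0.ne'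
  rw [hnn] at ht1 ht2
  have hfinal : (g₁ 1 - g₂ 1) - (g₁ 0 - g₂ 0) ≤ 1 * A + δ * (a₂ 1 - a₂ 0) := by
    rcases ht1.lt_or_eq with hlt | heq
    · have hgap : 1 - t ≤ δ := by
        rw [hδ]
        have e2 : (2 : ℝ) / n = 1 / n + 1 / n := by ring
        have : (0 : ℝ) ≤ 1 / n := by positivity
        rw [e2]
        linarith
      have h5 := hstep δ hδ0.le t htG 1 h1 hlt hgap
      nlinarith
    · rw [heq] at ht3
      exact ht3
  have h2 : a₂ 1 - a₂ 0 ≤ 2 * B := by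
    have h3 := abs_le.mp (hbd₂ 1 h1)
    have h4 := abs_le.mp (hbd₂ 0 h0)
    linarith
  have h3 : δ * (a₂ 1 - a₂ 0) ≤ δ * (2 * B) := mul_le_mul_of_nonneg_left h2 hδ0.le
  have h4 : δ * (2 * B) ≤ ε := by
    rw [hδ]
    have hlt2 : 4 * B / ε < n := by
      rw [hn]; push_cast; linarith
    rw [div_lt_iff₀ hε] at hlt2
    have e : 2 / (n : ℝ) * (2 * B) = 4 * B / n := by ring
    rw [e, div_le_iff₀ hn0]
    linarith
  linarith

end Vale.Agent.P074
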