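import Vale.Agent.P074.MassBound
import Vale.Agent.P074.Path
import Vale.Agent.P074.DualCont

open MeasureTheory Set Metric Filter Topology
open scoped ENNReal NNReal

set_option linter.unusedSectionVars false

namespace Vale.Agent.P074

variable {d : ℕ} {ι : Type*} [Fintype ι] [Nonempty ι]

/-- The subgradient inequality for the optimal value as a function of the sites. -/
lemma subgrad_G {K : Set (Eu d)} (hK : IsCompact K) {Y Y' ζ : ι → Eu d} {s : ℝ}
    (hY : Function.Injective Y) (hY' : Function.Injective Y')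
    (hYY : ∀ i, Y' i = Y i + s • ζ i) {ψ ψ' w : ι → ℝ}
    (hd : IsDualW K Y ψ w) (hd' : IsDualW K Y' ψ' w) :
    Jfun K Y w ψ + s * ∑ i, ∫ x in lcell K Y ψ i, inner ℝ x (ζ i) ≤ Jfun K Y' w ψ' := by
  rw [Jfun_eq_of_dual hK hY hd, Jfun_eq_of_dual hK hY' hd']
  have h1 := weak_dual hK hY hd Y' ψ'
  rw [Jfun_eq_of_dual hK hY' hd'] at h1
  refine le_trans (le_of_eq ?_) h1
  unfold Gv
  rw [Finset.mul_sum, ← Finset.sum_add_distrib]
  refine Finset.sum_congr rfl (fun i _ => ?_)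
  have hc := isCompact_lcell hK Y ψ i
  rw [← integral_const_mul, ← integral_add (integrableOn_of_continuous hc (by fun_prop))
    (integrableOn_of_continuous hc (by fun_prop))]
  refine integral_congr_ae (ae_of_all _ (fun x => ?_))
  simp only [hYY i, inner_add_right, real_inner_smul_right]

/-- The bad parameters on a segment of site configurations are finitely many. -/
lemma bad_finite {Y₀ ζ : ι → Eu d} (hY₀ : Function.Injective Y₀) :
    ({s : ℝ | Function.Injective (fun i => Y₀ i + s • ζ i)}ᶜ).Finite := by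
  classical
  have hsub : {s : ℝ | Function.Injective (fun i => Y₀ i + s • ζ i)}ᶜ ⊆
      ⋃ p : {p : ι × ι // p.1 ≠ p.2}, {s : ℝ | Y₀ p.1.1 + s • ζ p.1.1 = Y₀ p.1.2 + s • ζ p.1.2} := by
    intro s hs
    simp only [mem_compl_iff, mem_ofPred_eq, Function.Injective, not_forall] at hs
    obtain ⟨i, j, hij, hne⟩ := hs
    exact mem_iUnion.2 ⟨⟨(i, j), hne⟩, hij⟩
  refine Set.Finite.subset (Set.finite_iUnion (fun p => ?_)) hsub
  refine Set.Subsingleton.finite ?_
  intro s hs t ht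
  have hs' : Y₀ p.1.1 + s • ζ p.1.1 = Y₀ p.1.2 + s • ζ p.1.2 := hs
  have ht' : Y₀ p.1.1 + t • ζ p.1.1 = Y₀ p.1.2 + t • ζ p.1.2 := ht
  have hne : Y₀ p.1.1 ≠ Y₀ p.1.2 := fun e => p.2 (hY₀ e)
  by_contra hst
  have h1 : (s - t) • (ζ p.1.1 - ζ p.1.2) = 0 := by
    have : s • ζ p.1.1 - t • ζ p.1.1 = s • ζ p.1.2 - t • ζ p.1.2 := by
      have e1 : s • ζ p.1.1 - s • ζ p.1.2 = Y₀ p.1.2 - Y₀ p.1.1 := by
        rw [sub_eq_sub_iff_add_eq_add]
        rw [add_comm, hs', add_comm]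
      have e2 : t • ζ p.1.1 - t • ζ p.1.2 = Y₀ p.1.2 - Y₀ p.1.1 := by
        rw [sub_eq_sub_iff_add_eq_add]
        rw [add_comm, ht', add_comm]
      rw [sub_eq_sub_iff_add_eq_add]
      rw [sub_eq_iff_eq_add] at e1 e2
      rw [e1, e2]
      abel
    rw [smul_sub, sub_smul, sub_smul, sub_eq_zero]
    exact this
  have h2 : ζ p.1.1 - ζ p.1.2 = 0 := by
    rcases smul_eq_zero.1 h1 with h | h
    · exact absurd (sub_eq_zero.1 h) hst
    · exact h
  have h3 : ζ p.1.1 = ζ p.1.2 := sub_eq_zero.1 h2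
  rw [h3] at hs'
  exact hne (add_right_cancel hs')

lemma sqrt_pert {m t : ℝ} (hm : 0 < m) (ht : -1 ≤ t) :
    (Real.sqrt m - Real.sqrt (m * (1 + t))) ^ 2 ≤ m * t ^ 2 := by
  rw [Real.sqrt_mul hm.le]
  have h1 := Real.sq_sqrt hm.le
  have h2 : 0 ≤ 1 + t := by linarith
  have h3 := Real.sq_sqrt h2
  have h4 := Real.sqrt_nonneg (1 + t)
  have e : (Real.sqrt m - Real.sqrt m * Real.sqrt (1 + t)) ^ 2
      = m * (1 - Real.sqrt (1 + t)) ^ 2 := by
    rw [← h1]
    simp only [Real.sqrt_sq (Real.sqrt_nonneg m)]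
    ring_nf
  rw [e]
  refine mul_le_mul_of_nonneg_left ?_ hm.le
  have e2 : t = (Real.sqrt (1 + t) - 1) * (Real.sqrt (1 + t) + 1) := by
    have : (Real.sqrt (1 + t) - 1) * (Real.sqrt (1 + t) + 1) = Real.sqrt (1 + t) ^ 2 - 1 := by ring
    rw [this, h3]; ring
  have h5 : (1 - Real.sqrt (1 + t)) ^ 2 ≤ ((Real.sqrt (1 + t) - 1) * (Real.sqrt (1 + t) + 1)) ^ 2 := by
    rw [mul_pow]
    have h6 : 1 ≤ (Real.sqrt (1 + t) + 1) ^ 2 := by nlinarith
    have h7 : (1 - Real.sqrt (1 + t)) ^ 2 = (Real.sqrt (1 + t) - 1) ^ 2 := by ring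
    rw [h7]
    nlinarith [sq_nonneg (Real.sqrt (1 + t) - 1)]
  rwa [← e2] at h5

/-- **The dual bound**: the weighted `ℓ²` norm of the difference of the dual potentials is
controlled by the weighted `ℓ²` norm of the displacement of the sites. -/
theorem kappa_bound {K : Set (Eu d)} (hK : IsCompact K) (hconv : Convex ℝ K)
    (hint : (interior K).Nonempty) {R : ℝ} (hR : 0 < R) (hKR : ∀ x ∈ K, ‖x‖ ≤ R)
    {Y₀ Y₁ : ι → Eu d} (hY₀ : Function.Injective Y₀) (hY₁ : Function.Injective Y₁)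
    {ψ₀ ψ₁ m κ : ι → ℝ} {c : ℝ} (hd₀ : IsDualW K Y₀ ψ₀ m) (hd₁ : IsDualW K Y₁ ψ₁ m)
    (hm : ∀ i, 0 < m i) (hκ : ∑ i, m i * κ i = 0) (hη : ∀ i, ψ₁ i - ψ₀ i = κ i + c) :
    ∑ i, m i * κ i ^ 2 ≤ (26 * R) ^ 2 * ∑ i, m i * ‖Y₁ i - Y₀ i‖ ^ 2 := by
  classical
  set ζ : ι → Eu d := fun i => Y₁ i - Y₀ i with hζ
  set N := ∑ i, m i * κ i ^ 2 with hN
  set W2 := ∑ i, m i * ‖ζ i‖ ^ 2 with hW2
  have hN0 : 0 ≤ N := Finset.sum_nonneg fun i _ => mul_nonneg (hm i).le (sq_nonneg _)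
  have hW20 : 0 ≤ W2 := Finset.sum_nonneg fun i _ => mul_nonneg (hm i).le (sq_nonneg _)
  have hsumm : ∑ i, m i = volume.real K := by
    rw [← sum_volume_cells hK hY₀ ψ₀]
    exact Finset.sum_congr rfl (fun i _ => (hd₀ i).symm)
  set P : (ι → ℝ) → ℝ := fun φ => ∑ i, m i * κ i * φ i with hP
  have hsplit : ∀ (Y : ι → Eu d) (τ : ℝ) (θ : ι → ℝ),
      Jfun K Y (fun i => m i * (1 + τ * κ i)) θ = Jfun K Y m θ + τ * P θ := by
    intro Y τ θ
    unfold Jfun
    rw [add_assoc]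
    congr 1
    simp only [hP]
    rw [Finset.mul_sum, ← Finset.sum_add_distrib]
    refine Finset.sum_congr rfl (fun i _ => ?_)
    ring
  have hPη : P ψ₁ - P ψ₀ = N := by
    simp only [hP, hN]
    rw [← Finset.sum_sub_distrib]
    have e : ∀ i, m i * κ i * ψ₁ i - m i * κ i * ψ₀ i = m i * κ i ^ 2 + c * (m i * κ i) := by
      intro i
      have := hη i
      calc m i * κ i * ψ₁ i - m i * κ i * ψ₀ i = m i * κ i * (ψ₁ i - ψ₀ i) := by ring
        _ = m i * κ i * (κ i + c) := by rw [this]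
        _ = _ := by ring
    simp only [e, Finset.sum_add_distrib, ← Finset.mul_sum, hκ]
    ring
  -- the main inequality with an arbitrarily small error
  have hmain : ∀ ε : ℝ, 0 < ε → N ≤ 26 * R * Real.sqrt W2 * Real.sqrt N + 2 * ε := by
    intro ε hε
    obtain ⟨τ₀, hτ₀, hsmall⟩ := dual_pairing_small hK hconv hint hKR hY₀ hd₀ hm hκ hε
    set Cκ := ∑ i, |κ i| with hCκ
    have hCκ0 : 0 ≤ Cκ := Finset.sum_nonneg fun _ _ => abs_nonneg _
    set τ := min τ₀ (1 / (2 * (Cκ + 1))) with hτ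
    have hτ0 : 0 < τ := lt_min hτ₀ (by positivity)
    have hττ₀ : τ ≤ τ₀ := min_le_left _ _
    have hτκ : ∀ i, τ * |κ i| ≤ 1 / 2 := by
      intro i
      have h1 : |κ i| ≤ Cκ :=
        Finset.single_le_sum (f := fun i => |κ i|) (fun _ _ => abs_nonneg _) (Finset.mem_univ i)
      have h2 : τ ≤ 1 / (2 * (Cκ + 1)) := min_le_right _ _
      calc τ * |κ i| ≤ (1 / (2 * (Cκ + 1))) * (Cκ + 1) :=
            mul_le_mul h2 (by linarith) (abs_nonneg _) (by positivity)
        _ = 1 / 2 := by field_simp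
    have hτκ1 : ∀ i, -(1 / 2) ≤ τ * κ i ∧ τ * κ i ≤ 1 / 2 := by
      intro i
      have h1 : |τ * κ i| ≤ 1 / 2 := by
        rw [abs_mul, abs_of_pos hτ0]; exact hτκ i
      exact abs_le.mp h1
    set wp : ι → ℝ := fun i => m i * (1 + τ * κ i) with hwp
    set wn : ι → ℝ := fun i => m i * (1 + (-τ) * κ i) with hwn
    have hwp0 : ∀ i, 0 < wp i := by
      intro i
      have := (hτκ1 i).1
      exact mul_pos (hm i) (by linarith)
    have hwn0 : ∀ i, 0 < wn i := by
      intro i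
      have := (hτκ1 i).2
      exact mul_pos (hm i) (by simp only [neg_mul]; linarith)
    have hwpm : ∀ i, wp i ≤ (3 / 2) * m i := by
      intro i
      have := (hτκ1 i).2
      have h2 := hm i
      simp only [hwp]
      nlinarith
    have hwnm : ∀ i, wn i ≤ (3 / 2) * m i := by
      intro i
      have := (hτκ1 i).1
      have h2 := hm i
      simp only [hwn, neg_mul]
      nlinarith
    have hsumw : ∀ t : ℝ, ∑ i, m i * (1 + t * κ i) = volume.real K := by
      intro t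
      have e : ∀ i, m i * (1 + t * κ i) = m i + t * (m i * κ i) := by
        intro i; ring
      simp only [e, Finset.sum_add_distrib, ← Finset.mul_sum, hκ, hsumm]
      ring
    -- the duals at the initial sites
    obtain ⟨ψp, hψp⟩ := exists_dual hK hY₀ hwp0 (hsumw τ)
    -- the path
    set Ys : ℝ → ι → Eu d := fun s i => Y₀ i + s • ζ i with hYs
    have hYs0 : Ys 0 = Y₀ := by
      funext i; simp [hYs]
    have hYs1 : Ys 1 = Y₁ := by
      funext i; simp [hYs, hζ]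
    set Good : Set ℝ := {s : ℝ | Function.Injective (Ys s)} with hGood
    have h0G : (0 : ℝ) ∈ Good := by
      show Function.Injective (Ys 0)
      rw [hYs0]; exact hY₀
    have h1G : (1 : ℝ) ∈ Good := by
      show Function.Injective (Ys 1)
      rw [hYs1]; exact hY₁
    have hbad : (Goodᶜ).Finite := bad_finite hY₀
    have hex1 : ∀ s ∈ Good, ∃ ψ, IsDualW K (Ys s) ψ m :=
      fun s hs => exists_dual hK hs hm hsumm
    have hex2 : ∀ s ∈ Good, ∃ ψ, IsDualW K (Ys s) ψ wn :=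
      fun s hs => exists_dual hK hs hwn0 (hsumw (-τ))
    choose! ψm hψm using hex1
    choose! ψw hψw using hex2
    set g₁ : ℝ → ℝ := fun s => Jfun K (Ys s) m (ψm s) with hg₁
    set g₂ : ℝ → ℝ := fun s => Jfun K (Ys s) wn (ψw s) with hg₂
    set a₁ : ℝ → ℝ := fun s => ∑ i, ∫ x in lcell K (Ys s) (ψm s) i, inner ℝ x (ζ i) with ha₁
    set a₂ : ℝ → ℝ := fun s => ∑ i, ∫ x in lcell K (Ys s) (ψw s) i, inner ℝ x (ζ i) with ha₂
    have hYsub : ∀ s s' : ℝ, ∀ i, Ys s' i = Ys s i + (s' - s) • ζ i := by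
      intro s s' i
      simp only [hYs, sub_smul]
      abel
    have hsub₁ : ∀ s ∈ Good, ∀ s' ∈ Good, g₁ s + (s' - s) * a₁ s ≤ g₁ s' :=
      fun s hs s' hs' => subgrad_G hK hs hs' (hYsub s s') (hψm s hs) (hψm s' hs')
    have hsub₂ : ∀ s ∈ Good, ∀ s' ∈ Good, g₂ s + (s' - s) * a₂ s ≤ g₂ s' :=
      fun s hs s' hs' => subgrad_G hK hs hs' (hYsub s s') (hψw s hs) (hψw s' hs')
    set A := 26 * R * Real.sqrt W2 * (τ * Real.sqrt N) with hA
    have hHell : Real.sqrt (∑ i, (Real.sqrt (m i) - Real.sqrt (wn i)) ^ 2) ≤ τ * Real.sqrt N := by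
      rw [Real.sqrt_le_iff]
      refine ⟨by positivity, ?_⟩
      rw [mul_pow, Real.sq_sqrt hN0, hN, Finset.mul_sum]
      refine Finset.sum_le_sum (fun i _ => ?_)
      have h1 := sqrt_pert (t := (-τ) * κ i) (hm i) (by
        have := (hτκ1 i).2
        simp only [neg_mul]
        linarith)
      refine h1.trans (le_of_eq ?_)
      ring
    have hdiff : ∀ s ∈ Good, a₁ s - a₂ s ≤ A := by
      intro s hs
      have h1 := mass_stability hK hconv hR hKR hs (hψm s hs) (hψw s hs) hm hwn0 hwnm ζ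
      have h2 : a₁ s - a₂ s ≤ ∑ i, |(∫ x in lcell K (Ys s) (ψm s) i, inner ℝ x (ζ i))
          - ∫ x in lcell K (Ys s) (ψw s) i, inner ℝ x (ζ i)| := by
        simp only [ha₁, ha₂]
        rw [← Finset.sum_sub_distrib]
        exact Finset.sum_le_sum (fun i _ => le_abs_self _)
      refine h2.trans (h1.trans ?_)
      rw [hA]
      exact mul_le_mul_of_nonneg_left hHell (by positivity)
    set B := ∑ i, (R * ‖ζ i‖) * wn i with hB
    have hbd₂ : ∀ s ∈ Good, |a₂ s| ≤ B := by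
      intro s hs
      simp only [ha₂, hB]
      refine (Finset.abs_sum_le_sum_abs _ _).trans (Finset.sum_le_sum (fun i _ => ?_))
      rw [← hψw s hs i, ← Real.norm_eq_abs]
      refine norm_setIntegral_le_of_norm_le_const
        (isCompact_lcell hK _ _ i).measure_lt_top ?_
      intro x hx
      rw [Real.norm_eq_abs]
      exact (abs_real_inner_le_norm _ _).trans
        (mul_le_mul_of_nonneg_right (hKR x hx.1) (norm_nonneg _))
    have hΩ := mixed_difference h0G h1G hbad hsub₁ hsub₂ hdiff hbd₂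
    -- the values at the endpoints
    have hd₀' : IsDualW K (Ys 0) (ψm 0) m := hψm 0 h0G
    have hd₁' : IsDualW K (Ys 1) (ψm 1) m := hψm 1 h1G
    rw [hYs0] at hd₀'
    rw [hYs1] at hd₁'
    have hg10 : g₁ 0 = Jfun K Y₀ m ψ₀ := by
      simp only [hg₁]
      rw [hYs0]
      exact Jfun_dual_eq hK hY₀ hd₀' hd₀
    have hg11 : g₁ 1 = Jfun K Y₁ m ψ₁ := by
      simp only [hg₁]
      rw [hYs1]
      exact Jfun_dual_eq hK hY₁ hd₁' hd₁
    have hdn₀ : IsDualW K Y₀ (ψw 0) wn := by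
      have := hψw 0 h0G
      rwa [hYs0] at this
    have hdn₁ : IsDualW K Y₁ (ψw 1) wn := by
      have := hψw 1 h1G
      rwa [hYs1] at this
    have hg20 : g₂ 0 = Jfun K Y₀ wn (ψw 0) := by
      simp only [hg₂]; rw [hYs0]
    have hg21 : g₂ 1 = Jfun K Y₁ wn (ψw 1) := by
      simp only [hg₂]; rw [hYs1]
    rw [hg10, hg11, hg20, hg21] at hΩ
    -- the Kantorovich inequalities
    have hI1 : Jfun K Y₁ wn (ψw 1) ≤ Jfun K Y₁ m ψ₁ + (-τ) * P ψ₁ := by
      have := Jfun_dual_le hK hY₁ hdn₁ ψ₁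
      rwa [hwn, hsplit Y₁ (-τ) ψ₁] at this
    have hI2 : Jfun K Y₀ wp ψp ≤ Jfun K Y₀ m ψ₀ + τ * P ψ₀ := by
      have := Jfun_dual_le hK hY₀ hψp ψ₀
      rwa [hwp, hsplit Y₀ τ ψ₀] at this
    have hI3 : Jfun K Y₀ m ψ₀ ≤ Jfun K Y₀ wp ψp - τ * P ψp := by
      have h1 := Jfun_dual_le hK hY₀ hd₀ ψp
      have h2 := hsplit Y₀ τ ψp
      rw [← hwp] at h2
      linarith
    have hI4 : Jfun K Y₀ m ψ₀ ≤ Jfun K Y₀ wn (ψw 0) + τ * P (ψw 0) := by
      have h1 := Jfun_dual_le hK hY₀ hd₀ (ψw 0)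
      have h2 := hsplit Y₀ (-τ) (ψw 0)
      rw [← hwn] at h2
      linarith
    -- the smallness of the pairings
    have hs1 := hsmall τ (by rw [abs_of_pos hτ0]; exact hττ₀) ψp hwp0 hψp
    have hs2 := hsmall (-τ) (by rw [abs_neg, abs_of_pos hτ0]; exact hττ₀) (ψw 0) hwn0 hdn₀
    have hpair : ∀ φ : ι → ℝ, ∑ i, m i * κ i * (φ i - ψ₀ i) = P φ - P ψ₀ := by
      intro φ
      simp only [hP]
      rw [← Finset.sum_sub_distrib]
      refine Finset.sum_congr rfl (fun i _ => ?_)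
      ring
    rw [hpair] at hs1 hs2
    have hs1' := abs_lt.mp hs1
    have hs2' := abs_lt.mp hs2
    -- combine everything
    have hfinal : τ * N ≤ A + τ * (2 * ε) := by
      rw [← hPη]
      have h5 : τ * (P (ψw 0) - P ψp) ≤ τ * (2 * ε) :=
        mul_le_mul_of_nonneg_left (by linarith [hs1'.1, hs2'.2]) hτ0.le
      nlinarith
    have hA' : A = τ * (26 * R * Real.sqrt W2 * Real.sqrt N) := by
      rw [hA]; ring
    rw [hA', ← mul_add] at hfinal
    exact le_of_mul_le_mul_left hfinal hτ0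
  have hmain2 : N ≤ 26 * R * Real.sqrt W2 * Real.sqrt N := by
    refine le_of_forall_pos_le_add (fun ε hε => ?_)
    have := hmain (ε / 2) (by positivity)
    linarith
  -- conclusion
  have hsN : Real.sqrt N ^ 2 = N := Real.sq_sqrt hN0
  have hsW : Real.sqrt W2 ^ 2 = W2 := Real.sq_sqrt hW20
  by_cases hsN0 : Real.sqrt N = 0
  · have : N = 0 := by rw [← hsN, hsN0]; simp
    rw [this]
    positivity
  · have hpos : 0 < Real.sqrt N := lt_of_le_of_ne (Real.sqrt_nonneg _) (Ne.symm hsN0)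
    have h1 : Real.sqrt N ≤ 26 * R * Real.sqrt W2 := by
      have h2 : Real.sqrt N * Real.sqrt N ≤ (26 * R * Real.sqrt W2) * Real.sqrt N := by
        nlinarith
      exact le_of_mul_le_mul_right h2 hpos
    have h2 : Real.sqrt N ^ 2 ≤ (26 * R * Real.sqrt W2) ^ 2 :=
      pow_le_pow_left₀ hpos.le h1 2
    rw [hsN, mul_pow, hsW] at h2
    exact h2

end Vale.Agent.P074
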