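import Vale.Agent.P074.Core

open MeasureTheory Set Metric Filter Topology
open scoped ENNReal NNReal

namespace Vale.Agent.P074

variable {d : ℕ}

lemma integrableOn_of_bd {f : Eu d → ℝ} {S : Set (Eu d)} {C : ℝ} (hf : Measurable f)
    (hS : MeasurableSet S) (hSf : volume S < ∞) (hb : ∀ x ∈ S, ‖f x‖ ≤ C) : IntegrableOn f S :=
  Measure.integrableOn_of_bounded hSf.ne hf.aestronglyMeasurable (M := C)
    (ae_restrict_of_forall_mem hS hb)

lemma gap_integrable {K : Set (Eu d)} (hK : IsCompact K) {T₀ T₁ : Eu d → Eu d} {R : ℝ}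
    (hT₀m : Measurable T₀) (hT₁m : Measurable T₁) (hbd₀ : ∀ x, ‖T₀ x‖ ≤ R) (hbd₁ : ∀ x, ‖T₁ x‖ ≤ R)
    {ψ : Eu d → ℝ} {L : ℝ≥0} (hψ : LipschitzWith L ψ) :
    IntegrableOn (fun x => ψ (T₀ x) - ψ (T₁ x) - inner ℝ x (T₀ x - T₁ x)) K := by
  obtain ⟨RK, hRK⟩ := hK.isBounded.subset_closedBall (0 : Eu d)
  have hRKn : ∀ x ∈ K, ‖x‖ ≤ RK := fun x hx => by simpa using hRK hx
  have hψm : Measurable ψ := hψ.continuous.measurable
  refine integrableOn_of_bd (C := (L + |RK|) * (2 * R))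
    (((hψm.comp hT₀m).sub (hψm.comp hT₁m)).sub (measurable_id.inner (hT₀m.sub hT₁m)))
    hK.measurableSet hK.measure_lt_top ?_
  intro x hx
  have h1 : |ψ (T₀ x) - ψ (T₁ x)| ≤ L * ‖T₀ x - T₁ x‖ := by
    have := hψ.dist_le_mul (T₀ x) (T₁ x)
    rwa [Real.dist_eq, dist_eq_norm] at this
  have h2 : |(inner ℝ x (T₀ x - T₁ x) : ℝ)| ≤ ‖x‖ * ‖T₀ x - T₁ x‖ := abs_real_inner_le_norm _ _
  have h3 : ‖T₀ x - T₁ x‖ ≤ 2 * R := by
    have := norm_sub_le (T₀ x) (T₁ x)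
    linarith [hbd₀ x, hbd₁ x]
  have h4 : ‖x‖ ≤ |RK| := (hRKn x hx).trans (le_abs_self _)
  simp only [Real.norm_eq_abs]
  have h5 : |ψ (T₀ x) - ψ (T₁ x) - inner ℝ x (T₀ x - T₁ x)|
      ≤ |ψ (T₀ x) - ψ (T₁ x)| + |(inner ℝ x (T₀ x - T₁ x) : ℝ)| := abs_sub _ _
  have hL : (0 : ℝ) ≤ L := L.2
  have h6 : ‖x‖ * ‖T₀ x - T₁ x‖ ≤ |RK| * (2 * R) :=
    mul_le_mul h4 h3 (norm_nonneg _) (abs_nonneg _)
  have h7 : (L : ℝ) * ‖T₀ x - T₁ x‖ ≤ L * (2 * R) := mul_le_mul_of_nonneg_left h3 hL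
  nlinarith

/-- The quadratic estimate. -/
theorem core_L2 {K : Set (Eu d)} (hK : IsCompact K) {T₀ T₁ : Eu d → Eu d} {R : ℝ}
    (hT₀m : Measurable T₀) (hT₁m : Measurable T₁) (hbd₀ : ∀ x, ‖T₀ x‖ ≤ R) (hbd₁ : ∀ x, ‖T₁ x‖ ≤ R)
    {ψ₀ ψ₁ : Eu d → ℝ} {L₀ L₁ : ℝ≥0} (hψ₀ : LipschitzWith L₀ ψ₀) (hψ₁ : LipschitzWith L₁ ψ₁)
    (hd₀ : ∀ᵐ x ∂(volume.restrict K), IsDual ψ₀ T₀ x)
    (hd₁ : ∀ᵐ x ∂(volume.restrict K), IsDual ψ₁ T₁ x)
    {c : ℝ} (hc : ∀ h : Eu d, (volume (K \ {x | x + h ∈ K})).toReal ≤ c * ‖h‖)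
    {t : ℝ} (ht : 0 < t) :
    ∫ x in K, ‖T₀ x - T₁ x‖ ^ 2 ≤
      2 * R * d * ((1 / t) * (∫ x in K, ((ψ₁ (T₀ x) - ψ₀ (T₀ x)) - (ψ₁ (T₁ x) - ψ₀ (T₁ x))))
        + 8 * R * c * t) := by
  have hKm : MeasurableSet K := hK.measurableSet
  have hKfin : volume K < ∞ := hK.measure_lt_top
  have hR0 : 0 ≤ R := (norm_nonneg _).trans (hbd₀ 0)
  set B : Eu d → ℝ := fun x => ψ₁ (T₀ x) - ψ₁ (T₁ x) - inner ℝ x (T₀ x - T₁ x) with hB
  set A : Eu d → ℝ := fun x => ψ₀ (T₁ x) - ψ₀ (T₀ x) - inner ℝ x (T₁ x - T₀ x) with hA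
  have hBi : IntegrableOn B K := gap_integrable hK hT₀m hT₁m hbd₀ hbd₁ hψ₁
  have hAi : IntegrableOn A K := gap_integrable hK hT₁m hT₀m hbd₁ hbd₀ hψ₀
  have hAnn : 0 ≤ᵐ[volume.restrict K] A := by
    filter_upwards [hd₀] with x hx
    exact gap_nonneg hx
  have hsum : ∀ x, (ψ₁ (T₀ x) - ψ₀ (T₀ x)) - (ψ₁ (T₁ x) - ψ₀ (T₁ x)) = B x + A x := by
    intro x
    simp only [hB, hA, inner_sub_right]
    ring
  have hBle : ∫ x in K, B x ≤ ∫ x in K, ((ψ₁ (T₀ x) - ψ₀ (T₀ x)) - (ψ₁ (T₁ x) - ψ₀ (T₁ x))) := by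
    simp_rw [hsum]
    have h1 : ∫ x in K, (B x + A x) = (∫ x in K, B x) + ∫ x in K, A x := integral_add hBi hAi
    rw [h1]
    linarith [integral_nonneg_of_ae hAnn]
  set Ball := (1 / t) * (∫ x in K, ((ψ₁ (T₀ x) - ψ₀ (T₀ x)) - (ψ₁ (T₁ x) - ψ₀ (T₁ x))))
    + 8 * R * c * t with hBall
  have hcoord : ∀ k : Fin d, ∫ x in K, |(T₀ x - T₁ x) k| ≤ Ball := by
    intro k
    have hu : ‖(EuclideanSpace.single k (1 : ℝ) : Eu d)‖ = 1 := by simp
    have h1 := core_L1 hK hT₀m hT₁m hbd₀ hbd₁ hψ₁ hd₁ hc hu ht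
    have h2 : ∀ x, inner ℝ (EuclideanSpace.single k (1 : ℝ) : Eu d) (T₀ x - T₁ x)
        = (T₀ x - T₁ x) k := by
      intro x
      simp [EuclideanSpace.inner_single_left]
    simp_rw [h2] at h1
    refine h1.trans ?_
    have h3 : 0 ≤ 1 / t := by positivity
    have := mul_le_mul_of_nonneg_left hBle h3
    rw [hBall]
    linarith
  have hcm : ∀ k : Fin d, Measurable fun x => (T₀ x - T₁ x) k := by
    intro k
    have : (fun x => (T₀ x - T₁ x) k) = fun x =>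
        inner ℝ (EuclideanSpace.single k (1 : ℝ) : Eu d) (T₀ x - T₁ x) := by
      ext x
      simp [EuclideanSpace.inner_single_left]
    rw [this]
    exact measurable_const.inner (hT₀m.sub hT₁m)
  have hwbd : ∀ x, ‖T₀ x - T₁ x‖ ≤ 2 * R := by
    intro x
    have := norm_sub_le (T₀ x) (T₁ x)
    linarith [hbd₀ x, hbd₁ x]
  have hci : ∀ k : Fin d, IntegrableOn (fun x => |(T₀ x - T₁ x) k|) K := by
    intro k
    refine integrableOn_of_bd (C := 2 * R) (hcm k).abs hKm hKfin fun x _ => ?_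
    rw [Real.norm_eq_abs, abs_abs]
    have := PiLp.norm_apply_le (T₀ x - T₁ x) k
    rw [Real.norm_eq_abs] at this
    exact this.trans (hwbd x)
  have hptw : ∀ x, ‖T₀ x - T₁ x‖ ^ 2 ≤ 2 * R * ∑ k, |(T₀ x - T₁ x) k| := by
    intro x
    rw [EuclideanSpace.norm_sq_eq, Finset.mul_sum]
    refine Finset.sum_le_sum fun k _ => ?_
    have h1 : |(T₀ x - T₁ x) k| ≤ 2 * R := by
      have := PiLp.norm_apply_le (T₀ x - T₁ x) k
      rw [Real.norm_eq_abs] at this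
      exact this.trans (hwbd x)
    rw [Real.norm_eq_abs, pow_two]
    exact mul_le_mul_of_nonneg_right h1 (abs_nonneg _)
  have hsumi : IntegrableOn (fun x => 2 * R * ∑ k, |(T₀ x - T₁ x) k|) K :=
    (integrable_finsetSum _ fun k _ => hci k).const_mul _
  have hnsqi : IntegrableOn (fun x => ‖T₀ x - T₁ x‖ ^ 2) K := by
    refine integrableOn_of_bd (C := (2 * R) ^ 2)
      (((hT₀m.sub hT₁m).norm).pow_const 2) hKm hKfin fun x _ => ?_
    rw [Real.norm_of_nonneg (by positivity)]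
    exact pow_le_pow_left₀ (norm_nonneg _) (hwbd x) 2
  calc ∫ x in K, ‖T₀ x - T₁ x‖ ^ 2 ≤ ∫ x in K, (2 * R * ∑ k, |(T₀ x - T₁ x) k|) :=
        setIntegral_mono hnsqi hsumi hptw
    _ = 2 * R * ∑ k, ∫ x in K, |(T₀ x - T₁ x) k| := by
        rw [integral_const_mul, integral_finsetSum _ fun k _ => hci k]
    _ ≤ 2 * R * ∑ _k : Fin d, Ball :=
        mul_le_mul_of_nonneg_left (Finset.sum_le_sum fun k _ => hcoord k) (by positivity)
    _ = 2 * R * d * Ball := by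
        simp
        ring


/-- Replace an optimal map by one with values in `Y` everywhere. -/
lemma exists_clean {K Y : Set (Eu d)} (hY : IsCompact Y) (htop : volume K ≠ ∞) {μ : Measure (Eu d)}
    (hμ : μ Yᶜ = 0) {y₀ : Eu d} (hy₀ : y₀ ∈ Y) {T : Eu d → Eu d}
    (hT : IsOptimalMap (unif K) μ T) :
    ∃ T' : Eu d → Eu d, IsOptimalMap (unif K) μ T' ∧ (∀ x, T' x ∈ Y) ∧ T' =ᵐ[unif K] T := by
  classical
  obtain ⟨hTm, hTmap, hTopt⟩ := hT
  have hYm : MeasurableSet Y := hY.measurableSet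
  refine ⟨fun x => if T x ∈ Y then T x else y₀, ?_, ?_, ?_⟩
  all_goals
    have hm : Measurable fun x => if T x ∈ Y then T x else y₀ :=
      Measurable.ite (hTm hYm) hTm measurable_const
    have hae : (fun x => if T x ∈ Y then T x else y₀) =ᵐ[unif K] T := by
      have h1 : ∀ᵐ x ∂(unif K), T x ∈ Y := by
        have h2 : (unif K) (T ⁻¹' Yᶜ) = 0 := by
          rw [← Measure.map_apply hTm hYm.compl, hTmap]
          exact hμ
        exact measure_eq_zero_iff_ae_notMem.1 h2 |>.mono fun x hx => by simpa using hx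
      filter_upwards [h1] with x hx
      simp [hx]
  · refine ⟨hm, ?_, ?_⟩
    · rw [Measure.map_congr hae, hTmap]
    · intro S hS hSmap
      have h1 : cost (unif K) (fun x => if T x ∈ Y then T x else y₀) = cost (unif K) T := by
        unfold cost
        refine lintegral_congr_ae ?_
        filter_upwards [hae] with x hx
        rw [hx]
      rw [h1]
      exact hTopt S hS hSmap
  · intro x
    by_cases h : T x ∈ Y
    · simpa [h] using h
    · simpa [h] using hy₀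
  · exact hae

/-- Existence of the dual potential almost everywhere. -/
lemma dual_ae {K : Set (Eu d)} (hK : IsCompact K) (hconv : Convex ℝ K) (hint : (interior K).Nonempty)
    {μ : Measure (Eu d)} {T : Eu d → Eu d} {R : ℝ} (hbd : ∀ x, ‖T x‖ ≤ R)
    (hT : IsOptimalMap (unif K) μ T) {e : Eu d} (he : ‖e‖ = 1)
    {RK : ℝ≥0} (hRK : ∀ x ∈ K, ‖x‖ ≤ RK) :
    ∃ ψ : Eu d → ℝ, LipschitzWith RK ψ ∧ ∀ᵐ x ∂(volume.restrict K), IsDual ψ T x := by
  have hgood := ae_goodPoint hT.1 hbd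
  have hpos : 0 < volume (interior K) := isOpen_interior.measure_pos volume hint
  have h0 : volume K ≠ 0 := (hpos.trans_le (measure_mono interior_subset)).ne'
  obtain ⟨x₀, hx₀K, hx₀g⟩ : ∃ x₀, x₀ ∈ interior K ∧ GoodPoint T x₀ := by
    by_contra hcon
    push Not at hcon
    have hnull : volume (interior K) = 0 := by
      refine measure_mono_null ?_ (ae_iff.1 hgood)
      intro x hx hgx
      exact hcon x hx hgx
    exact hpos.ne' hnull
  obtain ⟨ψ, hψ, hdual⟩ := exists_potential hK h0 hbd hT he hRK hx₀K hx₀g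
  refine ⟨ψ, hψ, ?_⟩
  have hfr : ∀ᵐ x ∂(volume.restrict K), x ∈ interior K := by
    rw [ae_restrict_iff' hK.measurableSet]
    have hnull : volume (frontier K) = 0 := hconv.addHaar_frontier volume
    have : ∀ᵐ x, x ∉ frontier K := measure_eq_zero_iff_ae_notMem.1 hnull
    filter_upwards [this] with x hx hxK
    by_contra hxi
    exact hx ⟨subset_closure hxK, hxi⟩
  filter_upwards [hfr, ae_restrict_of_ae hgood] with x hx1 hx2
  exact hdual x hx1 hx2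

/-- Duality bound: the difference of integrals of a Lipschitz function against the two targets. -/
lemma lip_W1 {μ ν : Measure (Eu d)} {v : Eu d → ℝ} {L : ℝ≥0} (hL : L ≠ 0)
    (hv : LipschitzWith L v) (hvμ : Integrable v μ) (hvν : Integrable v ν) :
    ENNReal.ofReal (∫ y, v y ∂μ - ∫ y, v y ∂ν) ≤ L * W1 μ ν := by
  have hL0 : (L : ℝ≥0∞) ≠ 0 := by exact_mod_cast hL
  have hLt : (L : ℝ≥0∞) ≠ ∞ := ENNReal.coe_ne_top
  unfold W1
  rw [ENNReal.mul_iInf_of_ne hL0 hLt]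
  refine le_iInf fun π => ?_
  rw [ENNReal.mul_iInf_of_ne hL0 hLt]
  refine le_iInf fun hπ => ?_
  obtain ⟨h1, h2⟩ := hπ
  have hvm : Measurable v := hv.continuous.measurable
  have e1 : ∫ y, v y ∂μ = ∫ p, v p.1 ∂π := by
    rw [← h1, integral_map measurable_fst.aemeasurable hvm.aestronglyMeasurable]
  have e2 : ∫ y, v y ∂ν = ∫ p, v p.2 ∂π := by
    rw [← h2, integral_map measurable_snd.aemeasurable hvm.aestronglyMeasurable]
  have i1 : Integrable (fun p : Eu d × Eu d => v p.1) π := by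
    rw [← h1] at hvμ
    exact (integrable_map_measure hvm.aestronglyMeasurable measurable_fst.aemeasurable).1 hvμ
  have i2 : Integrable (fun p : Eu d × Eu d => v p.2) π := by
    rw [← h2] at hvν
    exact (integrable_map_measure hvm.aestronglyMeasurable measurable_snd.aemeasurable).1 hvν
  rw [e1, e2, ← integral_sub i1 i2]
  calc ENNReal.ofReal (∫ p, (v p.1 - v p.2) ∂π)
      ≤ ‖∫ p, (v p.1 - v p.2) ∂π‖ₑ := by
        rw [Real.enorm_eq_ofReal_abs]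
        exact ENNReal.ofReal_le_ofReal (le_abs_self _)
    _ ≤ ∫⁻ p, ‖v p.1 - v p.2‖ₑ ∂π := enorm_integral_le_lintegral_enorm _
    _ ≤ ∫⁻ p, L * ‖p.1 - p.2‖ₑ ∂π := by
        refine lintegral_mono fun p => ?_
        have := hv.edist_le_mul p.1 p.2
        rwa [edist_eq_enorm_sub, edist_eq_enorm_sub] at this
    _ = L * ∫⁻ p, ‖p.1 - p.2‖ₑ ∂π := lintegral_const_mul' _ _ hLt

/-- `W₁ ≤ W₂` for probability measures. -/
lemma W1_le_W2 {μ ν : Measure (Eu d)} [IsProbabilityMeasure μ] : W1 μ ν ≤ W2 μ ν := by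
  unfold W1 W2
  have h2 : (0 : ℝ) < 2 := by norm_num
  have hpow : ∀ a b : ℝ≥0∞, a ^ (2 : ℝ) ≤ b → a ≤ b ^ (1 / 2 : ℝ) := by
    intro a b hab
    have := ENNReal.rpow_le_rpow hab (by norm_num : (0 : ℝ) ≤ 1 / 2)
    rwa [← ENNReal.rpow_mul, show (2 : ℝ) * (1 / 2) = 1 by norm_num, ENNReal.rpow_one] at this
  apply hpow
  refine le_iInf fun π => le_iInf fun hπ => ?_
  obtain ⟨h1, h3⟩ := hπ
  have hprob : IsProbabilityMeasure π := by
    constructor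
    have hm : (π.map Prod.fst) univ = π univ := by
      rw [Measure.map_apply measurable_fst MeasurableSet.univ]
      simp
    rw [← hm, h1]
    exact measure_univ
  have hsm : AEStronglyMeasurable (fun p : Eu d × Eu d => p.1 - p.2) π :=
    (measurable_fst.sub measurable_snd).aestronglyMeasurable
  have hlp := eLpNorm_le_eLpNorm_of_exponent_le (p := 1) (q := 2) (μ := π) one_le_two hsm
  rw [eLpNorm_one_eq_lintegral_enorm,
    eLpNorm_eq_lintegral_rpow_enorm_toReal (by norm_num) (by norm_num)] at hlp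
  simp only [ENNReal.toReal_ofNat, one_div] at hlp
  have h5 : (⨅ (π' : Measure (Eu d × Eu d)) (_ : π'.map Prod.fst = μ ∧ π'.map Prod.snd = ν),
      ∫⁻ p, ‖p.1 - p.2‖ₑ ∂π') ≤ ∫⁻ p, ‖p.1 - p.2‖ₑ ∂π :=
    iInf₂_le_of_le π ⟨h1, h3⟩ le_rfl
  have h6 := ENNReal.rpow_le_rpow (h5.trans hlp) h2.le
  rw [← ENNReal.rpow_mul, inv_mul_cancel₀ h2.ne', ENNReal.rpow_one] at h6
  simpa [ENNReal.rpow_natCast] using h6


lemma real_opt {a b w D : ℝ} (ha : 0 ≤ a) (hb : 0 ≤ b) (hw : 0 ≤ w)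
    (h : ∀ t : ℝ, 0 < t → D ≤ a * w / t + b * t) : D ≤ (a + b) * Real.sqrt w := by
  rcases hw.eq_or_lt with h0 | hpos
  · subst h0
    have hD : D ≤ 0 := by
      by_contra hcon
      push Not at hcon
      have ht : 0 < D / (2 * (b + 1)) := by positivity
      have h1 := h _ ht
      simp only [mul_zero, zero_div, zero_add] at h1
      have h2 : b * (D / (2 * (b + 1))) ≤ D / 2 := by
        rw [mul_div_assoc', div_le_div_iff₀ (by positivity) (by norm_num)]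
        nlinarith
      linarith
    simpa using hD
  · have hs : 0 < Real.sqrt w := Real.sqrt_pos.mpr hpos
    have h1 := h _ hs
    have h2 : a * w / Real.sqrt w = a * Real.sqrt w := by
      have : w = Real.sqrt w * Real.sqrt w := (Real.mul_self_sqrt hw).symm
      field_simp
      nlinarith
    rw [h2] at h1
    linarith

lemma eLpNorm_two_eq {ρ : Measure (Eu d)} [IsProbabilityMeasure ρ] {f : Eu d → Eu d}
    (hf : Measurable f) {C : ℝ} (hC : ∀ x, ‖f x‖ ≤ C) :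
    eLpNorm f 2 ρ = ENNReal.ofReal (Real.sqrt (∫ x, ‖f x‖ ^ 2 ∂ρ)) := by
  have hm : MemLp f 2 ρ := MemLp.of_bound hf.aestronglyMeasurable C (Eventually.of_forall hC)
  rw [hm.eLpNorm_eq_integral_rpow_norm (by norm_num) (by norm_num)]
  simp only [ENNReal.toReal_ofNat]
  congr 1
  rw [Real.sqrt_eq_rpow]
  simp

/-- **Main theorem** (with `W₁` on the right-hand side). -/
theorem main_W1 (hd : 1 ≤ d) {K Y : Set (Eu d)} (hK : IsCompact K) (hconv : Convex ℝ K)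
    (hint : (interior K).Nonempty) (hY : IsCompact Y) (hYne : Y.Nonempty) :
    ∃ C : ℝ≥0, ∀ μ ν : Measure (Eu d), IsProbabilityMeasure μ → IsProbabilityMeasure ν →
      μ Yᶜ = 0 → ν Yᶜ = 0 →
      ∀ Tμ Tν : Eu d → Eu d, IsOptimalMap (unif K) μ Tμ → IsOptimalMap (unif K) ν Tν →
        eLpNorm (fun x => Tμ x - Tν x) 2 (unif K) ≤ (C : ℝ≥0∞) * W1 μ ν ^ (1 / 4 : ℝ) := by
  -- the geometry of `K`
  set e : Eu d := EuclideanSpace.single (⟨0, hd⟩ : Fin d) (1 : ℝ) with he'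
  have he : ‖e‖ = 1 := by simp [he']
  obtain ⟨p, hp⟩ := hint
  obtain ⟨r₁, hr₁, hr₁s⟩ := Metric.mem_nhds_iff.1 (mem_interior_iff_mem_nhds.1 hp)
  set r₀ := r₁ / 2 with hr₀def
  have hr₀ : 0 < r₀ := by positivity
  have hr₀s : closedBall p r₀ ⊆ K :=
    (closedBall_subset_ball (by rw [hr₀def]; linarith)).trans hr₁s
  have htop : volume K ≠ ∞ := hK.measure_lt_top.ne
  have hKm : MeasurableSet K := hK.measurableSet
  have hpos : 0 < volume (interior K) := isOpen_interior.measure_pos volume ⟨p, hp⟩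
  have h0 : volume K ≠ 0 := (hpos.trans_le (measure_mono interior_subset)).ne'
  set V := (volume K).toReal with hV
  have hVpos : 0 < V := ENNReal.toReal_pos h0 htop
  obtain ⟨RK₀, hRK₀⟩ := hK.isBounded.subset_closedBall (0 : Eu d)
  set RK : ℝ≥0 := Real.toNNReal RK₀ + 1 with hRKdef
  have hRKn : ∀ x ∈ K, ‖x‖ ≤ RK := by
    intro x hx
    have h1 : ‖x‖ ≤ RK₀ := by simpa using hRK₀ hx
    have h2 : RK₀ ≤ (Real.toNNReal RK₀ : ℝ) := Real.le_coe_toNNReal RK₀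
    have h3 : ((Real.toNNReal RK₀ + 1 : ℝ≥0) : ℝ) = (Real.toNNReal RK₀ : ℝ) + 1 := by push_cast; rfl
    rw [hRKdef, h3]
    linarith
  obtain ⟨y₀, hy₀⟩ := hYne
  obtain ⟨R, hR⟩ := hY.isBounded.subset_closedBall (0 : Eu d)
  have hRn : ∀ y ∈ Y, ‖y‖ ≤ R := fun y hy => by simpa using hR hy
  have hR0 : 0 ≤ R := (norm_nonneg _).trans (hRn y₀ hy₀)
  have hd0 : (0 : ℝ) ≤ d := Nat.cast_nonneg d
  set c : ℝ := (d + 1) * V / r₀ with hc'
  have hc : ∀ h : Eu d, (volume (K \ {x | x + h ∈ K})).toReal ≤ c * ‖h‖ := fun h =>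
    volume_diff_translate_le hK hconv hr₀ hr₀s h
  set a : ℝ := 2 * R * d * (RK + RK : ℝ≥0) with ha'
  set b : ℝ := 2 * R * d * (8 * R * ((d + 1) / r₀)) with hb'
  have ha0 : 0 ≤ a := by
    have : (0 : ℝ) ≤ ((RK + RK : ℝ≥0) : ℝ) := NNReal.coe_nonneg _
    positivity
  have hb0 : 0 ≤ b := by positivity
  refine ⟨Real.toNNReal (Real.sqrt (a + b)) + 1, ?_⟩
  intro μ ν hμp hνp hμ hν Tμ Tν hTμ hTν
  have hprob : IsProbabilityMeasure (unif K) := isProbabilityMeasure_unif h0 htop hKm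
  obtain ⟨T₀, hT₀, hT₀Y, hT₀e⟩ := exists_clean hY htop hμ hy₀ hTμ
  obtain ⟨T₁, hT₁, hT₁Y, hT₁e⟩ := exists_clean hY htop hν hy₀ hTν
  have hbd₀ : ∀ x, ‖T₀ x‖ ≤ R := fun x => hRn _ (hT₀Y x)
  have hbd₁ : ∀ x, ‖T₁ x‖ ≤ R := fun x => hRn _ (hT₁Y x)
  have hT₀m : Measurable T₀ := hT₀.1
  have hT₁m : Measurable T₁ := hT₁.1
  obtain ⟨ψ₀, hψ₀, hd₀⟩ := dual_ae hK hconv ⟨p, hp⟩ hbd₀ hT₀ he hRKn
  obtain ⟨ψ₁, hψ₁, hd₁⟩ := dual_ae hK hconv ⟨p, hp⟩ hbd₁ hT₁ he hRKn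
  set v : Eu d → ℝ := fun y => ψ₁ y - ψ₀ y with hv
  have hvL : LipschitzWith (RK + RK) v := hψ₁.sub hψ₀
  have hvm : Measurable v := hvL.continuous.measurable
  have hLne : (RK + RK : ℝ≥0) ≠ 0 := by
    have : (1 : ℝ≥0) ≤ RK := by rw [hRKdef]; exact le_add_self
    intro h
    have h2 : RK = 0 := by simpa using h
    rw [h2] at this
    simp at this
  -- integrability of `v` against the targets
  have hvT : ∀ T : Eu d → Eu d, Measurable T → (∀ x, ‖T x‖ ≤ R) →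
      Integrable (fun x => v (T x)) (unif K) := by
    intro T hTm hbd
    refine Integrable.of_bound (hvm.comp hTm).aestronglyMeasurable
      (|v 0| + (RK + RK : ℝ≥0) * R) (Eventually.of_forall fun x => ?_)
    have h1 := hvL.dist_le_mul (T x) 0
    rw [Real.dist_eq, dist_zero_right] at h1
    have h2 : |v (T x)| ≤ |v 0| + |v (T x) - v 0| := by
      have := abs_add_le (v 0) (v (T x) - v 0)
      simpa using this
    have h3 : ((RK + RK : ℝ≥0) : ℝ) * ‖T x‖ ≤ (RK + RK : ℝ≥0) * R :=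
      mul_le_mul_of_nonneg_left (hbd x) (NNReal.coe_nonneg _)
    rw [Real.norm_eq_abs]
    linarith
  have hvμ : Integrable v μ := by
    rw [← hT₀.2.1]
    exact (integrable_map_measure hvm.aestronglyMeasurable hT₀m.aemeasurable).2 (hvT T₀ hT₀m hbd₀)
  have hvν : Integrable v ν := by
    rw [← hT₁.2.1]
    exact (integrable_map_measure hvm.aestronglyMeasurable hT₁m.aemeasurable).2 (hvT T₁ hT₁m hbd₁)
  have hImap : ∫ y, v y ∂μ - ∫ y, v y ∂ν = ∫ x, (v (T₀ x) - v (T₁ x)) ∂(unif K) := by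
    rw [integral_sub (hvT T₀ hT₀m hbd₀) (hvT T₁ hT₁m hbd₁)]
    rw [← hT₀.2.1, ← hT₁.2.1, integral_map hT₀m.aemeasurable hvm.aestronglyMeasurable,
      integral_map hT₁m.aemeasurable hvm.aestronglyMeasurable]
  have hWb := lip_W1 hLne hvL hvμ hvν
  -- the case of infinite distance is trivial
  by_cases hWtop : W1 μ ν = ∞
  · rw [hWtop, ENNReal.top_rpow_of_pos (by norm_num), ENNReal.mul_top (by simp)]
    exact le_top
  set w := (W1 μ ν).toReal with hw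
  have hw0 : 0 ≤ w := ENNReal.toReal_nonneg
  have hIle : ∫ x, (v (T₀ x) - v (T₁ x)) ∂(unif K) ≤ (RK + RK : ℝ≥0) * w := by
    rw [← hImap]
    have hfin : ((RK + RK : ℝ≥0) : ℝ≥0∞) * W1 μ ν ≠ ∞ := ENNReal.mul_ne_top ENNReal.coe_ne_top hWtop
    have := (ENNReal.ofReal_le_iff_le_toReal hfin).1 hWb
    rwa [ENNReal.toReal_mul, ENNReal.coe_toReal] at this
  -- the main real inequality
  set D := ∫ x, ‖T₀ x - T₁ x‖ ^ 2 ∂(unif K) with hD
  have hDle : ∀ t : ℝ, 0 < t → D ≤ a * w / t + b * t := by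
    intro t ht
    have h1 := core_L2 hK hT₀m hT₁m hbd₀ hbd₁ hψ₀ hψ₁ hd₀ hd₁ hc ht
    have h2 : D = V⁻¹ * ∫ x in K, ‖T₀ x - T₁ x‖ ^ 2 := unif_apply_eq _
    have h3 : ∫ x, (v (T₀ x) - v (T₁ x)) ∂(unif K)
        = V⁻¹ * ∫ x in K, ((ψ₁ (T₀ x) - ψ₀ (T₀ x)) - (ψ₁ (T₁ x) - ψ₀ (T₁ x))) := unif_apply_eq _
    set J := ∫ x in K, ((ψ₁ (T₀ x) - ψ₀ (T₀ x)) - (ψ₁ (T₁ x) - ψ₀ (T₁ x))) with hJ
    have h4 : V⁻¹ * J ≤ (RK + RK : ℝ≥0) * w := by rw [← h3]; exact hIle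
    have hVi : 0 < V⁻¹ := inv_pos.mpr hVpos
    have h5 := mul_le_mul_of_nonneg_left h1 hVi.le
    rw [← h2] at h5
    have h6 : V⁻¹ * (2 * R * d * ((1 / t) * J + 8 * R * c * t))
        = 2 * R * d * ((1 / t) * (V⁻¹ * J) + 8 * R * ((d + 1) / r₀) * t) := by
      rw [hc']
      field_simp
    rw [h6] at h5
    refine h5.trans ?_
    have h7 : (1 / t) * (V⁻¹ * J) ≤ (1 / t) * (((RK + RK : ℝ≥0) : ℝ) * w) :=
      mul_le_mul_of_nonneg_left h4 (by positivity)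
    have h8 := mul_le_mul_of_nonneg_left
      (add_le_add_left h7 (8 * R * ((d + 1) / r₀) * t))
      (by positivity : 0 ≤ 2 * R * d)
    refine h8.trans (le_of_eq ?_)
    rw [ha', hb']
    field_simp
  have hDfinal := real_opt ha0 hb0 hw0 hDle
  -- conclusion
  have hcongr : eLpNorm (fun x => Tμ x - Tν x) 2 (unif K) = eLpNorm (fun x => T₀ x - T₁ x) 2 (unif K) := by
    refine eLpNorm_congr_ae ?_
    filter_upwards [hT₀e, hT₁e] with x h1 h2
    rw [h1, h2]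
  rw [hcongr]
  have hbdw : ∀ x, ‖T₀ x - T₁ x‖ ≤ 2 * R := by
    intro x
    have := norm_sub_le (T₀ x) (T₁ x)
    linarith [hbd₀ x, hbd₁ x]
  rw [eLpNorm_two_eq (ρ := unif K) (f := fun x => T₀ x - T₁ x) (hT₀m.sub hT₁m) hbdw, ← hD]
  have hW : W1 μ ν = ENNReal.ofReal w := (ENNReal.ofReal_toReal hWtop).symm
  rw [hW, ENNReal.ofReal_rpow_of_nonneg hw0 (by norm_num)]
  have hsq : Real.sqrt D ≤ Real.sqrt (a + b) * w ^ (1 / 4 : ℝ) := by
    have h1 : Real.sqrt D ≤ Real.sqrt ((a + b) * Real.sqrt w) := Real.sqrt_le_sqrt hDfinal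
    have h2 : Real.sqrt ((a + b) * Real.sqrt w) = Real.sqrt (a + b) * w ^ (1 / 4 : ℝ) := by
      rw [Real.sqrt_mul (by positivity)]
      congr 1
      rw [Real.sqrt_eq_rpow, Real.sqrt_eq_rpow, ← Real.rpow_mul hw0]
      norm_num
    rw [h2] at h1
    exact h1
  have hnn : 0 ≤ Real.sqrt (a + b) := Real.sqrt_nonneg _
  have hwp : 0 ≤ w ^ (1 / 4 : ℝ) := Real.rpow_nonneg hw0 _
  calc ENNReal.ofReal (Real.sqrt D) ≤ ENNReal.ofReal (Real.sqrt (a + b) * w ^ (1 / 4 : ℝ)) :=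
        ENNReal.ofReal_le_ofReal hsq
    _ = ENNReal.ofReal (Real.sqrt (a + b)) * ENNReal.ofReal (w ^ (1 / 4 : ℝ)) :=
        ENNReal.ofReal_mul hnn
    _ ≤ ((Real.toNNReal (Real.sqrt (a + b)) + 1 : ℝ≥0) : ℝ≥0∞) * ENNReal.ofReal (w ^ (1 / 4 : ℝ)) := by
        refine mul_le_mul_left ?_ _
        rw [ENNReal.ofReal]
        exact_mod_cast le_self_add

end Vale.Agent.P074
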