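import Vale.Agent.P074.DualBound
import Vale.Agent.P074.CoreQuad

open MeasureTheory Set Metric Filter Topology
open scoped ENNReal NNReal

set_option linter.unusedSectionVars false

namespace Vale.Agent.P074

variable {d : ℕ} {ι : Type*} [Fintype ι] [Nonempty ι]

/-- A measurable selection from a finite measurable cover. -/
lemma exists_label_aux {α : Type*} [MeasurableSpace α] {n : ℕ} {A : Fin n → Set α}
    (hA : ∀ i, MeasurableSet (A i)) (hcov : ∀ x, ∃ i, x ∈ A i) :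
    ∃ ℓ : α → Fin n, (∀ x, x ∈ A (ℓ x)) ∧ ∀ i, MeasurableSet (ℓ ⁻¹' {i}) := by
  classical
  have hne : ∀ x, {i | x ∈ A i}.Nonempty := hcov
  refine ⟨fun x => WellFounded.min (wellFounded_lt) {i | x ∈ A i} (hne x), ?_, ?_⟩
  · intro x
    exact WellFounded.min_mem _ _ (hne x)
  · intro i
    have e : (fun x => WellFounded.min (wellFounded_lt) {i | x ∈ A i} (hne x)) ⁻¹' {i}
        = A i \ ⋃ j : {j : Fin n // j < i}, A j.1 := by
      ext x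
      simp only [mem_preimage, mem_singleton_iff, Set.mem_sdiff, mem_iUnion, not_exists]
      constructor
      · intro h
        have h1 : x ∈ A i := by
          rw [← h]
          exact WellFounded.min_mem _ _ (hne x)
        refine ⟨h1, ?_⟩
        rintro ⟨j, hj⟩ hxj
        have h2 := WellFounded.not_lt_min (wellFounded_lt) {i | x ∈ A i} (x := j) hxj
        rw [h] at h2
        exact h2 hj
      · rintro ⟨h1, h2⟩
        have h3 : x ∈ A (WellFounded.min (wellFounded_lt) {i | x ∈ A i} (hne x)) :=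
          WellFounded.min_mem _ _ (hne x)
        have h4 : ¬ i < WellFounded.min (wellFounded_lt) {i | x ∈ A i} (hne x) :=
          WellFounded.not_lt_min (wellFounded_lt) {i | x ∈ A i} (x := i) h1
        rcases lt_or_ge (WellFounded.min (wellFounded_lt) {i | x ∈ A i} (hne x)) i with h5 | h5
        · exact absurd h3 (h2 ⟨_, h5⟩)
        · exact le_antisymm (not_lt.mp h4) h5
    rw [e]
    exact (hA i).diff (MeasurableSet.iUnion fun j => hA j.1)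

lemma exists_label (Y : ι → Eu d) (ψ : ι → ℝ) :
    ∃ ℓ : Eu d → ι, (∀ x, x ∈ ucell Y ψ (ℓ x)) ∧ ∀ i, MeasurableSet (ℓ ⁻¹' {i}) := by
  classical
  set e := Fintype.equivFin ι with he
  obtain ⟨ℓ, h1, h2⟩ := exists_label_aux (α := Eu d) (A := fun i => ucell Y ψ (e.symm i))
    (fun i => measurableSet_ucell Y ψ _) (by
      intro x
      obtain ⟨i, hi⟩ := exists_mem_ucell Y ψ x
      exact ⟨e i, by simpa using hi⟩)
  refine ⟨fun x => e.symm (ℓ x), h1, fun i => ?_⟩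
  have e2 : (fun x => e.symm (ℓ x)) ⁻¹' {i} = ℓ ⁻¹' {e i} := by
    ext x
    simp only [mem_preimage, mem_singleton_iff]
    exact Equiv.symm_apply_eq e
  rw [e2]
  exact h2 (e i)

lemma measurable_comp_label {ℓ : Eu d → ι} (hℓ : ∀ i, MeasurableSet (ℓ ⁻¹' {i})) (Y : ι → Eu d) :
    Measurable (fun x => Y (ℓ x)) := by
  let _ : MeasurableSpace ι := ⊤
  have h1 : Measurable ℓ := measurable_to_countable' hℓ
  have h2 : Measurable Y := measurable_from_top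
  exact h2.comp h1

/-- The `L²` bound for the potentials. -/
theorem potential_bound {K : Set (Eu d)} (hK : IsCompact K) {R : ℝ} (hR : 0 < R)
    (hKR : ∀ x ∈ K, ‖x‖ ≤ R) {Y₀ Y₁ : ι → Eu d} (hY₀ : Function.Injective Y₀)
    (hY₁ : Function.Injective Y₁) {ψ₀ ψ₁ m κ : ι → ℝ} {c : ℝ}
    (hd₀ : IsDualW K Y₀ ψ₀ m) (hd₁ : IsDualW K Y₁ ψ₁ m)
    (hm : ∀ i, 0 < m i) (hη : ∀ i, ψ₁ i - ψ₀ i = κ i + c) :
    ∫ x in K, (lphi Y₁ ψ₁ x - lphi Y₀ ψ₀ x + c) ^ 2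
      ≤ 4 * (R ^ 2 * ∑ i, m i * ‖Y₁ i - Y₀ i‖ ^ 2 + ∑ i, m i * κ i ^ 2) := by
  set q : Eu d → ℝ := fun x => lphi Y₁ ψ₁ x - lphi Y₀ ψ₀ x + c with hq
  have hqc : Continuous q :=
    ((continuous_lphi Y₁ ψ₁).sub (continuous_lphi Y₀ ψ₀)).add continuous_const
  set ζ : ι → Eu d := fun i => Y₁ i - Y₀ i with hζ
  set A : ι → ℝ := fun i => R * ‖ζ i‖ + |κ i| with hA
  have hA0 : ∀ i, 0 ≤ A i := fun i => by positivity
  have hinn : ∀ x ∈ K, ∀ i, |inner ℝ x (ζ i)| ≤ R * ‖ζ i‖ := fun x hx i =>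
    (abs_real_inner_le_norm _ _).trans (mul_le_mul_of_nonneg_right (hKR x hx) (norm_nonneg _))
  -- the lower bound on the cells of `Y₀` and the upper bound on the cells of `Y₁`
  have hlow : ∀ i, ∀ x ∈ lcell K Y₀ ψ₀ i, - A i ≤ q x := by
    intro i x hx
    have h1 := le_lphi Y₁ ψ₁ x i
    have h2 := lphi_eq_of_mem hx.2
    have h3 := (abs_le.mp (hinn x hx.1 i)).1
    have h4 := le_abs_self (κ i)
    have h5 := hη i
    have h6 : inner ℝ x (ζ i) = inner ℝ x (Y₁ i) - inner ℝ x (Y₀ i) := inner_sub_right _ _ _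
    simp only [hq, hA]
    linarith
  have hup : ∀ i, ∀ x ∈ lcell K Y₁ ψ₁ i, q x ≤ A i := by
    intro i x hx
    have h1 := le_lphi Y₀ ψ₀ x i
    have h2 := lphi_eq_of_mem hx.2
    have h3 := (abs_le.mp (hinn x hx.1 i)).2
    have h4 := neg_abs_le (κ i)
    have h5 := hη i
    have h6 : inner ℝ x (ζ i) = inner ℝ x (Y₁ i) - inner ℝ x (Y₀ i) := inner_sub_right _ _ _
    simp only [hq, hA]
    linarith
  set qp : Eu d → ℝ := fun x => (max (q x) 0) ^ 2 with hqp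
  set qn : Eu d → ℝ := fun x => (max (- q x) 0) ^ 2 with hqn
  have hqpc : Continuous qp := (hqc.max continuous_const).pow 2
  have hqnc : Continuous qn := (hqc.neg.max continuous_const).pow 2
  have hsplit : ∀ x, q x ^ 2 = qp x + qn x := by
    intro x
    simp only [hqp, hqn]
    rcases le_total (q x) 0 with h | h
    · rw [max_eq_right h, max_eq_left (by linarith)]
      ring
    · rw [max_eq_left h, max_eq_right (by linarith)]
      ring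
  have hbound : ∀ (Y : ι → Eu d) (ψ : ι → ℝ) (f : Eu d → ℝ), Function.Injective Y →
      IsDualW K Y ψ m → Continuous f → (∀ i, ∀ x ∈ lcell K Y ψ i, f x ≤ A i ^ 2) →
      ∫ x in K, f x ≤ ∑ i, m i * A i ^ 2 := by
    intro Y ψ f hY hd hf hb
    rw [integral_cells hK hY ψ (integrableOn_of_continuous hK hf)]
    refine Finset.sum_le_sum (fun i _ => ?_)
    have hc := isCompact_lcell hK Y ψ i
    have := setIntegral_mono_on (integrableOn_of_continuous hc hf)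
      (integrableOn_of_continuous hc (continuous_const (y := A i ^ 2)))
      (measurableSet_lcell hK Y ψ i) (hb i)
    rw [setIntegral_const, hd i] at this
    simpa using this
  have h1 : ∫ x in K, qp x ≤ ∑ i, m i * A i ^ 2 := by
    refine hbound Y₁ ψ₁ qp hY₁ hd₁ hqpc (fun i x hx => ?_)
    simp only [hqp]
    exact pow_le_pow_left₀ (le_max_right _ _) (max_le (hup i x hx) (hA0 i)) 2
  have h2 : ∫ x in K, qn x ≤ ∑ i, m i * A i ^ 2 := by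
    refine hbound Y₀ ψ₀ qn hY₀ hd₀ hqnc (fun i x hx => ?_)
    simp only [hqn]
    refine pow_le_pow_left₀ (le_max_right _ _) (max_le ?_ (hA0 i)) 2
    have := hlow i x hx
    linarith
  have h3 : ∑ i, m i * A i ^ 2 ≤ 2 * (R ^ 2 * ∑ i, m i * ‖ζ i‖ ^ 2 + ∑ i, m i * κ i ^ 2) := by
    rw [Finset.mul_sum, ← Finset.sum_add_distrib, Finset.mul_sum]
    refine Finset.sum_le_sum (fun i _ => ?_)
    have h4 := hm i
    simp only [hA]
    have h5 : (R * ‖ζ i‖ + |κ i|) ^ 2 ≤ 2 * (R ^ 2 * ‖ζ i‖ ^ 2 + κ i ^ 2) := by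
      have := sq_abs (κ i)
      nlinarith [sq_nonneg (R * ‖ζ i‖ - |κ i|)]
    have h6 := mul_le_mul_of_nonneg_left h5 h4.le
    calc m i * (R * ‖ζ i‖ + |κ i|) ^ 2 ≤ m i * (2 * (R ^ 2 * ‖ζ i‖ ^ 2 + κ i ^ 2)) := h6
      _ = _ := by ring
  have hI : ∫ x in K, q x ^ 2 = (∫ x in K, qp x) + ∫ x in K, qn x := by
    rw [← integral_add (integrableOn_of_continuous hK hqpc) (integrableOn_of_continuous hK hqnc)]
    exact integral_congr_ae (ae_of_all _ hsplit)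
  rw [hI]
  linarith

/-- **The finite core estimate.** -/
theorem finite_core {K : Set (Eu d)} (hK : IsCompact K) (hconv : Convex ℝ K)
    (hint : (interior K).Nonempty) {R : ℝ} (hR : 0 < R) (hKR : ∀ x ∈ K, ‖x‖ ≤ R)
    {c : ℝ} (hc : ∀ h : Eu d, (volume (K \ {x | x + h ∈ K})).toReal ≤ c * ‖h‖) {R' : ℝ}
    {Y₀ Y₁ : ι → Eu d} (hY₀ : Function.Injective Y₀) (hY₁ : Function.Injective Y₁)
    (hb₀ : ∀ i, ‖Y₀ i‖ ≤ R') (hb₁ : ∀ i, ‖Y₁ i‖ ≤ R')
    {ψ₀ ψ₁ m : ι → ℝ} (hd₀ : IsDualW K Y₀ ψ₀ m) (hd₁ : IsDualW K Y₁ ψ₁ m) (hm : ∀ i, 0 < m i)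
    {ℓ₀ ℓ₁ : Eu d → ι} (hℓ₀ : ∀ x, x ∈ ucell Y₀ ψ₀ (ℓ₀ x)) (hℓ₁ : ∀ x, x ∈ ucell Y₁ ψ₁ (ℓ₁ x))
    (hℓ₀m : ∀ i, MeasurableSet (ℓ₀ ⁻¹' {i})) (hℓ₁m : ∀ i, MeasurableSet (ℓ₁ ⁻¹' {i}))
    {t : ℝ} (ht : 0 < t) (hW : ∑ i, m i * ‖Y₁ i - Y₀ i‖ ^ 2 ≤ t ^ 3) :
    ∫ x in K, ‖Y₀ (ℓ₀ x) - Y₁ (ℓ₁ x)‖ ^ 2 ≤
      d * (9 * (4 * R ^ 2 * (1 + (26 * R) ^ 2 / R ^ 2)) + 24 * R' ^ 2 * c) * t := by
  set W2 := ∑ i, m i * ‖Y₁ i - Y₀ i‖ ^ 2 with hW2
  have hW20 : 0 ≤ W2 := Finset.sum_nonneg fun i _ => mul_nonneg (hm i).le (sq_nonneg _)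
  set η : ι → ℝ := fun i => ψ₁ i - ψ₀ i with hηd
  set V := ∑ i, m i with hV
  have hV0 : 0 < V := Finset.sum_pos (fun i _ => hm i) Finset.univ_nonempty
  set c₀ := (∑ i, m i * η i) / V with hc₀
  set κ : ι → ℝ := fun i => η i - c₀ with hκd
  have hκ : ∑ i, m i * κ i = 0 := by
    have e : ∀ i, m i * κ i = m i * η i - c₀ * m i := by
      intro i; simp only [hκd]; ring
    simp only [e, Finset.sum_sub_distrib, ← Finset.mul_sum]
    rw [← hV, hc₀]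
    field_simp
    ring
  have hη : ∀ i, ψ₁ i - ψ₀ i = κ i + c₀ := by
    intro i; simp only [hκd, hηd]; ring
  have hN := kappa_bound hK hconv hint hR hKR hY₀ hY₁ hd₀ hd₁ hm hκ hη
  have hq := potential_bound hK hR hKR hY₀ hY₁ hd₀ hd₁ hm hη
  rw [← hW2] at hN hq
  have hq2 : ∫ x in K, (lphi Y₁ ψ₁ x - lphi Y₀ ψ₀ x + c₀) ^ 2
      ≤ (4 * R ^ 2 * (1 + (26 * R) ^ 2 / R ^ 2)) * t ^ 3 := by
    have e : 4 * R ^ 2 * (1 + (26 * R) ^ 2 / R ^ 2) = 4 * (R ^ 2 + (26 * R) ^ 2) := by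
      field_simp
    rw [e]
    have h1 : 4 * (R ^ 2 * W2 + ∑ i, m i * κ i ^ 2) ≤ 4 * (R ^ 2 + (26 * R) ^ 2) * W2 := by
      nlinarith
    have h2 : 4 * (R ^ 2 + (26 * R) ^ 2) * W2 ≤ 4 * (R ^ 2 + (26 * R) ^ 2) * t ^ 3 :=
      mul_le_mul_of_nonneg_left hW (by positivity)
    linarith
  have hR'0 : 0 ≤ R' := (norm_nonneg _).trans (hb₀ (Classical.arbitrary ι))
  have hcore := core_quad_vec (K := K) (T₀ := fun x => Y₀ (ℓ₀ x)) (T₁ := fun x => Y₁ (ℓ₁ x)) (R := R')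
    hK (measurable_comp_label hℓ₀m Y₀) (measurable_comp_label hℓ₁m Y₁)
    (fun x => hb₀ _) (fun x => hb₁ _) (φ₀ := lphi Y₀ ψ₀) (φ₁ := lphi Y₁ ψ₁) (c' := c₀)
    (continuous_lphi Y₀ ψ₀) (continuous_lphi Y₁ ψ₁)
    (fun x y => lphi_subgrad (hℓ₀ x) y) (fun x y => lphi_subgrad (hℓ₁ x) y) hc ht
  refine hcore.trans ?_
  have ht2 : 0 < t ^ 2 := by positivity
  have h9 : (9 / t ^ 2) * (∫ x in K, (lphi Y₁ ψ₁ x - lphi Y₀ ψ₀ x + c₀) ^ 2)
      ≤ 9 * (4 * R ^ 2 * (1 + (26 * R) ^ 2 / R ^ 2)) * t := by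
    have h1 := mul_le_mul_of_nonneg_left hq2 (by positivity : 0 ≤ 9 / t ^ 2)
    refine h1.trans (le_of_eq ?_)
    field_simp
  have hd0 : (0 : ℝ) ≤ d := Nat.cast_nonneg d
  calc (d : ℝ) * ((9 / t ^ 2) * (∫ x in K, (lphi Y₁ ψ₁ x - lphi Y₀ ψ₀ x + c₀) ^ 2)
        + 24 * R' ^ 2 * c * t)
      ≤ d * (9 * (4 * R ^ 2 * (1 + (26 * R) ^ 2 / R ^ 2)) * t + 24 * R' ^ 2 * c * t) :=
        mul_le_mul_of_nonneg_left (add_le_add_left h9 _) hd0
    _ = _ := by ring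

end Vale.Agent.P074
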