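import Vale.Agent.P074.Tilt

open MeasureTheory Set Metric Filter Topology
open scoped ENNReal NNReal

set_option linter.unusedSectionVars false

namespace Vale.Agent.P074

variable {d : ℕ}

/-- The reciprocal of the Gaussian weight. -/
noncomputable def ee (β : ℝ) (x : Eu d) : ℝ := Real.exp (β * ‖x‖ ^ 2)

lemma continuous_ee (β : ℝ) : Continuous (ee (d := d) β) := by
  unfold ee; fun_prop

lemma gam_mul_ee (β : ℝ) (x : Eu d) : gam β x * ee β x = 1 := by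
  unfold gam ee
  rw [← Real.exp_add]
  simp

/-- The constant `exp (1/16)`. -/
noncomputable def kap : ℝ := Real.exp (1 / 16)

lemma one_le_kap : 1 ≤ kap := by
  unfold kap
  exact Real.one_le_exp (by norm_num)

lemma kap_le : kap ≤ 16 / 15 := by
  unfold kap
  have h1 := Real.add_one_le_exp (-(1 / 16 : ℝ))
  have h2 : Real.exp (1 / 16) * Real.exp (-(1 / 16 : ℝ)) = 1 := by
    rw [← Real.exp_add]; simp
  have h3 := Real.exp_pos (1 / 16 : ℝ)
  nlinarith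

lemma kap_pos : 0 < kap := lt_of_lt_of_le one_pos one_le_kap

section test

variable {β R : ℝ} {K : Set (Eu d)}

lemma ee_le (hβ : 0 < β) (hR : 0 < R) (hβR : 16 * β * R ^ 2 = 1) (hKR : ∀ x ∈ K, ‖x‖ ≤ R)
    {x : Eu d} (hx : x ∈ K) : ee β x ≤ kap := by
  unfold ee kap
  apply Real.exp_le_exp.mpr
  have h1 := hKR x hx
  have h2 : ‖x‖ ^ 2 ≤ R ^ 2 := pow_le_pow_left₀ (norm_nonneg _) h1 2
  nlinarith

lemma ee_lip (hβ : 0 < β) (hR : 0 < R) (hβR : 16 * β * R ^ 2 = 1) (hKR : ∀ x ∈ K, ‖x‖ ≤ R)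
    {x z : Eu d} (hx : x ∈ K) (hz : z ∈ K) : ee β x - ee β z ≤ (kap / (8 * R)) * ‖x - z‖ := by
  have h1 := ee_le hβ hR hβR hKR hx
  have hpos : 0 < ee β x := Real.exp_pos _
  -- the convexity inequality of the exponential
  have h2 : ee β x - ee β z ≤ ee β x * (β * ‖x‖ ^ 2 - β * ‖z‖ ^ 2) := by
    have h3 := Real.add_one_le_exp (β * ‖z‖ ^ 2 - β * ‖x‖ ^ 2)
    have h4 : ee β z = ee β x * Real.exp (β * ‖z‖ ^ 2 - β * ‖x‖ ^ 2) := by
      unfold ee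
      rw [← Real.exp_add]; congr 1; ring
    rw [h4]
    nlinarith
  have h5 : |‖x‖ - ‖z‖| ≤ ‖x - z‖ := abs_norm_sub_norm_le x z
  have h6 := hKR x hx
  have h7 := hKR z hz
  have h8 : ‖x‖ ^ 2 - ‖z‖ ^ 2 ≤ 2 * R * ‖x - z‖ := by
    have e : ‖x‖ ^ 2 - ‖z‖ ^ 2 = (‖x‖ + ‖z‖) * (‖x‖ - ‖z‖) := by ring
    rw [e]
    have h9 : (‖x‖ + ‖z‖) * (‖x‖ - ‖z‖) ≤ (‖x‖ + ‖z‖) * ‖x - z‖ :=
      mul_le_mul_of_nonneg_left ((le_abs_self _).trans h5) (by positivity)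
    have h10 : (‖x‖ + ‖z‖) * ‖x - z‖ ≤ (2 * R) * ‖x - z‖ :=
      mul_le_mul_of_nonneg_right (by linarith) (norm_nonneg _)
    linarith
  have h11 : β * ‖x‖ ^ 2 - β * ‖z‖ ^ 2 ≤ β * (2 * R * ‖x - z‖) := by nlinarith
  have h12 : ee β x * (β * ‖x‖ ^ 2 - β * ‖z‖ ^ 2) ≤ ee β x * (β * (2 * R * ‖x - z‖)) :=
    mul_le_mul_of_nonneg_left h11 hpos.le
  have h13 : ee β x * (β * (2 * R * ‖x - z‖)) ≤ kap * (β * (2 * R * ‖x - z‖)) :=
    mul_le_mul_of_nonneg_right h1 (by positivity)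
  have h14 : kap * (β * (2 * R * ‖x - z‖)) = (kap / (8 * R)) * ‖x - z‖ := by
    have hβ' : β = 1 / (16 * R ^ 2) := by field_simp; linarith
    rw [hβ']
    field_simp
    ring
  linarith

lemma gam_le_one (hβ : 0 < β) (x : Eu d) : gam β x ≤ 1 := by
  unfold gam
  apply Real.exp_le_one_iff.mpr
  have : 0 ≤ β * ‖x‖ ^ 2 := by positivity
  linarith

lemma one_le_kap_mul_gam (hβ : 0 < β) (hR : 0 < R) (hβR : 16 * β * R ^ 2 = 1)
    (hKR : ∀ x ∈ K, ‖x‖ ≤ R) {x : Eu d} (hx : x ∈ K) : 1 ≤ kap * gam β x := by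
  have h1 := ee_le hβ hR hβR hKR hx
  have h2 := gam_mul_ee β x
  have h3 := gam_pos β x
  nlinarith

/-- The Gaussian mass is below the Lebesgue measure. -/
lemma Z_le_vol (hβ : 0 < β) (hK : IsCompact K) {A : Set (Eu d)} (hAK : A ⊆ K) :
    ∫ x in A, gam β x ≤ volume.real A := by
  have hi : ∀ {f : Eu d → ℝ}, Continuous f → IntegrableOn f A :=
    fun hf => (integrableOn_of_continuous hK hf).mono_set hAK
  have h := setIntegral_mono (hi (continuous_gam β)) (hi continuous_const)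
    (f := fun x => gam β x) (g := fun _ => (1 : ℝ)) (fun x => gam_le_one hβ x)
  simpa [setIntegral_const] using h

lemma vol_le_Z (hβ : 0 < β) (hR : 0 < R) (hβR : 16 * β * R ^ 2 = 1) (hK : IsCompact K)
    (hKR : ∀ x ∈ K, ‖x‖ ≤ R) {A : Set (Eu d)} (hA : MeasurableSet A) (hAK : A ⊆ K) :
    volume.real A ≤ kap * ∫ x in A, gam β x := by
  have hi : ∀ {f : Eu d → ℝ}, Continuous f → IntegrableOn f A :=
    fun hf => (integrableOn_of_continuous hK hf).mono_set hAK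
  have h := setIntegral_mono_on (hi continuous_const) (hi ((continuous_gam β).const_mul kap)) hA
    (f := fun _ => (1 : ℝ)) (g := fun x => kap * gam β x)
    (fun x hx => one_le_kap_mul_gam hβ hR hβR hKR (hAK hx))
  rw [integral_const_mul] at h
  simpa [setIntegral_const] using h

/-- The gain for the volume test function. -/
lemma gain_u (hβ : 0 < β) (hR : 0 < R) (hβR : 16 * β * R ^ 2 = 1) (hK : IsCompact K)
    (hKR : ∀ x ∈ K, ‖x‖ ≤ R) {A B M : Set (Eu d)}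
    (hA : MeasurableSet A) (hB : MeasurableSet B) (hM : MeasurableSet M) (hAK : A ⊆ K) (hBK : B ⊆ K)
    (hMK : M ⊆ K) (hmid : ∀ x ∈ A, ∀ z ∈ B, (1 / 2 : ℝ) • (x + z) ∈ M)
    (hZA : 0 < ∫ x in A, gam β x) (hZB : 0 < ∫ x in B, gam β x) :
    (volume.real A / (∫ x in A, gam β x) - volume.real B / (∫ x in B, gam β x)) ^ 2 *
        Real.sqrt ((∫ x in A, gam β x) * ∫ x in B, gam β x)
      ≤ kap ^ 2 * ((∫ x in M, gam β x) - Real.sqrt ((∫ x in A, gam β x) * ∫ x in B, gam β x)) := by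
  have hL : 0 < kap / (8 * R) := div_pos kap_pos (by positivity)
  have key := tilt_gain hβ hK hA hB hM hAK hBK hMK hmid hZA hZB (continuous_ee β) hL
    (fun x hx z hz => ee_lip hβ hR hβR hKR hx hz)
  have hvol : ∀ S : Set (Eu d), ∫ x in S, gam β x * ee β x = volume.real S := by
    intro S
    simp [gam_mul_ee, setIntegral_const]
  rw [hvol, hvol] at key
  set D := volume.real A / (∫ x in A, gam β x) - volume.real B / (∫ x in B, gam β x) with hD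
  set Q := Real.sqrt ((∫ x in A, gam β x) * ∫ x in B, gam β x) with hQ
  have e : β * D ^ 2 / (4 * (kap / (8 * R)) ^ 2) = D ^ 2 / kap ^ 2 := by
    have hβ' : β = 1 / (16 * R ^ 2) := by field_simp; linarith
    have := kap_pos
    rw [hβ']
    field_simp
    ring
  rw [e] at key
  have hk := kap_pos
  have h2 : Q * (D ^ 2 / kap ^ 2) ≤ (∫ x in M, gam β x) - Q := by linarith
  have h3 := mul_le_mul_of_nonneg_left h2 (by positivity : 0 ≤ kap ^ 2)
  have h4 : kap ^ 2 * (Q * (D ^ 2 / kap ^ 2)) = D ^ 2 * Q := by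
    field_simp
  rwa [h4] at h3

/-- The gain for the linear test function. -/
lemma gain_v (hβ : 0 < β) (hR : 0 < R) (hβR : 16 * β * R ^ 2 = 1) (hK : IsCompact K)
    (hKR : ∀ x ∈ K, ‖x‖ ≤ R) {A B M : Set (Eu d)}
    (hA : MeasurableSet A) (hB : MeasurableSet B) (hM : MeasurableSet M) (hAK : A ⊆ K) (hBK : B ⊆ K)
    (hMK : M ⊆ K) (hmid : ∀ x ∈ A, ∀ z ∈ B, (1 / 2 : ℝ) • (x + z) ∈ M)
    (hZA : 0 < ∫ x in A, gam β x) (hZB : 0 < ∫ x in B, gam β x) (ζ : Eu d) :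
    ((∫ x in A, inner ℝ x ζ) / (∫ x in A, gam β x) - (∫ x in B, inner ℝ x ζ) / (∫ x in B, gam β x)) ^ 2 *
        Real.sqrt ((∫ x in A, gam β x) * ∫ x in B, gam β x)
      ≤ 81 * R ^ 2 * kap ^ 2 * ‖ζ‖ ^ 2 *
        ((∫ x in M, gam β x) - Real.sqrt ((∫ x in A, gam β x) * ∫ x in B, gam β x)) := by
  by_cases hζ : ζ = 0
  · subst hζ
    simp
  have hζ0 : 0 < ‖ζ‖ := norm_pos_iff.mpr hζ
  have hk := kap_pos
  have hL : 0 < (9 / 8) * kap * ‖ζ‖ := by positivity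
  have hΘ : Continuous (fun x : Eu d => inner ℝ x ζ * ee β x) :=
    (by fun_prop : Continuous (fun x : Eu d => inner ℝ x ζ)).mul (continuous_ee β)
  have hlip : ∀ x ∈ K, ∀ z ∈ K, inner ℝ x ζ * ee β x - inner ℝ z ζ * ee β z
      ≤ ((9 / 8) * kap * ‖ζ‖) * ‖x - z‖ := by
    intro x hx z hz
    have h1 := ee_lip hβ hR hβR hKR hx hz
    have h2 := ee_lip hβ hR hβR hKR hz hx
    rw [norm_sub_rev] at h2
    have h3 : |ee β x - ee β z| ≤ (kap / (8 * R)) * ‖x - z‖ :=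
      abs_le.mpr ⟨by linarith, h1⟩
    have h4 : inner ℝ x ζ * ee β x - inner ℝ z ζ * ee β z
        = inner ℝ (x - z) ζ * ee β x + inner ℝ z ζ * (ee β x - ee β z) := by
      rw [inner_sub_left]; ring
    rw [h4]
    have h5 : inner ℝ (x - z) ζ * ee β x ≤ (‖x - z‖ * ‖ζ‖) * kap := by
      have h6 : |inner ℝ (x - z) ζ| ≤ ‖x - z‖ * ‖ζ‖ := abs_real_inner_le_norm _ _
      have h7 := ee_le hβ hR hβR hKR hx
      have h8 : 0 < ee β x := Real.exp_pos _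
      calc inner ℝ (x - z) ζ * ee β x ≤ |inner ℝ (x - z) ζ| * ee β x :=
            mul_le_mul_of_nonneg_right (le_abs_self _) h8.le
        _ ≤ (‖x - z‖ * ‖ζ‖) * kap := mul_le_mul h6 h7 h8.le (by positivity)
    have h9 : inner ℝ z ζ * (ee β x - ee β z) ≤ (R * ‖ζ‖) * ((kap / (8 * R)) * ‖x - z‖) := by
      have h6 : |inner ℝ z ζ| ≤ ‖z‖ * ‖ζ‖ := abs_real_inner_le_norm _ _
      have h7 : |inner ℝ z ζ| ≤ R * ‖ζ‖ :=
        h6.trans (mul_le_mul_of_nonneg_right (hKR z hz) (norm_nonneg _))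
      calc inner ℝ z ζ * (ee β x - ee β z) ≤ |inner ℝ z ζ * (ee β x - ee β z)| := le_abs_self _
        _ = |inner ℝ z ζ| * |ee β x - ee β z| := abs_mul _ _
        _ ≤ _ := mul_le_mul h7 h3 (abs_nonneg _) (by positivity)
    have h10 : (R * ‖ζ‖) * ((kap / (8 * R)) * ‖x - z‖) = (1 / 8) * kap * ‖ζ‖ * ‖x - z‖ := by
      field_simp
    nlinarith
  have key := tilt_gain hβ hK hA hB hM hAK hBK hMK hmid hZA hZB hΘ hL hlip
  have hint : ∀ S : Set (Eu d), ∫ x in S, gam β x * (inner ℝ x ζ * ee β x) = ∫ x in S, inner ℝ x ζ := by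
    intro S
    refine integral_congr_ae (ae_of_all _ (fun x => ?_))
    have := gam_mul_ee β x
    calc gam β x * (inner ℝ x ζ * ee β x) = inner ℝ x ζ * (gam β x * ee β x) := by ring
      _ = inner ℝ x ζ := by rw [this, mul_one]
  rw [hint, hint] at key
  set D := (∫ x in A, inner ℝ x ζ) / (∫ x in A, gam β x) - (∫ x in B, inner ℝ x ζ) / (∫ x in B, gam β x) with hD
  set Q := Real.sqrt ((∫ x in A, gam β x) * ∫ x in B, gam β x) with hQ
  have e : β * D ^ 2 / (4 * ((9 / 8) * kap * ‖ζ‖) ^ 2) = D ^ 2 / (81 * R ^ 2 * kap ^ 2 * ‖ζ‖ ^ 2) := by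
    have hβ' : β = 1 / (16 * R ^ 2) := by field_simp; linarith
    rw [hβ']
    field_simp
    ring
  rw [e] at key
  have h2 : Q * (D ^ 2 / (81 * R ^ 2 * kap ^ 2 * ‖ζ‖ ^ 2)) ≤ (∫ x in M, gam β x) - Q := by linarith
  have h3 := mul_le_mul_of_nonneg_left h2 (by positivity : 0 ≤ 81 * R ^ 2 * kap ^ 2 * ‖ζ‖ ^ 2)
  have h4 : 81 * R ^ 2 * kap ^ 2 * ‖ζ‖ ^ 2 * (Q * (D ^ 2 / (81 * R ^ 2 * kap ^ 2 * ‖ζ‖ ^ 2))) = D ^ 2 * Q := by
    field_simp
  rwa [h4] at h3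

end test

end Vale.Agent.P074
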