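import Vale.Agent.P074.Defs

open MeasureTheory Set Metric Filter Topology
open scoped ENNReal NNReal

set_option linter.unusedSectionVars false

namespace Vale.Agent.P074

variable {d : ℕ} {ι : Type*} [Fintype ι]

/-- The Laguerre cell of the index `i` in the whole space. -/
def ucell (Y : ι → Eu d) (ψ : ι → ℝ) (i : ι) : Set (Eu d) :=
  {x | ∀ j, inner ℝ x (Y j) - ψ j ≤ inner ℝ x (Y i) - ψ i}

/-- The Laguerre cell of the index `i` inside `K`. -/
def lcell (K : Set (Eu d)) (Y : ι → Eu d) (ψ : ι → ℝ) (i : ι) : Set (Eu d) :=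
  K ∩ ucell Y ψ i

/-- The piecewise affine convex function with slopes `Y j` and heights `- ψ j`. -/
noncomputable def lphi (Y : ι → Eu d) (ψ : ι → ℝ) (x : Eu d) : ℝ :=
  ⨆ j, (inner ℝ x (Y j) - ψ j)

lemma isClosed_ucell (Y : ι → Eu d) (ψ : ι → ℝ) (i : ι) : IsClosed (ucell Y ψ i) := by
  have : ucell Y ψ i = ⋂ j, {x | inner ℝ x (Y j) - ψ j ≤ inner ℝ x (Y i) - ψ i} := by
    ext x; simp [ucell]
  rw [this]
  exact isClosed_iInter fun j => isClosed_le (by fun_prop) (by fun_prop)

lemma measurableSet_ucell (Y : ι → Eu d) (ψ : ι → ℝ) (i : ι) : MeasurableSet (ucell Y ψ i) :=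
  (isClosed_ucell Y ψ i).measurableSet

lemma isCompact_lcell {K : Set (Eu d)} (hK : IsCompact K) (Y : ι → Eu d) (ψ : ι → ℝ) (i : ι) :
    IsCompact (lcell K Y ψ i) :=
  hK.inter_right (isClosed_ucell Y ψ i)

lemma measurableSet_lcell {K : Set (Eu d)} (hK : IsCompact K) (Y : ι → Eu d) (ψ : ι → ℝ) (i : ι) :
    MeasurableSet (lcell K Y ψ i) :=
  (isCompact_lcell hK Y ψ i).measurableSet

lemma lcell_subset (K : Set (Eu d)) (Y : ι → Eu d) (ψ : ι → ℝ) (i : ι) : lcell K Y ψ i ⊆ K :=
  inter_subset_left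

lemma exists_mem_ucell [Nonempty ι] (Y : ι → Eu d) (ψ : ι → ℝ) (x : Eu d) :
    ∃ i, x ∈ ucell Y ψ i :=
  Finite.exists_max (fun j => inner ℝ x (Y j) - ψ j)

lemma le_lphi (Y : ι → Eu d) (ψ : ι → ℝ) (x : Eu d) (j : ι) :
    inner ℝ x (Y j) - ψ j ≤ lphi Y ψ x :=
  le_ciSup (f := fun j => inner ℝ x (Y j) - ψ j) (Set.finite_range _).bddAbove j

lemma lphi_eq_of_mem [Nonempty ι] {Y : ι → Eu d} {ψ : ι → ℝ} {x : Eu d} {i : ι}
    (h : x ∈ ucell Y ψ i) : lphi Y ψ x = inner ℝ x (Y i) - ψ i :=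
  le_antisymm (ciSup_le h) (le_lphi Y ψ x i)

lemma mem_ucell_of_lphi_le {Y : ι → Eu d} {ψ : ι → ℝ} {x : Eu d} {i : ι}
    (h : lphi Y ψ x ≤ inner ℝ x (Y i) - ψ i) : x ∈ ucell Y ψ i :=
  fun j => (le_lphi Y ψ x j).trans h

lemma lphi_subgrad [Nonempty ι] {Y : ι → Eu d} {ψ : ι → ℝ} {x : Eu d} {i : ι}
    (h : x ∈ ucell Y ψ i) (y : Eu d) : lphi Y ψ x + inner ℝ (y - x) (Y i) ≤ lphi Y ψ y := by
  rw [lphi_eq_of_mem h, inner_sub_left]
  have := le_lphi Y ψ y i
  linarith

lemma lphi_le_add_mul [Nonempty ι] (Y : ι → Eu d) (ψ : ι → ℝ) (x z : Eu d) :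
    lphi Y ψ x ≤ lphi Y ψ z + (∑ j, ‖Y j‖) * dist x z := by
  obtain ⟨i, hi⟩ := exists_mem_ucell Y ψ x
  rw [lphi_eq_of_mem hi]
  have h1 := le_lphi Y ψ z i
  have h2 : inner ℝ (x - z) (Y i) ≤ ‖x - z‖ * ‖Y i‖ := real_inner_le_norm _ _
  have h3 : ‖Y i‖ ≤ ∑ j, ‖Y j‖ :=
    Finset.single_le_sum (f := fun j => ‖Y j‖) (fun j _ => norm_nonneg _) (Finset.mem_univ i)
  have h4 : ‖x - z‖ * ‖Y i‖ ≤ (∑ j, ‖Y j‖) * dist x z := by
    rw [dist_eq_norm, mul_comm]
    exact mul_le_mul_of_nonneg_right h3 (norm_nonneg _)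
  rw [inner_sub_left] at h2
  linarith

lemma continuous_lphi [Nonempty ι] (Y : ι → Eu d) (ψ : ι → ℝ) : Continuous (lphi Y ψ) :=
  (LipschitzWith.of_le_add_mul' (∑ j, ‖Y j‖) (fun x z => lphi_le_add_mul Y ψ x z)).continuous

lemma lphi_le_add_dist [Nonempty ι] (Y : ι → Eu d) (ψ ψ' : ι → ℝ) (x : Eu d) :
    lphi Y ψ x ≤ lphi Y ψ' x + dist ψ ψ' := by
  obtain ⟨i, hi⟩ := exists_mem_ucell Y ψ x
  rw [lphi_eq_of_mem hi]
  have h1 := le_lphi Y ψ' x i
  have h2 : dist (ψ i) (ψ' i) ≤ dist ψ ψ' := dist_le_pi_dist ψ ψ' i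
  rw [Real.dist_eq] at h2
  have := neg_abs_le (ψ i - ψ' i)
  linarith

lemma lphi_sub_const [Nonempty ι] (Y : ι → Eu d) (ψ : ι → ℝ) (c : ℝ) (x : Eu d) :
    lphi Y (fun j => ψ j - c) x = lphi Y ψ x + c := by
  obtain ⟨i, hi⟩ := exists_mem_ucell Y ψ x
  have hi' : x ∈ ucell Y (fun j => ψ j - c) i := by
    intro j
    have := hi j
    simp only
    linarith
  rw [lphi_eq_of_mem hi, lphi_eq_of_mem hi']
  ring

/-- Hyperplanes are Lebesgue null. -/
lemma hyperplane_null {v : Eu d} (hv : v ≠ 0) (c : ℝ) :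
    volume {x : Eu d | inner ℝ x v = c} = 0 := by
  have hv2 : inner ℝ v v ≠ 0 := by
    rw [real_inner_self_eq_norm_sq]
    exact pow_ne_zero _ (norm_ne_zero_iff.mpr hv)
  set x₀ : Eu d := (c / inner ℝ v v) • v with hx₀
  have hx₀v : inner ℝ x₀ v = c := by
    rw [hx₀, real_inner_smul_left]
    field_simp
  set S : AffineSubspace ℝ (Eu d) := AffineSubspace.mk' x₀ (LinearMap.ker (innerₛₗ ℝ v)) with hS
  have hsub : {x : Eu d | inner ℝ x v = c} ⊆ (S : Set (Eu d)) := by
    intro x hx
    have hx' : inner ℝ x v = c := hx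
    rw [hS, SetLike.mem_coe, AffineSubspace.mem_mk', LinearMap.mem_ker]
    simp only [vsub_eq_sub, innerₛₗ_apply_apply]
    rw [inner_sub_right, real_inner_comm x v, real_inner_comm x₀ v, hx', hx₀v, sub_self]
  have hne : S ≠ ⊤ := by
    intro htop
    have hmem : x₀ + v ∈ S := by rw [htop]; exact AffineSubspace.mem_top _ _ _
    rw [hS, AffineSubspace.mem_mk', LinearMap.mem_ker] at hmem
    simp only [vsub_eq_sub, add_sub_cancel_left, innerₛₗ_apply_apply] at hmem
    exact hv2 hmem
  exact measure_mono_null hsub (Measure.addHaar_affineSubspace volume S hne)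

lemma lcell_inter_null (K : Set (Eu d)) {Y : ι → Eu d} (ψ : ι → ℝ) {i j : ι} (hne : Y i ≠ Y j) :
    volume (lcell K Y ψ i ∩ lcell K Y ψ j) = 0 := by
  refine measure_mono_null ?_ (hyperplane_null (sub_ne_zero.mpr hne) (ψ i - ψ j))
  rintro x ⟨⟨_, hi⟩, ⟨_, hj⟩⟩
  have h1 := hi j
  have h2 := hj i
  show inner ℝ x (Y i - Y j) = ψ i - ψ j
  rw [inner_sub_right]
  linarith

lemma iUnion_lcell [Nonempty ι] (K : Set (Eu d)) (Y : ι → Eu d) (ψ : ι → ℝ) :
    ⋃ i, lcell K Y ψ i = K := by
  ext x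
  simp only [mem_iUnion, lcell, mem_inter_iff, exists_and_left, and_iff_left_iff_imp]
  exact fun _ => exists_mem_ucell Y ψ x

/-- Integrals over `K` decompose over the cells. -/
lemma integral_cells [Nonempty ι] {K : Set (Eu d)} (hK : IsCompact K) {Y : ι → Eu d}
    (hY : Function.Injective Y) (ψ : ι → ℝ) {f : Eu d → ℝ} (hf : IntegrableOn f K) :
    ∫ x in K, f x = ∑ i, ∫ x in lcell K Y ψ i, f x := by
  have h := integral_iUnion_ae (μ := volume) (s := lcell K Y ψ) (f := f)
    (fun i => (measurableSet_lcell hK Y ψ i).nullMeasurableSet)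
    (fun i j hij => lcell_inter_null K ψ (fun e => hij (hY e)))
    (by rwa [iUnion_lcell])
  rw [iUnion_lcell, tsum_fintype] at h
  exact h

lemma integrableOn_of_continuous {K : Set (Eu d)} (hK : IsCompact K) {f : Eu d → ℝ}
    (hf : Continuous f) : IntegrableOn f K :=
  hf.continuousOn.integrableOn_compact hK

lemma sum_volume_cells [Nonempty ι] {K : Set (Eu d)} (hK : IsCompact K) {Y : ι → Eu d}
    (hY : Function.Injective Y) (ψ : ι → ℝ) :
    ∑ i, volume.real (lcell K Y ψ i) = volume.real K := by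
  have h := integral_cells hK hY ψ (f := fun _ => (1 : ℝ))
    (integrableOn_of_continuous hK continuous_const)
  simpa [setIntegral_const] using h.symm

/-- `ψ` is a dual potential for the sites `Y` and the masses `w`. -/
def IsDualW (K : Set (Eu d)) (Y : ι → Eu d) (ψ : ι → ℝ) (w : ι → ℝ) : Prop :=
  ∀ i, volume.real (lcell K Y ψ i) = w i

/-- The Kantorovich functional. -/
noncomputable def Jfun (K : Set (Eu d)) (Y : ι → Eu d) (w ψ : ι → ℝ) : ℝ :=
  (∫ x in K, lphi Y ψ x) + ∑ i, w i * ψ i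

/-- The value of the cell assignment. -/
noncomputable def Gv (K : Set (Eu d)) (Y Y' : ι → Eu d) (ψ : ι → ℝ) : ℝ :=
  ∑ i, ∫ x in lcell K Y ψ i, inner ℝ x (Y' i)

lemma Jfun_eq_of_dual [Nonempty ι] {K : Set (Eu d)} (hK : IsCompact K) {Y : ι → Eu d}
    (hY : Function.Injective Y) {ψ w : ι → ℝ} (hd : IsDualW K Y ψ w) :
    Jfun K Y w ψ = Gv K Y Y ψ := by
  unfold Jfun Gv
  rw [integral_cells hK hY ψ (integrableOn_of_continuous hK (continuous_lphi Y ψ)),
    ← Finset.sum_add_distrib]
  refine Finset.sum_congr rfl (fun i _ => ?_)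
  have hc := isCompact_lcell hK Y ψ i
  have h1 : ∫ x in lcell K Y ψ i, lphi Y ψ x = ∫ x in lcell K Y ψ i, (inner ℝ x (Y i) - ψ i) := by
    refine setIntegral_congr_fun (measurableSet_lcell hK Y ψ i) (fun x hx => ?_)
    exact lphi_eq_of_mem hx.2
  rw [h1, integral_sub (integrableOn_of_continuous hc (by fun_prop))
    (integrableOn_of_continuous hc continuous_const), setIntegral_const, hd i]
  simp

/-- Weak duality. -/
lemma weak_dual [Nonempty ι] {K : Set (Eu d)} (hK : IsCompact K) {Y₂ : ι → Eu d}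
    (hY₂ : Function.Injective Y₂) {ψ₂ w : ι → ℝ} (hd : IsDualW K Y₂ ψ₂ w) (Y : ι → Eu d)
    (ψ : ι → ℝ) : Gv K Y₂ Y ψ₂ ≤ Jfun K Y w ψ := by
  unfold Jfun Gv
  rw [integral_cells hK hY₂ ψ₂ (integrableOn_of_continuous hK (continuous_lphi Y ψ)),
    ← Finset.sum_add_distrib]
  refine Finset.sum_le_sum (fun i _ => ?_)
  have hc := isCompact_lcell hK Y₂ ψ₂ i
  have h1 : ∫ x in lcell K Y₂ ψ₂ i, (inner ℝ x (Y i) - ψ i) ≤ ∫ x in lcell K Y₂ ψ₂ i, lphi Y ψ x := by
    refine setIntegral_mono (integrableOn_of_continuous hc (by fun_prop))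
      (integrableOn_of_continuous hc (continuous_lphi Y ψ)) (fun x => le_lphi Y ψ x i)
  rw [integral_sub (integrableOn_of_continuous hc (by fun_prop))
    (integrableOn_of_continuous hc continuous_const), setIntegral_const, hd i] at h1
  simp only [smul_eq_mul] at h1
  linarith

lemma continuous_Jfun [Nonempty ι] {K : Set (Eu d)} (hK : IsCompact K) (Y : ι → Eu d) (w : ι → ℝ) :
    Continuous (Jfun K Y w) := by
  unfold Jfun
  refine Continuous.add ?_ (by fun_prop)
  have hV : volume K ≠ ∞ := hK.measure_lt_top.ne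
  have hlip : ∀ ψ ψ' : ι → ℝ, (∫ x in K, lphi Y ψ x) ≤ (∫ x in K, lphi Y ψ' x) +
      volume.real K * dist ψ ψ' := by
    intro ψ ψ'
    have h1 : ∫ x in K, lphi Y ψ x ≤ ∫ x in K, (lphi Y ψ' x + dist ψ ψ') :=
      setIntegral_mono (integrableOn_of_continuous hK (continuous_lphi Y ψ))
        (integrableOn_of_continuous hK ((continuous_lphi Y ψ').add continuous_const))
        (fun x => lphi_le_add_dist Y ψ ψ' x)
    rw [integral_add (integrableOn_of_continuous hK (continuous_lphi Y ψ'))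
      (integrableOn_of_continuous hK continuous_const), setIntegral_const] at h1
    simpa using h1
  exact (LipschitzWith.of_le_add_mul' (volume.real K) hlip).continuous

lemma Jfun_sub_const [Nonempty ι] {K : Set (Eu d)} (hK : IsCompact K) (Y : ι → Eu d) {w : ι → ℝ}
    (hw : ∑ i, w i = volume.real K) (ψ : ι → ℝ) (c : ℝ) :
    Jfun K Y w (fun j => ψ j - c) = Jfun K Y w ψ := by
  unfold Jfun
  have h1 : ∫ x in K, lphi Y (fun j => ψ j - c) x = ∫ x in K, (lphi Y ψ x + c) :=
    integral_congr_ae (ae_of_all _ (fun x => lphi_sub_const Y ψ c x))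
  rw [h1, integral_add (integrableOn_of_continuous hK (continuous_lphi Y ψ))
    (integrableOn_of_continuous hK continuous_const), setIntegral_const]
  simp only [mul_sub, Finset.sum_sub_distrib, ← Finset.sum_mul, hw, smul_eq_mul]
  ring

/-- The Kantorovich functional attains its minimum. -/
lemma exists_min_Jfun [Nonempty ι] {K : Set (Eu d)} (hK : IsCompact K) (Y : ι → Eu d) {w : ι → ℝ}
    (hw0 : ∀ i, 0 < w i) (hw : ∑ i, w i = volume.real K) :
    ∃ ψ : ι → ℝ, ∀ ψ' : ι → ℝ, Jfun K Y w ψ ≤ Jfun K Y w ψ' := by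
  obtain ⟨R, hR⟩ := hK.isBounded.subset_closedBall 0
  set R₀ := max R 0 with hR₀
  have hR0 : 0 ≤ R₀ := le_max_right _ _
  have hxR : ∀ x ∈ K, ‖x‖ ≤ R₀ := by
    intro x hx
    have := hR hx
    rw [mem_closedBall, dist_zero_right] at this
    exact this.trans (le_max_left _ _)
  set B := R₀ * ∑ j, ‖Y j‖ with hB
  have hB0 : 0 ≤ B := mul_nonneg hR0 (Finset.sum_nonneg fun _ _ => norm_nonneg _)
  have hinner : ∀ x ∈ K, ∀ j, |inner ℝ x (Y j)| ≤ B := by
    intro x hx j
    have h1 := abs_real_inner_le_norm x (Y j)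
    have h2 : ‖Y j‖ ≤ ∑ j, ‖Y j‖ :=
      Finset.single_le_sum (f := fun j => ‖Y j‖) (fun j _ => norm_nonneg _) (Finset.mem_univ j)
    calc |inner ℝ x (Y j)| ≤ ‖x‖ * ‖Y j‖ := h1
      _ ≤ R₀ * ∑ j, ‖Y j‖ := mul_le_mul (hxR x hx) h2 (norm_nonneg _) hR0
  set V := volume.real K with hV
  have hV0 : 0 ≤ V := measureReal_nonneg
  obtain ⟨i₁, hi₁⟩ := Finite.exists_min w
  set wm := w i₁ with hwm
  have hwm0 : 0 < wm := hw0 i₁
  set A := 2 * V * B / wm + 1 with hA
  have hA0 : 0 ≤ A := by positivity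
  set Q : Set (ι → ℝ) := Icc 0 (fun _ => A) with hQ
  have hQc : IsCompact Q := isCompact_Icc
  have hQne : (0 : ι → ℝ) ∈ Q := ⟨le_rfl, fun _ => hA0⟩
  obtain ⟨ψs, hψs, hmin⟩ := hQc.exists_isMinOn ⟨0, hQne⟩ (continuous_Jfun hK Y w).continuousOn
  refine ⟨ψs, fun ψ' => ?_⟩
  obtain ⟨i₀, hi₀⟩ := Finite.exists_min ψ'
  set ψn : ι → ℝ := fun j => ψ' j - ψ' i₀ with hψn
  have hshift : Jfun K Y w ψn = Jfun K Y w ψ' := Jfun_sub_const hK Y hw ψ' (ψ' i₀)
  have hψn0 : ∀ j, 0 ≤ ψn j := fun j => sub_nonneg.mpr (hi₀ j)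
  by_cases hcase : ψn ∈ Q
  · rw [← hshift]
    exact hmin hcase
  · -- the potential is large, so the value exceeds the value at `0`
    have hex : ∃ j, A < ψn j := by
      by_contra hcon
      push Not at hcon
      exact hcase ⟨fun j => hψn0 j, fun j => hcon j⟩
    obtain ⟨j, hj⟩ := hex
    have hlow : -(V * B) + wm * A ≤ Jfun K Y w ψn := by
      unfold Jfun
      have h1 : ∫ x in K, (-B) ≤ ∫ x in K, lphi Y ψn x := by
        refine setIntegral_mono_on (integrableOn_of_continuous hK continuous_const)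
          (integrableOn_of_continuous hK (continuous_lphi Y ψn)) hK.measurableSet ?_
        intro x hx
        have h2 := le_lphi Y ψn x i₀
        have h3 : ψn i₀ = 0 := by simp [hψn]
        rw [h3] at h2
        have h4 := (abs_le.mp (hinner x hx i₀)).1
        linarith
      rw [setIntegral_const] at h1
      simp only [smul_eq_mul] at h1
      have h5 : wm * A ≤ ∑ i, w i * ψn i := by
        have h6 : w j * ψn j ≤ ∑ i, w i * ψn i :=
          Finset.single_le_sum (f := fun i => w i * ψn i)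
            (fun i _ => mul_nonneg (hw0 i).le (hψn0 i)) (Finset.mem_univ j)
        have h7 : wm * A ≤ w j * ψn j :=
          mul_le_mul (hi₁ j) hj.le hA0 (hw0 j).le
        linarith
      have h8 : V * -B = -(V * B) := by ring
      rw [← hV, h8] at h1
      linarith
    have hzero : Jfun K Y w 0 ≤ V * B := by
      unfold Jfun
      have h1 : ∫ x in K, lphi Y (0 : ι → ℝ) x ≤ ∫ x in K, B := by
        refine setIntegral_mono_on (integrableOn_of_continuous hK (continuous_lphi Y 0))
          (integrableOn_of_continuous hK continuous_const) hK.measurableSet ?_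
        intro x hx
        refine ciSup_le (fun j => ?_)
        have h4 := (abs_le.mp (hinner x hx j)).2
        simpa using h4
      rw [setIntegral_const] at h1
      simp only [smul_eq_mul] at h1
      simpa using h1
    have hs0 : Jfun K Y w ψs ≤ Jfun K Y w 0 := hmin hQne
    have hA2 : 2 * V * B ≤ wm * A := by
      rw [hA]
      field_simp
      nlinarith
    rw [← hshift]
    linarith

/-- Existence of dual potentials (semi-discrete optimal transport). -/
theorem exists_dual [Nonempty ι] {K : Set (Eu d)} (hK : IsCompact K) {Y : ι → Eu d}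
    (hY : Function.Injective Y) {w : ι → ℝ} (hw0 : ∀ i, 0 < w i) (hw : ∑ i, w i = volume.real K) :
    ∃ ψ : ι → ℝ, IsDualW K Y ψ w := by
  classical
  obtain ⟨ψ, hmin⟩ := exists_min_Jfun hK Y hw0 hw
  refine ⟨ψ, ?_⟩
  have hV : volume K ≠ ∞ := hK.measure_lt_top.ne
  -- every cell has at least its mass
  have hge : ∀ i, w i ≤ volume.real (lcell K Y ψ i) := by
    intro i
    set C : ℕ → Set (Eu d) := fun n =>
      K ∩ {x | lphi Y ψ x ≤ inner ℝ x (Y i) - ψ i + 1 / ((n : ℝ) + 1)} with hC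
    have hCm : ∀ n, MeasurableSet (C n) := by
      intro n
      refine hK.measurableSet.inter (measurableSet_le (continuous_lphi Y ψ).measurable ?_)
      exact Continuous.measurable (by fun_prop)
    have hCbound : ∀ n, w i ≤ volume.real (C n) := by
      intro n
      set t : ℝ := 1 / ((n : ℝ) + 1) with ht
      have ht0 : 0 < t := by positivity
      set ψt : ι → ℝ := fun j => if j = i then ψ i - t else ψ j with hψt
      have hpt : ∀ x ∈ K, lphi Y ψt x - lphi Y ψ x ≤ (C n).indicator (fun _ => t) x := by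
        intro x hx
        obtain ⟨j, hj⟩ := exists_mem_ucell Y ψt x
        rw [lphi_eq_of_mem hj]
        by_cases hji : j = i
        · subst hji
          have e : ψt j = ψ j - t := by simp [hψt]
          rw [e]
          by_cases hxC : x ∈ C n
          · rw [indicator_of_mem hxC]
            have := le_lphi Y ψ x j
            linarith
          · rw [indicator_of_notMem hxC]
            have h1 : ¬ (lphi Y ψ x ≤ inner ℝ x (Y j) - ψ j + 1 / ((n : ℝ) + 1)) :=
              fun h => hxC ⟨hx, h⟩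
            push Not at h1
            rw [← ht] at h1
            linarith
        · have e : ψt j = ψ j := by simp [hψt, hji]
          rw [e]
          have h2 := le_lphi Y ψ x j
          have h3 : 0 ≤ (C n).indicator (fun _ => t) x :=
            indicator_nonneg (fun _ _ => ht0.le) x
          linarith
      have hCsub : C n ⊆ K := inter_subset_left
      have hint : ∫ x in K, (lphi Y ψt x - lphi Y ψ x) ≤ t * volume.real (C n) := by
        have h1 : ∫ x in K, (lphi Y ψt x - lphi Y ψ x) ≤ ∫ x in K, (C n).indicator (fun _ => t) x := by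
          refine setIntegral_mono_on
            (integrableOn_of_continuous hK ((continuous_lphi Y ψt).sub (continuous_lphi Y ψ)))
            ((integrableOn_of_continuous hK continuous_const).indicator (hCm n))
            hK.measurableSet hpt
        rw [setIntegral_indicator (hCm n), inter_eq_right.mpr hCsub, setIntegral_const] at h1
        simpa [mul_comm] using h1
      have hJ := hmin ψt
      have hsum : ∑ j, w j * ψt j = ∑ j, w j * ψ j - w i * t := by
        have h1 : ∀ j, w j * ψt j = w j * ψ j - (if j = i then w i * t else 0) := by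
          intro j
          by_cases hji : j = i
          · subst hji; simp [hψt]; ring
          · simp [hψt, hji]
        simp only [h1, Finset.sum_sub_distrib, Finset.sum_ite_eq', Finset.mem_univ, if_true]
      unfold Jfun at hJ
      rw [hsum] at hJ
      rw [integral_sub (integrableOn_of_continuous hK (continuous_lphi Y ψt))
        (integrableOn_of_continuous hK (continuous_lphi Y ψ))] at hint
      have h2 : t * w i ≤ t * volume.real (C n) := by nlinarith
      exact le_of_mul_le_mul_left h2 ht0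
    have hanti : Antitone C := by
      intro m n hmn x hx
      refine ⟨hx.1, ?_⟩
      have hx2 : lphi Y ψ x ≤ inner ℝ x (Y i) - ψ i + 1 / ((n : ℝ) + 1) := hx.2
      show lphi Y ψ x ≤ inner ℝ x (Y i) - ψ i + 1 / ((m : ℝ) + 1)
      have hm : (m : ℝ) ≤ n := by exact_mod_cast hmn
      have : 1 / ((n : ℝ) + 1) ≤ 1 / ((m : ℝ) + 1) :=
        one_div_le_one_div_of_le (by positivity) (by linarith)
      linarith
    have hinter : ⋂ n, C n = lcell K Y ψ i := by
      ext x
      simp only [mem_iInter, hC, lcell, mem_inter_iff]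
      constructor
      · intro h
        obtain ⟨n₀⟩ : Nonempty ℕ := inferInstance
        refine ⟨(h n₀).1, mem_ucell_of_lphi_le ?_⟩
        refine le_of_forall_pos_le_add (fun ε hε => ?_)
        obtain ⟨n, hn⟩ := exists_nat_one_div_lt hε
        have h1 := (h n).2
        have h1' : lphi Y ψ x ≤ inner ℝ x (Y i) - ψ i + 1 / ((n : ℝ) + 1) := h1
        linarith
      · rintro ⟨hx, hu⟩ n
        refine ⟨hx, ?_⟩
        show lphi Y ψ x ≤ inner ℝ x (Y i) - ψ i + 1 / ((n : ℝ) + 1)
        rw [lphi_eq_of_mem hu]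
        have : (0 : ℝ) ≤ 1 / ((n : ℝ) + 1) := by positivity
        linarith
    have hlim := tendsto_measure_iInter_atTop (μ := volume) (s := C)
      (fun n => (hCm n).nullMeasurableSet) hanti
      ⟨0, ne_top_of_le_ne_top hV (measure_mono inter_subset_left)⟩
    rw [hinter] at hlim
    have hge' : ENNReal.ofReal (w i) ≤ volume (lcell K Y ψ i) := by
      refine ge_of_tendsto' hlim (fun n => ?_)
      have hfin : volume (C n) ≠ ∞ := ne_top_of_le_ne_top hV (measure_mono inter_subset_left)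
      exact (ENNReal.ofReal_le_iff_le_toReal hfin).2 (hCbound n)
    have hfin : volume (lcell K Y ψ i) ≠ ∞ := (isCompact_lcell hK Y ψ i).measure_lt_top.ne
    exact (ENNReal.ofReal_le_iff_le_toReal hfin).1 hge'
  have hsum : ∑ i, w i = ∑ i, volume.real (lcell K Y ψ i) := by
    rw [hw, sum_volume_cells hK hY ψ]
  have := (Finset.sum_eq_sum_iff_of_le (fun i _ => hge i)).1 hsum
  intro i
  exact (this i (Finset.mem_univ i)).symm

end Vale.Agent.P074
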