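import Vale.Agent.P074.CycIneq

open MeasureTheory Set Metric Filter Topology
open scoped ENNReal NNReal

namespace Vale.Agent.P074

variable {d : ℕ}

/-- Lebesgue points (for families of balls shrinking nicely, with arbitrary eccentricity). -/
def GoodPoint (T : Eu d → Eu d) (x : Eu d) : Prop :=
  ∀ N : ℕ, ∀ w : ℝ → Eu d, (∀ᶠ r in 𝓝[>] (0 : ℝ), x ∈ closedBall (w r) (N * r)) →
    Tendsto (fun r => ⨍ y in closedBall (w r) r, T y) (𝓝[>] 0) (𝓝 (T x))

lemma ae_goodPoint {T : Eu d → Eu d} {R : ℝ} (hTm : Measurable T) (hbd : ∀ x, ‖T x‖ ≤ R) :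
    ∀ᵐ x, GoodPoint T x := by
  have hloc : LocallyIntegrable T (volume : Measure (Eu d)) := fun x =>
    ⟨ball x 1, ball_mem_nhds x one_pos,
      Measure.integrableOn_of_bounded measure_ball_lt_top.ne hTm.aestronglyMeasurable (M := R)
        (Eventually.of_forall hbd)⟩
  have : ∀ N : ℕ, ∀ᵐ x, ∀ w : ℝ → Eu d,
      (∀ᶠ r in 𝓝[>] (0 : ℝ), x ∈ closedBall (w r) (N * r)) →
      Tendsto (fun r => ⨍ y in closedBall (w r) r, T y) (𝓝[>] 0) (𝓝 (T x)) := by
    intro N
    filter_upwards [IsUnifLocDoublingMeasure.ae_tendsto_average (μ := volume) hloc (N : ℝ)]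
      with x hx w hw
    exact hx w id tendsto_id hw
  exact ae_all_iff.2 this

lemma eventually_closedBall_subset {K : Set (Eu d)} {x : Eu d} (hx : x ∈ interior K) (e : Eu d)
    (he : ‖e‖ = 1) {a : ℝ} (ha : 0 ≤ a) :
    ∀ᶠ r in 𝓝[>] (0 : ℝ), closedBall (x + (a * r) • e) r ⊆ K := by
  obtain ⟨ε, hε, hball⟩ := Metric.isOpen_iff.1 isOpen_interior x hx
  have hδ : 0 < ε / (a + 2) := by positivity
  filter_upwards [Ioo_mem_nhdsGT hδ] with r hr y hy
  apply interior_subset
  apply hball
  rw [mem_ball, dist_eq_norm]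
  rw [mem_closedBall, dist_eq_norm] at hy
  have h1 : y - x = (y - (x + (a * r) • e)) + (a * r) • e := by abel
  have h2 : ‖(a * r) • e‖ = a * r := by
    rw [norm_smul, he, mul_one, Real.norm_of_nonneg (mul_nonneg ha hr.1.le)]
  calc ‖y - x‖ ≤ ‖y - (x + (a * r) • e)‖ + ‖(a * r) • e‖ := by rw [h1]; exact norm_add_le _ _
    _ ≤ r + a * r := by rw [h2]; linarith
    _ < ε := by
      have := hr.2
      rw [lt_div_iff₀ (by positivity)] at this
      nlinarith [hr.1]

lemma eventually_disjoint (x x' e : Eu d) (he : ‖e‖ = 1) {a b : ℝ} (hab : 3 ≤ |a - b|) :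
    ∀ᶠ r in 𝓝[>] (0 : ℝ),
      Disjoint (closedBall (x + (a * r) • e) r) (closedBall (x' + (b * r) • e) r) := by
  by_cases hxx : x = x'
  · subst hxx
    filter_upwards [self_mem_nhdsWithin] with r hr
    have hr' : (0 : ℝ) < r := hr
    apply closedBall_disjoint_closedBall
    rw [dist_eq_norm]
    have : x + (a * r) • e - (x + (b * r) • e) = ((a - b) * r) • e := by
      rw [sub_mul, sub_smul]; abel
    rw [this, norm_smul, he, mul_one, Real.norm_eq_abs, abs_mul, abs_of_pos hr']
    nlinarith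
  · have hcont : Continuous fun r : ℝ => dist (x + (a * r) • e) (x' + (b * r) • e) - (r + r) := by
      fun_prop
    have h0 : 0 < dist (x + (a * 0) • e) (x' + (b * 0) • e) - ((0 : ℝ) + 0) := by
      simp [hxx]
    have := hcont.continuousAt.eventually (lt_mem_nhds h0)
    have h3 := this.filter_mono (nhdsWithin_le_nhds (s := Ioi (0 : ℝ)))
    filter_upwards [h3] with r hr
    apply closedBall_disjoint_closedBall
    linarith

/-- The cyclic inequality at Lebesgue points. -/
lemma cyc_good {ι : Type*} [Fintype ι] {K : Set (Eu d)} (hK : IsCompact K) (h0 : volume K ≠ 0)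
    {μ : Measure (Eu d)} {T : Eu d → Eu d} {R : ℝ} (hbd : ∀ x, ‖T x‖ ≤ R)
    (hT : IsOptimalMap (unif K) μ T) {e : Eu d} (he : ‖e‖ = 1)
    (o : ι → ℕ) (ho : Function.Injective o)
    (x : ι → Eu d) (hxK : ∀ i, x i ∈ interior K) (hgood : ∀ i, GoodPoint T (x i))
    (σ : Equiv.Perm ι) :
    ∑ j, inner ℝ (x (σ j) - x j) (T (x j)) ≤ 0 := by
  set c : ℝ → ι → Eu d := fun r j => x j + ((3 * (o j : ℝ)) * r) • e with hc
  have hcl : ∀ j, Tendsto (fun r => c r j) (𝓝[>] 0) (𝓝 (x j)) := by
    intro j
    have hcont : Continuous fun r : ℝ => c r j := by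
      simp only [hc]; fun_prop
    have := hcont.tendsto 0
    simp only [hc, mul_zero, zero_smul, add_zero] at this
    exact this.mono_left nhdsWithin_le_nhds
  have hav : ∀ j, Tendsto (fun r => ⨍ y in closedBall (c r j) r, T y) (𝓝[>] 0) (𝓝 (T (x j))) := by
    intro j
    refine hgood j (3 * o j) (fun r => c r j) ?_
    filter_upwards [self_mem_nhdsWithin] with r hr
    have hr' : (0 : ℝ) < r := hr
    rw [mem_closedBall, dist_eq_norm]
    simp only [hc]
    have : x j - (x j + ((3 * (o j : ℝ)) * r) • e) = - (((3 * (o j : ℝ)) * r) • e) := by abel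
    rw [this, norm_neg, norm_smul, he, mul_one, Real.norm_of_nonneg (by positivity)]
    push_cast
    exact le_refl _
  have hlim : Tendsto (fun r => ∑ j, inner ℝ (c r (σ j) - c r j) (⨍ y in closedBall (c r j) r, T y))
      (𝓝[>] 0) (𝓝 (∑ j, inner ℝ (x (σ j) - x j) (T (x j)))) := by
    refine tendsto_finset_sum _ fun j _ => ?_
    exact ((hcl (σ j)).sub (hcl j)).inner (hav j)
  refine le_of_tendsto hlim ?_
  have hdisj : ∀ᶠ r in 𝓝[>] (0 : ℝ), ∀ i j, i ≠ j →
      Disjoint (closedBall (c r i) r) (closedBall (c r j) r) := by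
    rw [eventually_all]
    intro i
    rw [eventually_all]
    intro j
    by_cases hij : i = j
    · exact Eventually.of_forall fun r h => absurd hij h
    · have h3 : 3 ≤ |3 * (o i : ℝ) - 3 * (o j : ℝ)| := by
        have hne : o i ≠ o j := fun h => hij (ho h)
        rcases lt_or_gt_of_ne hne with h | h
        · have : ((o i : ℝ)) + 1 ≤ o j := by exact_mod_cast h
          rw [abs_of_nonpos (by linarith)]
          linarith
        · have : ((o j : ℝ)) + 1 ≤ o i := by exact_mod_cast h
          rw [abs_of_nonneg (by linarith)]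
          linarith
      filter_upwards [eventually_disjoint (x i) (x j) e he h3] with r hr _
      exact hr
  have hsub : ∀ᶠ r in 𝓝[>] (0 : ℝ), ∀ j, closedBall (c r j) r ⊆ K := by
    rw [eventually_all]
    intro j
    exact eventually_closedBall_subset (hxK j) e he (by positivity)
  filter_upwards [self_mem_nhdsWithin, hdisj, hsub] with r hr hd hs
  have hr' : (0 : ℝ) < r := hr
  have hmain := cyc_rearr hK h0 hbd hT (c r) hr' (fun i j hij => hd i j hij) hs σ
  set m := (volume (closedBall (0 : Eu d) r)).toReal with hm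
  have hmpos : 0 < m := ENNReal.toReal_pos (measure_closedBall_pos _ _ hr').ne'
    measure_closedBall_lt_top.ne
  have hav2 : ∀ j, ⨍ y in closedBall (c r j) r, T y = m⁻¹ • ∫ y in closedBall (c r j) r, T y := by
    intro j
    rw [setAverage_eq]
    congr 2
    unfold Measure.real
    rw [Measure.addHaar_closedBall_center]
  simp_rw [hav2, inner_smul_right]
  rw [← Finset.mul_sum]
  exact mul_nonpos_of_nonneg_of_nonpos (inv_pos.mpr hmpos).le hmain

end Vale.Agent.P074
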