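import Vale.Agent.P074.Gain

open MeasureTheory Set Metric Filter Topology
open scoped ENNReal NNReal

set_option linter.unusedSectionVars false

namespace Vale.Agent.P074

/-- Comparison of `p` with `1 / p ^ 2` on `(0, 1]`. -/
lemma inv_sq_diff {p p' : ℝ} (hp : 0 < p) (hp' : 0 < p') (hp1 : p ≤ 1) (hp1' : p' ≤ 1) :
    (p - p') ^ 2 ≤ (1 / 4) * (1 / p ^ 2 - 1 / p' ^ 2) ^ 2 := by
  set c := (p + p') / (p ^ 2 * p' ^ 2) with hc
  have hc2 : 2 ≤ c := by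
    rw [hc, le_div_iff₀ (by positivity)]
    have h1 : p ^ 2 * p' ^ 2 ≤ p := by
      have : p * p' ^ 2 ≤ 1 := by
        have h2 : p' ^ 2 ≤ 1 := by nlinarith
        nlinarith
      nlinarith
    have h2 : p ^ 2 * p' ^ 2 ≤ p' := by
      have : p ^ 2 * p' ≤ 1 := by
        have h2 : p ^ 2 ≤ 1 := by nlinarith
        nlinarith
      nlinarith
    linarith
  have e : 1 / p ^ 2 - 1 / p' ^ 2 = (p' - p) * c := by
    rw [hc]
    field_simp
    ring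
  rw [e, mul_pow]
  have : (p - p') ^ 2 = (p' - p) ^ 2 := by ring
  rw [this]
  have h3 : 4 ≤ c ^ 2 := by nlinarith
  nlinarith [sq_nonneg (p' - p)]

lemma algebra1 {p p' s s' E κ : ℝ} (hp : 0 < p) (hp' : 0 < p') (hs : 0 < s) (hs' : 0 < s')
    (hp1 : p ≤ 1) (hp'1 : p' ≤ 1) (hsZ : s ^ 2 ≤ κ * (p * s) ^ 2) (hs'Z : s' ^ 2 ≤ κ * (p' * s') ^ 2)
    (hwm : s' ^ 2 ≤ (3 / 2) * s ^ 2) (hκ1 : 1 ≤ κ)
    (hgain : (1 / p ^ 2 - 1 / p' ^ 2) ^ 2 * ((p * s) * (p' * s')) ≤ κ ^ 2 * E) :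
    (p * s - p' * s') ^ 2 ≤ 2 * (s - s') ^ 2 + (5 / 8) * κ ^ 3 * E := by
  have hκ : 0 < κ := by linarith
  obtain ⟨U, hU⟩ : ∃ U, U = 1 / p ^ 2 - 1 / p' ^ 2 := ⟨_, rfl⟩
  rw [← hU] at hgain
  have h1 : (p - p') ^ 2 ≤ (1 / 4) * U ^ 2 := by
    rw [hU]; exact inv_sq_diff hp hp' hp1 hp'1
  have e1 : p * s - p' * s' = p * (s - s') + s' * (p - p') := by ring
  have h2 : (p * s - p' * s') ^ 2 ≤ 2 * (p * (s - s')) ^ 2 + 2 * (s' * (p - p')) ^ 2 := by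
    rw [e1]; nlinarith [sq_nonneg (p * (s - s') - s' * (p - p'))]
  have h3 : (p * (s - s')) ^ 2 ≤ (s - s') ^ 2 := by
    rw [mul_pow]
    have h : p ^ 2 ≤ 1 := pow_le_one₀ hp.le hp1
    exact mul_le_of_le_one_left (sq_nonneg _) h
  have h4 : (s' * (p - p')) ^ 2 ≤ s' ^ 2 * ((1 / 4) * U ^ 2) := by
    rw [mul_pow]
    exact mul_le_mul_of_nonneg_left h1 (by positivity)
  have h5 : s' ≤ (5 / 4) * s := by
    have : s' ^ 2 ≤ ((5 / 4) * s) ^ 2 := by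
      rw [mul_pow]; nlinarith [sq_nonneg s]
    exact (pow_le_pow_iff_left₀ hs'.le (by positivity) (by norm_num)).1 this
  have h6 : s * s' ≤ κ * ((p * s) * (p' * s')) := by
    have : (s * s') ^ 2 ≤ (κ * ((p * s) * (p' * s'))) ^ 2 := by
      have h := mul_le_mul hsZ hs'Z (by positivity) (by positivity)
      calc (s * s') ^ 2 = s ^ 2 * s' ^ 2 := by ring
        _ ≤ _ := h
        _ = _ := by ring
    exact (pow_le_pow_iff_left₀ (by positivity) (by positivity) (by norm_num)).1 this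
  have h7 : s' ^ 2 ≤ (5 / 4) * κ * ((p * s) * (p' * s')) := by
    have h8 : s' * s' ≤ ((5 / 4) * s) * s' := mul_le_mul_of_nonneg_right h5 hs'.le
    have h9 : (5 / 4) * (s * s') ≤ (5 / 4) * (κ * ((p * s) * (p' * s'))) :=
      mul_le_mul_of_nonneg_left h6 (by norm_num)
    calc s' ^ 2 = s' * s' := by ring
      _ ≤ ((5 / 4) * s) * s' := h8
      _ = (5 / 4) * (s * s') := by ring
      _ ≤ (5 / 4) * (κ * ((p * s) * (p' * s'))) := h9
      _ = _ := by ring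
  have h8 : s' ^ 2 * U ^ 2 ≤ (5 / 4) * κ * (κ ^ 2 * E) := by
    have h10 : s' ^ 2 * U ^ 2 ≤ ((5 / 4) * κ * ((p * s) * (p' * s'))) * U ^ 2 :=
      mul_le_mul_of_nonneg_right h7 (by positivity)
    have h11 : (5 / 4) * κ * (U ^ 2 * ((p * s) * (p' * s'))) ≤ (5 / 4) * κ * (κ ^ 2 * E) :=
      mul_le_mul_of_nonneg_left hgain (by positivity)
    calc s' ^ 2 * U ^ 2 ≤ ((5 / 4) * κ * ((p * s) * (p' * s'))) * U ^ 2 := h10
      _ = (5 / 4) * κ * (U ^ 2 * ((p * s) * (p' * s'))) := by ring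
      _ ≤ _ := h11
  have e2 : s' ^ 2 * ((1 / 4) * U ^ 2) = (1 / 4) * (s' ^ 2 * U ^ 2) := by ring
  have e3 : (5 / 4) * κ * (κ ^ 2 * E) = (5 / 4) * κ ^ 3 * E := by ring
  rw [e3] at h8
  rw [e2] at h4
  linarith

/-- The per-cell estimate for the square-root masses. -/
lemma idx_bound1 {m w Z Z' E κ : ℝ} (hm : 0 < m) (hw : 0 < w) (hZ : 0 < Z) (hZ' : 0 < Z')
    (hZm : Z ≤ m) (hmZ : m ≤ κ * Z) (hZw : Z' ≤ w) (hwZ : w ≤ κ * Z') (hwm : w ≤ (3 / 2) * m)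
    (hκ1 : 1 ≤ κ)
    (hgain : (m / Z - w / Z') ^ 2 * (Real.sqrt Z * Real.sqrt Z') ≤ κ ^ 2 * E) :
    (Real.sqrt Z - Real.sqrt Z') ^ 2
      ≤ 2 * (Real.sqrt m - Real.sqrt w) ^ 2 + (5 / 8) * κ ^ 3 * E := by
  have ha0 : 0 < Real.sqrt Z := Real.sqrt_pos.mpr hZ
  have ha'0 : 0 < Real.sqrt Z' := Real.sqrt_pos.mpr hZ'
  have hs0 : 0 < Real.sqrt m := Real.sqrt_pos.mpr hm
  have hs'0 : 0 < Real.sqrt w := Real.sqrt_pos.mpr hw
  have has : Real.sqrt Z ≤ Real.sqrt m := Real.sqrt_le_sqrt hZm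
  have has' : Real.sqrt Z' ≤ Real.sqrt w := Real.sqrt_le_sqrt hZw
  obtain ⟨p, hp⟩ : ∃ p, p = Real.sqrt Z / Real.sqrt m := ⟨_, rfl⟩
  obtain ⟨p', hp'⟩ : ∃ p', p' = Real.sqrt Z' / Real.sqrt w := ⟨_, rfl⟩
  have hZ1 : Real.sqrt Z = p * Real.sqrt m := by rw [hp]; field_simp
  have hZ2 : Real.sqrt Z' = p' * Real.sqrt w := by rw [hp']; field_simp
  have hp0 : 0 < p := by rw [hp]; positivity
  have hp'0 : 0 < p' := by rw [hp']; positivity
  have hp1 : p ≤ 1 := by rw [hp]; exact (div_le_one hs0).2 has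
  have hp'1 : p' ≤ 1 := by rw [hp']; exact (div_le_one hs'0).2 has'
  have hZs : Z = (p * Real.sqrt m) ^ 2 := by rw [← hZ1]; exact (Real.sq_sqrt hZ.le).symm
  have hZ's : Z' = (p' * Real.sqrt w) ^ 2 := by rw [← hZ2]; exact (Real.sq_sqrt hZ'.le).symm
  have hm2 : Real.sqrt m ^ 2 = m := Real.sq_sqrt hm.le
  have hw2 : Real.sqrt w ^ 2 = w := Real.sq_sqrt hw.le
  have hu : m / Z = 1 / p ^ 2 := by
    rw [hZs, mul_pow, hm2]
    have : m ≠ 0 := hm.ne'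
    field_simp
  have hu' : w / Z' = 1 / p' ^ 2 := by
    rw [hZ's, mul_pow, hw2]
    have : w ≠ 0 := hw.ne'
    field_simp
  rw [hu, hu', hZ1, hZ2] at hgain
  rw [hZ1, hZ2]
  refine algebra1 hp0 hp'0 hs0 hs'0 hp1 hp'1 ?_ ?_ ?_ hκ1 hgain
  · rw [hm2, ← hZs]; exact hmZ
  · rw [hw2, ← hZ's]; exact hwZ
  · rw [hm2, hw2]; exact hwm

lemma algebra2 {a a' s E κ B W : ℝ} (ha : 0 < a) (ha' : 0 < a') (hs : 0 < s) (hκ : 0 < κ)
    (hE : 0 ≤ E) (hB : 0 ≤ B) (h6 : a' ≤ (13 / 10) * a) (h9 : a' ^ 2 ≤ (3 / 2) * s ^ 2)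
    (hgain : W ^ 2 * (a * a') ≤ 81 * B ^ 2 * κ ^ 2 * E) :
    |a' ^ 2 * W| ≤ κ * B * s * (13 * Real.sqrt E) := by
  have hsq : (a' ^ 2 * W) ^ 2 ≤ (κ * B * s * (13 * Real.sqrt E)) ^ 2 := by
    have e1 : (κ * B * s * (13 * Real.sqrt E)) ^ 2 = 169 * (κ ^ 2 * B ^ 2 * s ^ 2 * E) := by
      rw [mul_pow, mul_pow, mul_pow, mul_pow, Real.sq_sqrt hE]; ring
    rw [e1]
    -- multiply by `a` and cancel
    have h1 : a * (a' ^ 2 * W) ^ 2 ≤ a * (169 * (κ ^ 2 * B ^ 2 * s ^ 2 * E)) := by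
      have h2 : a' ^ 3 * (W ^ 2 * (a * a')) ≤ a' ^ 3 * (81 * B ^ 2 * κ ^ 2 * E) :=
        mul_le_mul_of_nonneg_left hgain (by positivity)
      have h3 : a' ^ 3 ≤ 2 * s ^ 2 * a := by
        have h4 : a' ^ 2 * a' ≤ ((3 / 2) * s ^ 2) * ((13 / 10) * a) :=
          mul_le_mul h9 h6 ha'.le (by positivity)
        have h5 : ((3 / 2) * s ^ 2) * ((13 / 10) * a) ≤ 2 * s ^ 2 * a := by
          have : 0 ≤ s ^ 2 * a := by positivity
          nlinarith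
        calc a' ^ 3 = a' ^ 2 * a' := by ring
          _ ≤ _ := h4.trans h5
      have h7 : a' ^ 3 * (81 * B ^ 2 * κ ^ 2 * E) ≤ (2 * s ^ 2 * a) * (81 * B ^ 2 * κ ^ 2 * E) :=
        mul_le_mul_of_nonneg_right h3 (by positivity)
      have h8 : (2 * s ^ 2 * a) * (81 * B ^ 2 * κ ^ 2 * E) ≤ a * (169 * (κ ^ 2 * B ^ 2 * s ^ 2 * E)) := by
        have : 0 ≤ a * (κ ^ 2 * B ^ 2 * s ^ 2 * E) := by positivity
        nlinarith
      calc a * (a' ^ 2 * W) ^ 2 = a' ^ 3 * (W ^ 2 * (a * a')) := by ring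
        _ ≤ _ := h2.trans (h7.trans h8)
    exact le_of_mul_le_mul_left h1 ha
  exact abs_le_of_sq_le_sq hsq (by positivity)

/-- The per-cell estimate for the first moments. -/
lemma idx_bound2 {m w Z Z' E κ B T T' : ℝ} (hm : 0 < m) (hw : 0 < w) (hZ : 0 < Z) (hZ' : 0 < Z')
    (hZm : Z ≤ m) (hmZ : m ≤ κ * Z) (hZw : Z' ≤ w) (hwm : w ≤ (3 / 2) * m)
    (hκ1 : 1 ≤ κ) (hκ2 : κ ≤ 16 / 15) (hE : 0 ≤ E) (hB : 0 ≤ B)
    (hgain : (T / Z - T' / Z') ^ 2 * (Real.sqrt Z * Real.sqrt Z') ≤ 81 * B ^ 2 * κ ^ 2 * E)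
    (hT : |T| ≤ B * m) :
    |T - T'| ≤ κ * B * Real.sqrt m * ((9 / 4) * |Real.sqrt Z - Real.sqrt Z'| + 13 * Real.sqrt E) := by
  have hκ : 0 < κ := by linarith
  have ha0 : 0 < Real.sqrt Z := Real.sqrt_pos.mpr hZ
  have ha'0 : 0 < Real.sqrt Z' := Real.sqrt_pos.mpr hZ'
  have hs0 : 0 < Real.sqrt m := Real.sqrt_pos.mpr hm
  have hs'0 : 0 < Real.sqrt w := Real.sqrt_pos.mpr hw
  have haZ : Real.sqrt Z ^ 2 = Z := Real.sq_sqrt hZ.le
  have ha'Z : Real.sqrt Z' ^ 2 = Z' := Real.sq_sqrt hZ'.le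
  have hsm : Real.sqrt m ^ 2 = m := Real.sq_sqrt hm.le
  have hs'w : Real.sqrt w ^ 2 = w := Real.sq_sqrt hw.le
  have has : Real.sqrt Z ≤ Real.sqrt m := Real.sqrt_le_sqrt hZm
  have has' : Real.sqrt Z' ≤ Real.sqrt w := Real.sqrt_le_sqrt hZw
  generalize Real.sqrt Z = a at *
  generalize Real.sqrt Z' = a' at *
  generalize Real.sqrt m = s at *
  generalize Real.sqrt w = s' at *
  have h5 : s' ≤ (5 / 4) * s := by
    have : s' ^ 2 ≤ ((5 / 4) * s) ^ 2 := by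
      rw [hs'w, mul_pow, hsm]; nlinarith
    exact (pow_le_pow_iff_left₀ hs'0.le (by positivity) (by norm_num)).1 this
  obtain ⟨v, hv⟩ : ∃ v, v = T / Z := ⟨_, rfl⟩
  obtain ⟨v', hv'⟩ : ∃ v', v' = T' / Z' := ⟨_, rfl⟩
  have hTv : T = Z * v := by rw [hv]; field_simp
  have hTv' : T' = Z' * v' := by rw [hv']; field_simp
  have hdec : T - T' = (a - a') * (a + a') * v + a' ^ 2 * (v - v') := by
    rw [hTv, hTv', ← haZ, ← ha'Z]; ring
  have hvb : |v| ≤ κ * B := by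
    rw [hv, abs_div, abs_of_pos hZ, div_le_iff₀ hZ]
    calc |T| ≤ B * m := hT
      _ ≤ B * (κ * Z) := mul_le_mul_of_nonneg_left hmZ hB
      _ = κ * B * Z := by ring
  have hfirst : |(a - a') * (a + a') * v| ≤ κ * B * s * ((9 / 4) * |a - a'|) := by
    rw [abs_mul, abs_mul, abs_of_pos (by positivity : 0 < a + a')]
    have h1 : a + a' ≤ (9 / 4) * s := by linarith
    calc |a - a'| * (a + a') * |v| ≤ |a - a'| * ((9 / 4) * s) * (κ * B) :=
          mul_le_mul (mul_le_mul_of_nonneg_left h1 (abs_nonneg _)) hvb (abs_nonneg _)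
            (by positivity)
      _ = κ * B * s * ((9 / 4) * |a - a'|) := by ring
  have h6 : a' ≤ (13 / 10) * a := by
    have : a' ^ 2 ≤ ((13 / 10) * a) ^ 2 := by
      rw [mul_pow, haZ, ha'Z]
      have h7 : w ≤ (3 / 2) * (κ * Z) := by
        linarith [mul_le_mul_of_nonneg_left hmZ (by norm_num : (0 : ℝ) ≤ 3 / 2)]
      have h8 : κ * Z ≤ (16 / 15) * Z := mul_le_mul_of_nonneg_right hκ2 hZ.le
      nlinarith
    exact (pow_le_pow_iff_left₀ ha'0.le (by positivity) (by norm_num)).1 this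
  have h9 : a' ^ 2 ≤ (3 / 2) * s ^ 2 := by
    rw [ha'Z, hsm]; linarith
  rw [← hv, ← hv'] at hgain
  have hsecond := algebra2 ha0 ha'0 hs0 hκ hE hB h6 h9 hgain
  rw [hdec]
  calc |(a - a') * (a + a') * v + a' ^ 2 * (v - v')|
      ≤ |(a - a') * (a + a') * v| + |a' ^ 2 * (v - v')| := abs_add_le _ _
    _ ≤ κ * B * s * ((9 / 4) * |a - a'|) + κ * B * s * (13 * Real.sqrt E) := add_le_add hfirst hsecond
    _ = _ := by ring

variable {d : ℕ} {ι : Type*} [Fintype ι]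

lemma mid_mem_lcell {K : Set (Eu d)} (hconv : Convex ℝ K) {Y : ι → Eu d} {ψ ψ' : ι → ℝ} {i : ι}
    {x z : Eu d} (hx : x ∈ lcell K Y ψ i) (hz : z ∈ lcell K Y ψ' i) :
    (1 / 2 : ℝ) • (x + z) ∈ lcell K Y (fun j => (ψ j + ψ' j) / 2) i := by
  refine ⟨?_, ?_⟩
  · have := hconv hx.1 hz.1 (by norm_num : (0 : ℝ) ≤ 1 / 2) (by norm_num : (0 : ℝ) ≤ 1 / 2)
      (by norm_num)
    rwa [← smul_add] at this
  · intro j
    have h1 := hx.2 j
    have h2 := hz.2 j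
    simp only [real_inner_smul_left, inner_add_left]
    linarith

/-- **Hellinger stability of first moments under a change of masses**, at fixed sites. -/
theorem mass_stability [Nonempty ι] {K : Set (Eu d)} (hK : IsCompact K) (hconv : Convex ℝ K) {R : ℝ}
    (hR : 0 < R) (hKR : ∀ x ∈ K, ‖x‖ ≤ R) {Y : ι → Eu d} (hY : Function.Injective Y)
    {ψ ψ' m w : ι → ℝ} (hd : IsDualW K Y ψ m) (hd' : IsDualW K Y ψ' w) (hm : ∀ i, 0 < m i)
    (hw : ∀ i, 0 < w i) (hwm : ∀ i, w i ≤ (3 / 2) * m i) (ζ : ι → Eu d) :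
    ∑ i, |(∫ x in lcell K Y ψ i, inner ℝ x (ζ i)) - ∫ x in lcell K Y ψ' i, inner ℝ x (ζ i)|
      ≤ 26 * R * Real.sqrt (∑ i, m i * ‖ζ i‖ ^ 2)
          * Real.sqrt (∑ i, (Real.sqrt (m i) - Real.sqrt (w i)) ^ 2) := by
  set β : ℝ := 1 / (16 * R ^ 2) with hβd
  have hβ : 0 < β := by positivity
  have hβR : 16 * β * R ^ 2 = 1 := by rw [hβd]; field_simp
  set ψm : ι → ℝ := fun j => (ψ j + ψ' j) / 2 with hψm
  set Z : ι → ℝ := fun i => ∫ x in lcell K Y ψ i, gam β x with hZd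
  set Z' : ι → ℝ := fun i => ∫ x in lcell K Y ψ' i, gam β x with hZ'd
  set ZM : ι → ℝ := fun i => ∫ x in lcell K Y ψm i, gam β x with hZMd
  have hκ1 := one_le_kap
  have hκ2 := kap_le
  have hκ0 := kap_pos
  have hmZ : ∀ i, m i ≤ kap * Z i := by
    intro i
    rw [← hd i]
    exact vol_le_Z hβ hR hβR hK hKR (measurableSet_lcell hK Y ψ i) (lcell_subset _ _ _ _)
  have hwZ : ∀ i, w i ≤ kap * Z' i := by
    intro i
    rw [← hd' i]
    exact vol_le_Z hβ hR hβR hK hKR (measurableSet_lcell hK Y ψ' i) (lcell_subset _ _ _ _)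
  have hZm : ∀ i, Z i ≤ m i := by
    intro i
    rw [← hd i]
    exact Z_le_vol hβ hK (lcell_subset _ _ _ _)
  have hZw : ∀ i, Z' i ≤ w i := by
    intro i
    rw [← hd' i]
    exact Z_le_vol hβ hK (lcell_subset _ _ _ _)
  have hZ0 : ∀ i, 0 < Z i := by
    intro i
    have h1 := hmZ i
    have h2 := hm i
    by_contra hcon
    push Not at hcon
    nlinarith
  have hZ'0 : ∀ i, 0 < Z' i := by
    intro i
    have h1 := hwZ i
    have h2 := hw i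
    by_contra hcon
    push Not at hcon
    nlinarith
  set E : ι → ℝ := fun i => ZM i - Real.sqrt (Z i) * Real.sqrt (Z' i) with hE
  have hgu : ∀ i, (m i / Z i - w i / Z' i) ^ 2 * (Real.sqrt (Z i) * Real.sqrt (Z' i))
      ≤ kap ^ 2 * E i := by
    intro i
    have := gain_u hβ hR hβR hK hKR (measurableSet_lcell hK Y ψ i)
      (measurableSet_lcell hK Y ψ' i) (measurableSet_lcell hK Y ψm i)
      (lcell_subset _ _ _ _) (lcell_subset _ _ _ _) (lcell_subset _ _ _ _)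
      (fun x hx z hz => mid_mem_lcell hconv hx hz) (hZ0 i) (hZ'0 i)
    rw [hd i, hd' i, Real.sqrt_mul (hZ0 i).le] at this
    exact this
  have hE0 : ∀ i, 0 ≤ E i := by
    intro i
    have h1 := hgu i
    have h2 : 0 ≤ (m i / Z i - w i / Z' i) ^ 2 * (Real.sqrt (Z i) * Real.sqrt (Z' i)) := by
      positivity
    have h3 : 0 ≤ kap ^ 2 * E i := h2.trans h1
    exact nonneg_of_mul_nonneg_right h3 (by positivity)
  have hgv : ∀ i, ((∫ x in lcell K Y ψ i, inner ℝ x (ζ i)) / Z i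
        - (∫ x in lcell K Y ψ' i, inner ℝ x (ζ i)) / Z' i) ^ 2
        * (Real.sqrt (Z i) * Real.sqrt (Z' i)) ≤ 81 * (R * ‖ζ i‖) ^ 2 * kap ^ 2 * E i := by
    intro i
    have := gain_v hβ hR hβR hK hKR (measurableSet_lcell hK Y ψ i)
      (measurableSet_lcell hK Y ψ' i) (measurableSet_lcell hK Y ψm i)
      (lcell_subset _ _ _ _) (lcell_subset _ _ _ _) (lcell_subset _ _ _ _)
      (fun x hx z hz => mid_mem_lcell hconv hx hz) (hZ0 i) (hZ'0 i) (ζ i)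
    rw [Real.sqrt_mul (hZ0 i).le] at this
    refine this.trans (le_of_eq ?_)
    ring
  have hT : ∀ i, |∫ x in lcell K Y ψ i, inner ℝ x (ζ i)| ≤ (R * ‖ζ i‖) * m i := by
    intro i
    rw [← hd i, ← Real.norm_eq_abs]
    refine norm_setIntegral_le_of_norm_le_const (isCompact_lcell hK Y ψ i).measure_lt_top ?_
    intro x hx
    rw [Real.norm_eq_abs]
    exact (abs_real_inner_le_norm _ _).trans
      (mul_le_mul_of_nonneg_right (hKR x hx.1) (norm_nonneg _))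
  -- the identities for the sums
  have hgamK : IntegrableOn (gam (d := d) β) K := integrableOn_of_continuous hK (continuous_gam β)
  have hsZ : ∑ i, Z i = ∫ x in K, gam β x := (integral_cells hK hY ψ hgamK).symm
  have hsZ' : ∑ i, Z' i = ∫ x in K, gam β x := (integral_cells hK hY ψ' hgamK).symm
  have hsZM : ∑ i, ZM i = ∫ x in K, gam β x := (integral_cells hK hY ψm hgamK).symm
  set S := ∑ i, (Real.sqrt (Z i) - Real.sqrt (Z' i)) ^ 2 with hS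
  set H2 := ∑ i, (Real.sqrt (m i) - Real.sqrt (w i)) ^ 2 with hH2
  set W2 := ∑ i, m i * ‖ζ i‖ ^ 2 with hW2
  have hS0 : 0 ≤ S := Finset.sum_nonneg fun _ _ => sq_nonneg _
  have hH20 : 0 ≤ H2 := Finset.sum_nonneg fun _ _ => sq_nonneg _
  have hW20 : 0 ≤ W2 := Finset.sum_nonneg fun i _ => mul_nonneg (hm i).le (sq_nonneg _)
  have hsE : ∑ i, E i = S / 2 := by
    have h1 : ∀ i, (Real.sqrt (Z i) - Real.sqrt (Z' i)) ^ 2
        = Z i + Z' i - 2 * (Real.sqrt (Z i) * Real.sqrt (Z' i)) := by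
      intro i
      have h2 := Real.sq_sqrt (hZ0 i).le
      have h3 := Real.sq_sqrt (hZ'0 i).le
      nlinarith
    rw [hS]
    simp only [h1, hE, Finset.sum_sub_distrib, Finset.sum_add_distrib, ← Finset.mul_sum, hsZ, hsZ',
      hsZM]
    ring
  -- the absorption
  have hS4 : S ≤ 4 * H2 := by
    have h1 : S ≤ ∑ i, (2 * (Real.sqrt (m i) - Real.sqrt (w i)) ^ 2 + (5 / 8) * kap ^ 3 * E i) :=
      Finset.sum_le_sum fun i _ =>
        idx_bound1 (hm i) (hw i) (hZ0 i) (hZ'0 i) (hZm i) (hmZ i) (hZw i) (hwZ i) (hwm i) hκ1 (hgu i)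
    rw [Finset.sum_add_distrib, ← Finset.mul_sum, ← Finset.mul_sum, hsE] at h1
    have h2 : kap ^ 3 ≤ (16 / 15) ^ 3 := pow_le_pow_left₀ hκ0.le hκ2 3
    have h3 : (5 / 8) * kap ^ 3 * (S / 2) ≤ (1 / 2) * S := by
      have h4 : (5 / 8) * kap ^ 3 / 2 ≤ 1 / 2 := by
        norm_num at h2 ⊢
        linarith
      calc (5 / 8) * kap ^ 3 * (S / 2) = ((5 / 8) * kap ^ 3 / 2) * S := by ring
        _ ≤ _ := mul_le_mul_of_nonneg_right h4 hS0
    linarith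
  -- the moments
  have hsum : ∑ i, |(∫ x in lcell K Y ψ i, inner ℝ x (ζ i)) - ∫ x in lcell K Y ψ' i, inner ℝ x (ζ i)|
      ≤ ∑ i, kap * (R * ‖ζ i‖) * Real.sqrt (m i)
          * ((9 / 4) * |Real.sqrt (Z i) - Real.sqrt (Z' i)| + 13 * Real.sqrt (E i)) :=
    Finset.sum_le_sum fun i _ =>
      idx_bound2 (hm i) (hw i) (hZ0 i) (hZ'0 i) (hZm i) (hmZ i) (hZw i) (hwm i) hκ1 hκ2 (hE0 i)
        (by positivity) (hgv i) (hT i)
  set f : ι → ℝ := fun i => ‖ζ i‖ * Real.sqrt (m i) with hf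
  have hf2 : ∑ i, f i ^ 2 = W2 := by
    refine Finset.sum_congr rfl fun i _ => ?_
    simp only [hf, mul_pow, Real.sq_sqrt (hm i).le]
    ring
  have hCS1 : ∑ i, f i * |Real.sqrt (Z i) - Real.sqrt (Z' i)| ≤ Real.sqrt W2 * Real.sqrt S := by
    have := Real.sum_mul_le_sqrt_mul_sqrt Finset.univ f
      (fun i => |Real.sqrt (Z i) - Real.sqrt (Z' i)|)
    simpa only [hf2, sq_abs] using this
  have hCS2 : ∑ i, f i * Real.sqrt (E i) ≤ Real.sqrt W2 * Real.sqrt (S / 2) := by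
    have := Real.sum_mul_le_sqrt_mul_sqrt Finset.univ f (fun i => Real.sqrt (E i))
    have e : ∑ i, Real.sqrt (E i) ^ 2 = S / 2 := by
      rw [← hsE]
      exact Finset.sum_congr rfl fun i _ => Real.sq_sqrt (hE0 i)
    simpa only [hf2, e] using this
  have hS34 : Real.sqrt (S / 2) ≤ (3 / 4) * Real.sqrt S := by
    rw [Real.sqrt_le_iff]
    refine ⟨by positivity, ?_⟩
    rw [mul_pow, Real.sq_sqrt hS0]
    linarith
  have hSH : Real.sqrt S ≤ 2 * Real.sqrt H2 := by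
    rw [Real.sqrt_le_iff]
    refine ⟨by positivity, ?_⟩
    rw [mul_pow, Real.sq_sqrt hH20]
    linarith
  have hexp : ∑ i, kap * (R * ‖ζ i‖) * Real.sqrt (m i)
          * ((9 / 4) * |Real.sqrt (Z i) - Real.sqrt (Z' i)| + 13 * Real.sqrt (E i))
      = kap * R * ((9 / 4) * ∑ i, f i * |Real.sqrt (Z i) - Real.sqrt (Z' i)|
          + 13 * ∑ i, f i * Real.sqrt (E i)) := by
    rw [Finset.mul_sum, Finset.mul_sum, ← Finset.sum_add_distrib, Finset.mul_sum]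
    refine Finset.sum_congr rfl fun i _ => ?_
    simp only [hf]
    ring
  rw [hexp] at hsum
  refine hsum.trans ?_
  have hWs : 0 ≤ Real.sqrt W2 := Real.sqrt_nonneg _
  have hSs : 0 ≤ Real.sqrt S := Real.sqrt_nonneg _
  have h1 : (9 / 4) * ∑ i, f i * |Real.sqrt (Z i) - Real.sqrt (Z' i)|
      + 13 * ∑ i, f i * Real.sqrt (E i) ≤ 12 * (Real.sqrt W2 * Real.sqrt S) := by
    have h2 : Real.sqrt W2 * Real.sqrt (S / 2) ≤ Real.sqrt W2 * ((3 / 4) * Real.sqrt S) :=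
      mul_le_mul_of_nonneg_left hS34 hWs
    nlinarith
  have h2 : kap * R * ((9 / 4) * ∑ i, f i * |Real.sqrt (Z i) - Real.sqrt (Z' i)|
      + 13 * ∑ i, f i * Real.sqrt (E i)) ≤ kap * R * (12 * (Real.sqrt W2 * Real.sqrt S)) :=
    mul_le_mul_of_nonneg_left h1 (by positivity)
  refine h2.trans ?_
  have h3 : kap * R * (12 * (Real.sqrt W2 * Real.sqrt S))
      ≤ (16 / 15) * R * (12 * (Real.sqrt W2 * (2 * Real.sqrt H2))) := by
    have h4 : Real.sqrt W2 * Real.sqrt S ≤ Real.sqrt W2 * (2 * Real.sqrt H2) :=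
      mul_le_mul_of_nonneg_left hSH hWs
    have h5 : kap * R ≤ (16 / 15) * R := mul_le_mul_of_nonneg_right hκ2 hR.le
    exact mul_le_mul h5 (mul_le_mul_of_nonneg_left h4 (by norm_num)) (by positivity) (by positivity)
  refine h3.trans ?_
  have h6 : 0 ≤ R * (Real.sqrt W2 * Real.sqrt H2) := by positivity
  nlinarith

end Vale.Agent.P074
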