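import Vale.Agent.P074.Defs

open MeasureTheory Set
open scoped ENNReal NNReal

namespace Vale.Agent.P074

lemma vol_preimage_mid_right (b : ℝ) (U : Set ℝ) :
    volume ((fun x : ℝ => (x + b) / 2) ⁻¹' U) = 2 * volume U := by
  have e : (fun x : ℝ => (x + b) / 2) ⁻¹' U
      = (fun x : ℝ => x + b) ⁻¹' ((fun y : ℝ => (2⁻¹ : ℝ) * y) ⁻¹' U) := by
    ext x; simp [div_eq_inv_mul]
  rw [e, measure_preimage_add_right, Real.volume_preimage_mul_left (by norm_num)]
  congr 1
  norm_num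

lemma vol_preimage_mid_left (a : ℝ) (U : Set ℝ) :
    volume ((fun x : ℝ => (a + x) / 2) ⁻¹' U) = 2 * volume U := by
  have e : (fun x : ℝ => (a + x) / 2) = (fun x : ℝ => (x + a) / 2) := by
    ext x; ring
  rw [e, vol_preimage_mid_right]

/-- One-dimensional Brunn-Minkowski, midpoint form, for compact nonempty sets. -/
lemma bm_compact {A B S : Set ℝ} (hA : IsCompact A) (hB : IsCompact B) (hAne : A.Nonempty)
    (hBne : B.Nonempty) (h : ∀ a ∈ A, ∀ b ∈ B, (a + b) / 2 ∈ S) :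
    volume A + volume B ≤ 2 * volume S := by
  obtain ⟨a₁, ha₁, ha₁g⟩ := hA.exists_isGreatest hAne
  obtain ⟨b₀, hb₀, hb₀l⟩ := hB.exists_isLeast hBne
  set m := (a₁ + b₀) / 2 with hm
  have h1 : volume A ≤ 2 * volume (S ∩ Iic m) := by
    rw [← vol_preimage_mid_right b₀]
    apply measure_mono
    intro a ha
    refine ⟨h a ha b₀ hb₀, ?_⟩
    have := ha₁g ha
    simp only [mem_Iic, hm]
    linarith
  have h2 : volume B ≤ 2 * volume (S \ Iic m) := by
    have e : volume B = volume (B \ {b₀}) := (measure_sdiff_null (by simp)).symm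
    rw [e, ← vol_preimage_mid_left a₁]
    apply measure_mono
    rintro b ⟨hb, hne⟩
    refine ⟨h a₁ ha₁ b hb, ?_⟩
    have h3 := hb₀l hb
    have h4 : b₀ < b := lt_of_le_of_ne h3 (Ne.symm hne)
    simp only [mem_Iic, hm, not_le]
    linarith
  have h3 := measure_inter_add_sdiff (μ := volume) S (measurableSet_Iic (a := m))
  calc volume A + volume B ≤ 2 * volume (S ∩ Iic m) + 2 * volume (S \ Iic m) := add_le_add h1 h2
    _ = 2 * volume S := by rw [← mul_add, h3]

lemma bm_measurable {A B S : Set ℝ} (hA : MeasurableSet A) (hB : MeasurableSet B)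
    (hAne : A.Nonempty) (hBne : B.Nonempty)
    (h : ∀ a ∈ A, ∀ b ∈ B, (a + b) / 2 ∈ S) :
    volume A + volume B ≤ 2 * volume S := by
  obtain ⟨a₀, ha₀⟩ := hAne
  obtain ⟨b₀, hb₀⟩ := hBne
  have key : ∀ K₁ K₂ : Set ℝ, K₁ ⊆ A → IsCompact K₁ → K₂ ⊆ B → IsCompact K₂ →
      volume K₁ + volume K₂ ≤ 2 * volume S := by
    intro K₁ K₂ h1 h1c h2 h2c
    have := bm_compact (A := insert a₀ K₁) (B := insert b₀ K₂) (S := S) (h1c.insert a₀) (h2c.insert b₀)
      (insert_nonempty _ _) (insert_nonempty _ _) (by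
        intro a ha b hb
        apply h a _ b _
        · rcases ha with rfl | ha
          · exact ha₀
          · exact h1 ha
        · rcases hb with rfl | hb
          · exact hb₀
          · exact h2 hb)
    refine le_trans ?_ this
    gcongr <;> exact subset_insert _ _
  rw [hA.measure_eq_iSup_isCompact, hB.measure_eq_iSup_isCompact]
  refine ENNReal.biSup_add_biSup_le' (p := fun K => K ⊆ A) (q := fun K => K ⊆ B)
    ⟨∅, empty_subset _⟩ ⟨∅, empty_subset _⟩ ?_
  intro K₁ h1 K₂ h2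
  obtain ⟨K₁', h1', h1c, e₁⟩ : ∃ K' ⊆ A, IsCompact K' ∧ (⨆ _ : IsCompact K₁, volume K₁) = volume K' := by
    by_cases hc : IsCompact K₁
    · exact ⟨K₁, h1, hc, by simp [hc]⟩
    · exact ⟨∅, empty_subset _, isCompact_empty, by simp [hc]⟩
  obtain ⟨K₂', h2', h2c, e₂⟩ : ∃ K' ⊆ B, IsCompact K' ∧ (⨆ _ : IsCompact K₂, volume K₂) = volume K' := by
    by_cases hc : IsCompact K₂
    · exact ⟨K₂, h2, hc, by simp [hc]⟩
    · exact ⟨∅, empty_subset _, isCompact_empty, by simp [hc]⟩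
  rw [e₁, e₂]
  exact key _ _ h1' h1c h2' h2c

/-- Normalized one-dimensional Prekopa-Leindler. -/
lemma pl1_normalized {F G H : ℝ → ℝ} (hF : Measurable F) (hG : Measurable G) (hH : Measurable H)
    (F0 : ∀ x, 0 ≤ F x) (G0 : ∀ x, 0 ≤ G x) (H0 : ∀ x, 0 ≤ H x)
    (F1 : ∀ x, F x ≤ 1) (G1 : ∀ x, G x ≤ 1)
    (Fs : ∀ t < 1, ∃ x, t < F x) (Gs : ∀ t < 1, ∃ x, t < G x)
    (hprod : ∀ x z, F x * G z ≤ H ((x + z) / 2) ^ 2) :
    (∫⁻ x, ENNReal.ofReal (F x)) + (∫⁻ x, ENNReal.ofReal (G x)) ≤ 2 * ∫⁻ x, ENNReal.ofReal (H x) := by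
  have hlc : ∀ {f : ℝ → ℝ}, Measurable f → (∀ x, 0 ≤ f x) →
      ∫⁻ x, ENNReal.ofReal (f x) = ∫⁻ t in Ioi 0, volume {a | t < f a} := by
    intro f hf h0
    exact lintegral_eq_lintegral_meas_lt volume (Filter.Eventually.of_forall h0) hf.aemeasurable
  have hIoi : Ioi (0 : ℝ) = Ioo 0 1 ∪ Ici 1 := (Ioo_union_Ici_eq_Ioi (by norm_num)).symm
  have hupper : ∀ {f : ℝ → ℝ}, (∀ x, f x ≤ 1) →
      ∫⁻ t in Ioi 0, volume {a | t < f a} = ∫⁻ t in Ioo 0 1, volume {a | t < f a} := by
    intro f hf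
    rw [hIoi, lintegral_union measurableSet_Ici (by
      rw [Set.disjoint_left]; intro x hx hx'; exact absurd hx.2 (not_lt.mpr hx'))]
    have : ∫⁻ t in Ici (1 : ℝ), volume {a | t < f a} = 0 := by
      rw [← lintegral_zero (μ := volume.restrict (Ici (1 : ℝ)))]
      refine setLIntegral_congr_fun measurableSet_Ici ?_
      intro t ht
      have : {a | t < f a} = ∅ := by
        ext a; simp only [mem_ofPred_eq, mem_empty_iff_false, iff_false, not_lt]
        exact (hf a).trans ht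
      simp [this]
    rw [this, add_zero]
  have hanti : ∀ f : ℝ → ℝ, Measurable (fun t => volume {a | t < f a}) := by
    intro f
    refine Antitone.measurable ?_
    intro s t hst
    apply measure_mono
    intro a ha
    exact lt_of_le_of_lt hst ha
  rw [hlc hF F0, hlc hG G0, hlc hH H0, hupper F1, hupper G1]
  calc (∫⁻ t in Ioo 0 1, volume {a | t < F a}) + (∫⁻ t in Ioo 0 1, volume {a | t < G a})
      = ∫⁻ t in Ioo 0 1, (volume {a | t < F a} + volume {a | t < G a}) := by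
        rw [lintegral_add_left (hanti F)]
    _ ≤ ∫⁻ t in Ioo 0 1, 2 * volume {a | t < H a} := by
        refine setLIntegral_mono' measurableSet_Ioo ?_
        intro t ht
        obtain ⟨x₀, hx₀⟩ := Fs t ht.2
        obtain ⟨z₀, hz₀⟩ := Gs t ht.2
        refine bm_measurable (measurableSet_lt measurable_const hF)
          (measurableSet_lt measurable_const hG) ⟨x₀, hx₀⟩ ⟨z₀, hz₀⟩ ?_
        intro a ha b hb
        simp only [mem_ofPred_eq] at ha hb ⊢
        have h1 := hprod a b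
        have h2 := H0 ((a + b) / 2)
        by_contra hcon
        push Not at hcon
        have h3 : t * t < F a * G b := by
          apply mul_lt_mul'' ha hb ht.1.le ht.1.le
        nlinarith
    _ = 2 * ∫⁻ t in Ioo 0 1, volume {a | t < H a} := by
        rw [lintegral_const_mul _ (hanti H)]
    _ ≤ 2 * ∫⁻ t in Ioi 0, volume {a | t < H a} := by
        gcongr
        exact Ioo_subset_Ioi_self


lemma four_mul_le_sq_add (x y : ℝ≥0∞) : 4 * (x * y) ≤ (x + y) ^ 2 := by
  by_cases hx : x = ∞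
  · subst hx; simp [ENNReal.top_pow]
  by_cases hy : y = ∞
  · subst hy; simp [ENNReal.top_pow]
  lift x to ℝ≥0 using hx
  lift y to ℝ≥0 using hy
  have : (4 : ℝ≥0) * (x * y) ≤ (x + y) ^ 2 := by
    rw [← NNReal.coe_le_coe]
    push_cast
    nlinarith [sq_nonneg ((x : ℝ) - y)]
  exact_mod_cast this

lemma pl1_bdd {f g h : ℝ → ℝ≥0∞} (hf : Measurable f) (hg : Measurable g) (hh : Measurable h)
    {N : ℝ≥0∞} (hN : N ≠ ∞) (hfN : ∀ x, f x ≤ N) (hgN : ∀ x, g x ≤ N)
    (hprod : ∀ x z, f x * g z ≤ h ((x + z) / 2) ^ 2) :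
    (∫⁻ x, f x) * (∫⁻ x, g x) ≤ (∫⁻ x, h x) ^ 2 := by
  set A := ⨆ x, f x with hA
  set B := ⨆ x, g x with hB
  have hAN : A ≤ N := iSup_le hfN
  have hBN : B ≤ N := iSup_le hgN
  have hAtop : A ≠ ∞ := ne_top_of_le_ne_top hN hAN
  have hBtop : B ≠ ∞ := ne_top_of_le_ne_top hN hBN
  have hfA : ∀ x, f x ≤ A := fun x => le_iSup f x
  have hgB : ∀ x, g x ≤ B := fun x => le_iSup g x
  have hfT : ∀ x, f x ≠ ∞ := fun x => ne_top_of_le_ne_top hAtop (hfA x)
  have hgT : ∀ x, g x ≠ ∞ := fun x => ne_top_of_le_ne_top hBtop (hgB x)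
  by_cases hA0 : A = 0
  · have : ∀ x, f x = 0 := fun x => le_antisymm (hA0 ▸ hfA x) bot_le
    simp [this]
  by_cases hB0 : B = 0
  · have : ∀ x, g x = 0 := fun x => le_antisymm (hB0 ▸ hgB x) bot_le
    simp [this]
  set a := A.toReal with ha
  set b := B.toReal with hb
  have ha0 : 0 < a := ENNReal.toReal_pos hA0 hAtop
  have hb0 : 0 < b := ENNReal.toReal_pos hB0 hBtop
  set c := Real.sqrt (a * b) with hc
  have hc0 : 0 < c := Real.sqrt_pos.mpr (mul_pos ha0 hb0)
  have hcsq : c ^ 2 = a * b := Real.sq_sqrt (mul_pos ha0 hb0).le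
  set h' : ℝ → ℝ≥0∞ := fun x => min (h x) (ENNReal.ofReal c) with hh'
  have hh'm : Measurable h' := hh.min measurable_const
  have hh'T : ∀ x, h' x ≠ ∞ := fun x =>
    ne_top_of_le_ne_top ENNReal.ofReal_ne_top (min_le_right _ _)
  set F : ℝ → ℝ := fun x => (f x).toReal / a with hF
  set G : ℝ → ℝ := fun x => (g x).toReal / b with hG
  set H : ℝ → ℝ := fun x => (h' x).toReal / c with hH
  have hsup : ∀ {k : ℝ → ℝ≥0∞} {S : ℝ≥0∞}, S = (⨆ x, k x) → S ≠ ∞ → S ≠ 0 → ∀ t < 1,
      ∃ x, t < (k x).toReal / S.toReal := by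
    intro k S hS hST hS0 t ht
    have hpos : 0 < S.toReal := ENNReal.toReal_pos hS0 hST
    by_cases ht0 : t < 0
    · refine ⟨0, lt_of_lt_of_le ht0 (by positivity)⟩
    · push Not at ht0
      have h1 : ENNReal.ofReal (t * S.toReal) < S := by
        rw [ENNReal.ofReal_lt_iff_lt_toReal (by positivity) hST]
        nlinarith
      have h1' : ENNReal.ofReal (t * S.toReal) < ⨆ x, k x := by rw [← hS]; exact h1
      obtain ⟨x, hx⟩ := lt_iSup_iff.1 h1'
      refine ⟨x, ?_⟩
      have hxT : k x ≠ ∞ := by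
        have h2 : k x ≤ S := by rw [hS]; exact le_iSup k x
        exact ne_top_of_le_ne_top hST h2
      rw [lt_div_iff₀ hpos]
      rwa [ENNReal.ofReal_lt_iff_lt_toReal (by positivity) hxT] at hx
  have key := pl1_normalized (F := F) (G := G) (H := H)
    (hf.ennreal_toReal.div_const a) (hg.ennreal_toReal.div_const b)
    (hh'm.ennreal_toReal.div_const c)
    (fun x => by positivity) (fun x => by positivity) (fun x => by positivity)
    (fun x => (div_le_one ha0).2 (ENNReal.toReal_mono hAtop (hfA x)))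
    (fun x => (div_le_one hb0).2 (ENNReal.toReal_mono hBtop (hgB x)))
    (hsup hA hAtop hA0) (hsup hB hBtop hB0)
    (by
      intro x z
      have h1 : (f x).toReal * (g z).toReal ≤ (h' ((x + z) / 2)).toReal ^ 2 := by
        by_cases hcase : h ((x + z) / 2) ≤ ENNReal.ofReal c
        · have e : h' ((x + z) / 2) = h ((x + z) / 2) := min_eq_left hcase
          rw [e]
          have hT : h ((x + z) / 2) ≠ ∞ := ne_top_of_le_ne_top ENNReal.ofReal_ne_top hcase
          have := ENNReal.toReal_mono (ENNReal.pow_ne_top hT) (hprod x z)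
          rwa [ENNReal.toReal_mul, ENNReal.toReal_pow] at this
        · push Not at hcase
          have e : h' ((x + z) / 2) = ENNReal.ofReal c := min_eq_right hcase.le
          rw [e, ENNReal.toReal_ofReal hc0.le, hcsq]
          exact mul_le_mul (ENNReal.toReal_mono hAtop (hfA x)) (ENNReal.toReal_mono hBtop (hgB z))
            ENNReal.toReal_nonneg ha0.le
      simp only [hF, hG, hH]
      rw [div_pow, hcsq, div_mul_div_comm]
      exact div_le_div_of_nonneg_right h1 (mul_pos ha0 hb0).le)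
  set α := ENNReal.ofReal a⁻¹ with hα
  set β := ENNReal.ofReal b⁻¹ with hβ
  set γ := ENNReal.ofReal c⁻¹ with hγ
  have hofF : ∀ x, ENNReal.ofReal (F x) = α * f x := by
    intro x
    simp only [hF, hα]
    rw [div_eq_inv_mul, ENNReal.ofReal_mul (by positivity), ENNReal.ofReal_toReal (hfT x)]
  have hofG : ∀ x, ENNReal.ofReal (G x) = β * g x := by
    intro x
    simp only [hG, hβ]
    rw [div_eq_inv_mul, ENNReal.ofReal_mul (by positivity), ENNReal.ofReal_toReal (hgT x)]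
  have hofH : ∀ x, ENNReal.ofReal (H x) = γ * h' x := by
    intro x
    simp only [hH, hγ]
    rw [div_eq_inv_mul, ENNReal.ofReal_mul (by positivity), ENNReal.ofReal_toReal (hh'T x)]
  simp only [hofF, hofG, hofH] at key
  rw [lintegral_const_mul _ hf, lintegral_const_mul _ hg, lintegral_const_mul _ hh'm] at key
  set I₁ := ∫⁻ x, f x with hI₁
  set I₂ := ∫⁻ x, g x with hI₂
  set I₃ := ∫⁻ x, h x with hI₃
  have hI₃' : ∫⁻ x, h' x ≤ I₃ := lintegral_mono (fun x => min_le_left _ _)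
  have h2 : α * I₁ + β * I₂ ≤ 2 * (γ * I₃) := by
    refine key.trans ?_
    gcongr
  have h3 : 4 * ((α * I₁) * (β * I₂)) ≤ 4 * (γ ^ 2 * I₃ ^ 2) := by
    calc 4 * ((α * I₁) * (β * I₂)) ≤ (α * I₁ + β * I₂) ^ 2 := four_mul_le_sq_add _ _
      _ ≤ (2 * (γ * I₃)) ^ 2 := by gcongr
      _ = 4 * (γ ^ 2 * I₃ ^ 2) := by ring
  have h4 : (α * I₁) * (β * I₂) ≤ γ ^ 2 * I₃ ^ 2 :=
    (ENNReal.mul_le_mul_iff_right (by norm_num) (by norm_num)).1 h3
  have hγ2 : γ ^ 2 = α * β := by
    simp only [hα, hβ, hγ]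
    rw [← ENNReal.ofReal_mul (by positivity), ← ENNReal.ofReal_pow (by positivity), inv_pow, hcsq,
      mul_inv]
  have hαβ0 : α * β ≠ 0 := by
    simp only [hα, hβ]
    rw [← ENNReal.ofReal_mul (by positivity)]
    simp only [ne_eq, ENNReal.ofReal_eq_zero, not_le]
    positivity
  have hαβT : α * β ≠ ∞ := by
    simp only [hα, hβ]
    rw [← ENNReal.ofReal_mul (by positivity)]
    exact ENNReal.ofReal_ne_top
  rw [hγ2] at h4
  have h5 : (α * β) * (I₁ * I₂) ≤ (α * β) * I₃ ^ 2 := by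
    calc (α * β) * (I₁ * I₂) = (α * I₁) * (β * I₂) := by ring
      _ ≤ _ := h4
  exact (ENNReal.mul_le_mul_iff_right hαβ0 hαβT).1 h5

/-- One-dimensional Prekopa-Leindler in midpoint form. -/
theorem pl1 {f g h : ℝ → ℝ≥0∞} (hf : Measurable f) (hg : Measurable g) (hh : Measurable h)
    (hprod : ∀ x z, f x * g z ≤ h ((x + z) / 2) ^ 2) :
    (∫⁻ x, f x) * (∫⁻ x, g x) ≤ (∫⁻ x, h x) ^ 2 := by
  have hbdd : ∀ n : ℕ, (∫⁻ x, min (f x) (n : ℝ≥0∞)) * (∫⁻ x, min (g x) (n : ℝ≥0∞)) ≤ (∫⁻ x, h x) ^ 2 := by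
    intro n
    refine pl1_bdd (hf.min measurable_const) (hg.min measurable_const) hh
      (N := (n : ℝ≥0∞)) (ENNReal.natCast_ne_top n) (fun x => min_le_right _ _)
      (fun x => min_le_right _ _) ?_
    intro x z
    refine le_trans ?_ (hprod x z)
    gcongr <;> exact min_le_left _ _
  have hlim : ∀ {k : ℝ → ℝ≥0∞}, Measurable k →
      ∫⁻ x, k x = ⨆ n : ℕ, ∫⁻ x, min (k x) (n : ℝ≥0∞) := by
    intro k hk
    rw [← lintegral_iSup (fun n => hk.min measurable_const)]
    · refine lintegral_congr (fun x => ?_)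
      apply le_antisymm
      · by_cases hT : k x = ∞
        · rw [hT]
          simp only [min_eq_right le_top]
          rw [ENNReal.iSup_natCast]
        · obtain ⟨n, hn⟩ := ENNReal.exists_nat_gt hT
          exact le_iSup_of_le n (le_min le_rfl hn.le)
      · exact iSup_le (fun n => min_le_left _ _)
    · intro m n hmn x
      exact min_le_min le_rfl (by exact_mod_cast hmn)
  have hmonoF : ∀ k : ℝ → ℝ≥0∞, Monotone (fun n : ℕ => ∫⁻ x, min (k x) (n : ℝ≥0∞)) := by
    intro k m n hmn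
    exact lintegral_mono (fun x => min_le_min le_rfl (by exact_mod_cast hmn))
  rw [hlim hf, hlim hg, ENNReal.iSup_mul]
  refine iSup_le (fun n => ?_)
  rw [ENNReal.mul_iSup]
  refine iSup_le (fun m => le_trans ?_ (hbdd (max n m)))
  exact mul_le_mul' (hmonoF f (le_max_left n m)) (hmonoF g (le_max_right n m))


/-- Prekopa-Leindler on `ℝⁿ`, midpoint form, for `ℝ≥0∞`-valued functions. -/
theorem pl_pi (n : ℕ) : ∀ {f g h : (Fin n → ℝ) → ℝ≥0∞}, Measurable f → Measurable g → Measurable h →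
    (∀ x z, f x * g z ≤ h ((1 / 2 : ℝ) • (x + z)) ^ 2) →
    (∫⁻ x, f x) * (∫⁻ x, g x) ≤ (∫⁻ x, h x) ^ 2 := by
  induction n with
  | zero =>
    intro f g h hf hg hh hprod
    have e : (volume : Measure (Fin 0 → ℝ)) = Measure.dirac default := by
      rw [volume_pi, Measure.pi_of_empty]
      congr 1
      exact Subsingleton.elim _ _
    rw [e]
    simp only [lintegral_dirac]
    have := hprod default default
    have e2 : (1 / 2 : ℝ) • ((default : Fin 0 → ℝ) + default) = default := Subsingleton.elim _ _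
    rwa [e2] at this
  | succ n ih =>
    intro f g h hf hg hh hprod
    set e := MeasurableEquiv.piFinSuccAbove (fun _ : Fin (n + 1) => ℝ) 0 with he
    have hmp : MeasurePreserving e.symm (volume.prod volume) volume := by
      exact (volume_preserving_piFinSuccAbove (fun _ : Fin (n + 1) => ℝ) 0).symm
    have hint : ∀ {k : (Fin (n + 1) → ℝ) → ℝ≥0∞}, Measurable k →
        ∫⁻ x, k x = ∫⁻ x₀ : ℝ, ∫⁻ x' : Fin n → ℝ, k (e.symm (x₀, x')) := by
      intro k hk
      rw [← hmp.lintegral_comp hk, lintegral_prod _ (by exact (hk.comp e.symm.measurable).aemeasurable)]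
    have hsec : ∀ {k : (Fin (n + 1) → ℝ) → ℝ≥0∞}, Measurable k →
        Measurable (fun x₀ : ℝ => ∫⁻ x' : Fin n → ℝ, k (e.symm (x₀, x'))) := by
      intro k hk
      exact (hk.comp e.symm.measurable).lintegral_prod_right'
    rw [hint hf, hint hg, hint hh]
    refine pl1 (hsec hf) (hsec hg) (hsec hh) ?_
    intro x₀ z₀
    have hsm : ∀ {k : (Fin (n + 1) → ℝ) → ℝ≥0∞}, Measurable k → ∀ x₀ : ℝ,
        Measurable (fun x' : Fin n → ℝ => k (e.symm (x₀, x'))) := by
      intro k hk x₀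
      exact hk.comp (e.symm.measurable.comp measurable_prodMk_left)
    refine ih (hsm hf x₀) (hsm hg z₀) (hsm hh _) ?_
    intro x' z'
    have := hprod (e.symm (x₀, x')) (e.symm (z₀, z'))
    have e2 : (1 / 2 : ℝ) • (e.symm (x₀, x') + e.symm (z₀, z'))
        = e.symm ((x₀ + z₀) / 2, (1 / 2 : ℝ) • (x' + z')) := by
      ext i
      refine Fin.cases ?_ (fun j => ?_) i
      · simp [he, MeasurableEquiv.piFinSuccAbove]
        ring
      · simp [he, MeasurableEquiv.piFinSuccAbove]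
        ring
    rwa [e2] at this

/-- Prekopa-Leindler on `Eu d`, midpoint form, for `ℝ≥0∞`-valued functions. -/
theorem pl_eu {d : ℕ} {f g h : Eu d → ℝ≥0∞} (hf : Measurable f) (hg : Measurable g)
    (hh : Measurable h) (hprod : ∀ x z, f x * g z ≤ h ((1 / 2 : ℝ) • (x + z)) ^ 2) :
    (∫⁻ x, f x) * (∫⁻ x, g x) ≤ (∫⁻ x, h x) ^ 2 := by
  have hmp := PiLp.volume_preserving_toLp (Fin d)
  have hint : ∀ {k : Eu d → ℝ≥0∞}, Measurable k →
      ∫⁻ x, k x = ∫⁻ x : Fin d → ℝ, k (WithLp.toLp 2 x) := by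
    intro k hk
    exact (hmp.lintegral_comp hk).symm
  rw [hint hf, hint hg, hint hh]
  refine pl_pi d (hf.comp hmp.measurable) (hg.comp hmp.measurable) (hh.comp hmp.measurable) ?_
  intro x z
  have := hprod (WithLp.toLp 2 x) (WithLp.toLp 2 z)
  simpa using this

/-- Prekopa-Leindler on `Eu d` for real-valued integrable functions. -/
theorem pl_real {d : ℕ} {f g h : Eu d → ℝ} (hfm : Measurable f) (hgm : Measurable g)
    (hhm : Measurable h) (hf : Integrable f) (hg : Integrable g) (hh : Integrable h)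
    (f0 : ∀ x, 0 ≤ f x) (g0 : ∀ x, 0 ≤ g x) (h0 : ∀ x, 0 ≤ h x)
    (hprod : ∀ x z, f x * g z ≤ h ((1 / 2 : ℝ) • (x + z)) ^ 2) :
    (∫ x, f x) * (∫ x, g x) ≤ (∫ x, h x) ^ 2 := by
  have key := pl_eu (f := fun x => ENNReal.ofReal (f x)) (g := fun x => ENNReal.ofReal (g x))
    (h := fun x => ENNReal.ofReal (h x)) hfm.ennreal_ofReal hgm.ennreal_ofReal hhm.ennreal_ofReal (by
      intro x z
      rw [← ENNReal.ofReal_mul (f0 x), ← ENNReal.ofReal_pow (h0 _)]
      exact ENNReal.ofReal_le_ofReal (hprod x z))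
  rw [← ofReal_integral_eq_lintegral_ofReal hf (ae_of_all _ f0),
    ← ofReal_integral_eq_lintegral_ofReal hg (ae_of_all _ g0),
    ← ofReal_integral_eq_lintegral_ofReal hh (ae_of_all _ h0)] at key
  have hI1 : 0 ≤ ∫ x, f x := integral_nonneg f0
  have hI2 : 0 ≤ ∫ x, g x := integral_nonneg g0
  have hI3 : 0 ≤ ∫ x, h x := integral_nonneg h0
  rw [← ENNReal.ofReal_mul hI1, ← ENNReal.ofReal_pow hI3,
    ENNReal.ofReal_le_ofReal_iff (by positivity)] at key
  exact key

end Vale.Agent.P074
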