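import Vale.Agent.P074.Defs

open MeasureTheory Set Metric
open scoped ENNReal NNReal

namespace Vale.Agent.P074

variable {d : ℕ} {ι : Type*} [Fintype ι]

/-- Piecewise translation: on `B j` translate by `a j`, identity off the union. -/
noncomputable def pw (B : ι → Set (Eu d)) (a : ι → Eu d) (x : Eu d) : Eu d :=
  x + ∑ j, (B j).indicator (fun _ => a j) x

lemma pw_of_mem {B : ι → Set (Eu d)} (a : ι → Eu d) (hdisj : Pairwise (Function.onFun Disjoint B))
    {i : ι} {x : Eu d} (hx : x ∈ B i) : pw B a x = x + a i := by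
  classical
  unfold pw
  congr 1
  rw [Finset.sum_eq_single i]
  · simp [hx]
  · intro j _ hj
    have : x ∉ B j := fun hxj => (Set.disjoint_left.1 (hdisj hj) hxj) hx
    simp [this]
  · simp

lemma pw_of_notMem {B : ι → Set (Eu d)} (a : ι → Eu d) {x : Eu d} (hx : ∀ j, x ∉ B j) :
    pw B a x = x := by
  unfold pw
  simp [hx]

lemma measurable_pw {B : ι → Set (Eu d)} (a : ι → Eu d) (hB : ∀ j, MeasurableSet (B j)) :
    Measurable (pw B a) := by
  unfold pw
  refine measurable_id.add ?_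
  refine Finset.measurable_sum _ fun j _ => ?_
  exact measurable_const.indicator (hB j)

/-- A finite disjoint family inside `K`: splitting the volume of `S ∩ K`. -/
lemma volume_inter_split {B : ι → Set (Eu d)} {K S : Set (Eu d)} (hS : MeasurableSet S)
    (hK : MeasurableSet K)
    (hdisj : Pairwise (Function.onFun Disjoint B)) (hB : ∀ j, MeasurableSet (B j))
    (hsub : ∀ j, B j ⊆ K) :
    volume (S ∩ K) = ∑ j, volume (S ∩ B j) + volume (S ∩ (K \ ⋃ j, B j)) := by
  have hU : MeasurableSet (⋃ j, B j) := MeasurableSet.iUnion hB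
  have hsplit : S ∩ K = (⋃ j, S ∩ B j) ∪ (S ∩ (K \ ⋃ j, B j)) := by
    ext x
    simp only [mem_inter_iff, mem_union, mem_iUnion, mem_sdiff, not_exists]
    constructor
    · rintro ⟨hxS, hxK⟩
      by_cases h : ∃ j, x ∈ B j
      · obtain ⟨j, hj⟩ := h
        exact Or.inl ⟨j, hxS, hj⟩
      · push Not at h
        exact Or.inr ⟨hxS, hxK, h⟩
    · rintro (⟨j, hxS, hj⟩ | ⟨hxS, hxK, _⟩)
      · exact ⟨hxS, hsub j hj⟩
      · exact ⟨hxS, hxK⟩
  have hdisj2 : Disjoint (⋃ j, S ∩ B j) (S ∩ (K \ ⋃ j, B j)) := by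
    rw [Set.disjoint_left]
    intro x hx hx2
    obtain ⟨j, _, hj⟩ := mem_iUnion.1 hx
    exact hx2.2.2 (mem_iUnion.2 ⟨j, hj⟩)
  rw [hsplit, measure_union hdisj2 (hS.inter (hK.diff hU)),
    measure_iUnion (fun i j hij => ?_) (fun j => hS.inter (hB j)), tsum_fintype]
  exact (hdisj hij).mono inter_subset_right inter_subset_right

/-- A piecewise translation permuting the pieces preserves Lebesgue measure on `K`. -/
lemma map_pw {B : ι → Set (Eu d)} {K : Set (Eu d)} (hK : MeasurableSet K)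
    (hdisj : Pairwise (Function.onFun Disjoint B)) (hB : ∀ j, MeasurableSet (B j))
    (hsub : ∀ j, B j ⊆ K) (τ : Equiv.Perm ι) (a : ι → Eu d)
    (hτ : ∀ j x, x ∈ B j ↔ x + a j ∈ B (τ j)) :
    Measure.map (pw B a) (volume.restrict K) = volume.restrict K := by
  have hpm := measurable_pw a hB
  ext A hA
  rw [Measure.map_apply hpm hA, Measure.restrict_apply (hpm hA), Measure.restrict_apply hA,
    volume_inter_split (hpm hA) hK hdisj hB hsub, volume_inter_split hA hK hdisj hB hsub]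
  congr 1
  · rw [← Equiv.sum_comp τ (fun j => volume (A ∩ B j))]
    refine Finset.sum_congr rfl fun j _ => ?_
    have : pw B a ⁻¹' A ∩ B j = (fun x => x + a j) ⁻¹' (A ∩ B (τ j)) := by
      ext x
      simp only [mem_inter_iff, mem_preimage]
      constructor
      · rintro ⟨h1, h2⟩
        rw [pw_of_mem a hdisj h2] at h1
        exact ⟨h1, (hτ j x).1 h2⟩
      · rintro ⟨h1, h2⟩
        have h3 := (hτ j x).2 h2
        rw [pw_of_mem a hdisj h3]
        exact ⟨h1, h3⟩
    rw [this, measure_preimage_add_right]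
  · congr 1
    ext x
    simp only [mem_inter_iff, mem_preimage, mem_sdiff, mem_iUnion, not_exists]
    constructor
    · rintro ⟨h1, h2, h3⟩
      rw [pw_of_notMem a h3] at h1
      exact ⟨h1, h2, h3⟩
    · rintro ⟨h1, h2, h3⟩
      rw [pw_of_notMem a h3]
      exact ⟨h1, h2, h3⟩

lemma pw_pw {B : ι → Set (Eu d)} (hdisj : Pairwise (Function.onFun Disjoint B))
    (τ : Equiv.Perm ι) (a : ι → Eu d) (b : ι → Eu d)
    (hτ : ∀ j x, x ∈ B j ↔ x + a j ∈ B (τ j)) (hab : ∀ j, b (τ j) = - a j)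
    (hB0 : ∀ x, (∀ j, x ∉ B j) → ∀ j, x ∉ B j) (x : Eu d) :
    pw B b (pw B a x) = x := by
  by_cases h : ∃ j, x ∈ B j
  · obtain ⟨j, hj⟩ := h
    rw [pw_of_mem a hdisj hj, pw_of_mem b hdisj ((hτ j x).1 hj), hab]
    abel
  · push Not at h
    rw [pw_of_notMem a h, pw_of_notMem b h]

end Vale.Agent.P074
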