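import Vale.Agent.P074.Discretize

open MeasureTheory Set Metric Filter Topology
open scoped ENNReal NNReal

set_option linter.unusedSectionVars false

namespace Vale.Agent.P074

variable {d : ℕ}

lemma W1_le_of_map {π : Measure (Eu d × Eu d)} [IsProbabilityMeasure π] {f G : Eu d × Eu d → Eu d}
    (hf : Measurable f) (hG : Measurable G) {θ : ℝ} (h : ∀ᵐ p ∂π, ‖f p - G p‖ ≤ θ) :
    W1 (Measure.map f π) (Measure.map G π) ≤ ENNReal.ofReal θ := by
  unfold W1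
  set Φ : Eu d × Eu d → Eu d × Eu d := fun p => (f p, G p) with hΦd
  have hΦ : Measurable Φ := hf.prodMk hG
  refine iInf₂_le_of_le (Measure.map Φ π) ⟨?_, ?_⟩ ?_
  · rw [Measure.map_map measurable_fst hΦ]; rfl
  · rw [Measure.map_map measurable_snd hΦ]; rfl
  · have hmeas : Measurable (fun p : Eu d × Eu d => ‖p.1 - p.2‖ₑ) :=
      (measurable_fst.sub measurable_snd).enorm
    rw [lintegral_map hmeas hΦ]
    calc ∫⁻ p, ‖(Φ p).1 - (Φ p).2‖ₑ ∂π ≤ ∫⁻ _, ENNReal.ofReal θ ∂π := by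
          refine lintegral_mono_ae (h.mono fun p hp => ?_)
          simp only [hΦd]
          rw [← ofReal_norm]
          exact ENNReal.ofReal_le_ofReal hp
      _ = ENNReal.ofReal θ := by simp

/-- The constant of the finite core estimate. -/
noncomputable def Cf (d : ℕ) (R R' c : ℝ) : ℝ :=
  d * (9 * (4 * R ^ 2 * (1 + (26 * R) ^ 2 / R ^ 2)) + 24 * R' ^ 2 * c)

/-- The estimate given one coupling. -/
theorem one_coupling {K : Set (Eu d)} (hK : IsCompact K) (h0 : volume K ≠ 0) (hconv : Convex ℝ K)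
    (hint : (interior K).Nonempty) {R : ℝ} (hR : 0 < R) (hKR : ∀ x ∈ K, ‖x‖ ≤ R)
    {c : ℝ} (hc : ∀ h : Eu d, (volume (K \ {x | x + h ∈ K})).toReal ≤ c * ‖h‖)
    {R' : ℝ} {Y : Set (Eu d)} (hYc : IsCompact Y) (hYne : Y.Nonempty) (hYR : ∀ y ∈ Y, ‖y‖ ≤ R')
    {C₁ : ℝ≥0}
    (hC₁ : ∀ μ ν : Measure (Eu d), IsProbabilityMeasure μ → IsProbabilityMeasure ν →
      μ (closedBall 0 R')ᶜ = 0 → ν (closedBall 0 R')ᶜ = 0 →
      ∀ Tμ Tν : Eu d → Eu d, IsOptimalMap (unif K) μ Tμ → IsOptimalMap (unif K) ν Tν →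
        eLpNorm (fun x => Tμ x - Tν x) 2 (unif K) ≤ (C₁ : ℝ≥0∞) * W1 μ ν ^ (1 / 4 : ℝ))
    {μ ν : Measure (Eu d)} [IsProbabilityMeasure μ] [IsProbabilityMeasure ν] (hμ : μ Yᶜ = 0)
    (hν : ν Yᶜ = 0) {Tμ Tν : Eu d → Eu d} (hTμ : IsOptimalMap (unif K) μ Tμ)
    (hTν : IsOptimalMap (unif K) ν Tν) {π : Measure (Eu d × Eu d)} (hπ₁ : π.map Prod.fst = μ)
    (hπ₂ : π.map Prod.snd = ν) {θ : ℝ} (hθ : 0 < θ) {cπ : ℝ} (hcπ0 : 0 ≤ cπ)
    (hcπ : ∫⁻ p, ‖p.1 - p.2‖ₑ ^ (2 : ℕ) ∂π ≤ ENNReal.ofReal cπ) :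
    eLpNorm (fun x => Tμ x - Tν x) 2 (unif K) ≤ (C₁ : ℝ≥0∞) * ENNReal.ofReal (2 * θ) ^ (1 / 4 : ℝ)
      + ENNReal.ofReal (Real.sqrt ((volume.real K)⁻¹ *
          (Cf d R R' c * (volume.real K * (2 * cπ + 8 * θ ^ 2)) ^ (1 / 3 : ℝ))))
      + (C₁ : ℝ≥0∞) * ENNReal.ofReal (2 * θ) ^ (1 / 4 : ℝ) := by
  classical
  have htop : volume K ≠ ∞ := hK.measure_lt_top.ne
  have hKm : MeasurableSet K := hK.measurableSet
  set V := volume.real K with hV
  have hV0 : 0 < V := ENNReal.toReal_pos h0 htop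
  have hR'0 : 0 ≤ R' := by
    obtain ⟨y, hy⟩ := hYne
    exact (norm_nonneg y).trans (hYR y hy)
  -- the coupling is a probability measure, concentrated on `Y × Y`
  have hπprob : IsProbabilityMeasure π := by
    constructor
    have hm : (π.map Prod.fst) univ = π univ := by
      rw [Measure.map_apply measurable_fst MeasurableSet.univ]
      simp
    rw [← hm, hπ₁]
    exact measure_univ
  have hYm : MeasurableSet Y := hYc.measurableSet
  have hae₁ : ∀ᵐ p ∂π, p.1 ∈ Y := by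
    have h1 : π (Prod.fst ⁻¹' Yᶜ) = 0 := by
      rw [← Measure.map_apply measurable_fst hYm.compl, hπ₁]
      exact hμ
    have := measure_eq_zero_iff_ae_notMem.1 h1
    filter_upwards [this] with p hp
    simpa using hp
  have hae₂ : ∀ᵐ p ∂π, p.2 ∈ Y := by
    have h1 : π (Prod.snd ⁻¹' Yᶜ) = 0 := by
      rw [← Measure.map_apply measurable_snd hYm.compl, hπ₂]
      exact hν
    have := measure_eq_zero_iff_ae_notMem.1 h1
    filter_upwards [this] with p hp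
    simpa using hp
  obtain ⟨ι, hιf, hιn, lab, u, v, hlabm, hlabpos, huv, huvY, hlabae⟩ :=
    discretize hYc hYne hae₁ hae₂ hθ
  -- the masses
  set pi : ι → ℝ := fun i => (π (lab ⁻¹' {i})).toReal with hpi
  have hpi0 : ∀ i, 0 < pi i := fun i =>
    ENNReal.toReal_pos (hlabpos i).ne' (measure_ne_top _ _)
  have hsumπ : ∑ i, π (lab ⁻¹' {i}) = 1 := by
    rw [← measure_biUnion_finset (fun i _ j _ hij => by
      refine Set.disjoint_left.2 ?_
      intro x hx hx'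
      exact hij (hx.symm.trans hx')) (fun i _ => hlabm i)]
    have : ⋃ i ∈ (Finset.univ : Finset ι), lab ⁻¹' {i} = univ := by
      ext x; simp
    rw [this]
    exact measure_univ
  have hsumpi : ∑ i, pi i = 1 := by
    simp only [hpi]
    rw [← ENNReal.toReal_sum (fun i _ => measure_ne_top _ _), hsumπ]
    simp
  set m : ι → ℝ := fun i => V * pi i with hm
  have hm0 : ∀ i, 0 < m i := fun i => mul_pos hV0 (hpi0 i)
  have hsumm : ∑ i, m i = V := by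
    simp only [hm]
    rw [← Finset.mul_sum, hsumpi, mul_one]
  -- the interpolation
  set Ys : ℝ → ι → Eu d := fun s i => u i + s • (v i - u i) with hYs
  have hbad : ({s : ℝ | Function.Injective (Ys s)}ᶜ).Finite := bad_finite_pair huv
  set ξ := min (1 / 2) (θ / (2 * R' + 1)) with hξ
  have hξ0 : 0 < ξ := lt_min (by norm_num) (by positivity)
  have hξ1 : ξ ≤ 1 / 2 := min_le_left _ _
  have hξ2 : ξ * (2 * R') ≤ θ := by
    have h1 : ξ ≤ θ / (2 * R' + 1) := min_le_right _ _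
    have h2 : ξ * (2 * R' + 1) ≤ θ := by
      rwa [le_div_iff₀ (by positivity)] at h1
    nlinarith
  obtain ⟨s₀, hs₀, hs₀G⟩ : ((Ioo 0 ξ) \ {s : ℝ | Function.Injective (Ys s)}ᶜ).Nonempty :=
    ((Ioo_infinite hξ0).sdiff hbad).nonempty
  obtain ⟨s₁, hs₁, hs₁G⟩ : ((Ioo (1 - ξ) 1) \ {s : ℝ | Function.Injective (Ys s)}ᶜ).Nonempty :=
    ((Ioo_infinite (by linarith)).sdiff hbad).nonempty
  have hY₀ : Function.Injective (Ys s₀) := not_not.mp hs₀G
  have hY₁ : Function.Injective (Ys s₁) := not_not.mp hs₁G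
  have hYb : ∀ s : ℝ, 0 ≤ s → s ≤ 1 → ∀ i, ‖Ys s i‖ ≤ R' := by
    intro s hs0 hs1 i
    have e : Ys s i = (1 - s) • u i + s • v i := by
      simp only [hYs, smul_sub, sub_smul, one_smul]
      abel
    rw [e]
    have h1 := norm_add_le ((1 - s) • u i) (s • v i)
    rw [norm_smul, norm_smul, Real.norm_of_nonneg (by linarith : 0 ≤ 1 - s),
      Real.norm_of_nonneg hs0] at h1
    have h2 := hYR _ (huvY i).1
    have h3 := hYR _ (huvY i).2
    have h4 : (1 - s) * ‖u i‖ ≤ (1 - s) * R' := mul_le_mul_of_nonneg_left h2 (by linarith)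
    have h5 : s * ‖v i‖ ≤ s * R' := mul_le_mul_of_nonneg_left h3 hs0
    nlinarith
  have hs₀0 : 0 ≤ s₀ := hs₀.1.le
  have hs₀1 : s₀ ≤ 1 := by linarith [hs₀.2]
  have hs₁0 : 0 ≤ s₁ := by linarith [hs₁.1]
  have hs₁1 : s₁ ≤ 1 := hs₁.2.le
  -- the duals and the maps
  obtain ⟨ψ₀, hd₀⟩ := exists_dual hK hY₀ hm0 hsumm
  obtain ⟨ψ₁, hd₁⟩ := exists_dual hK hY₁ hm0 hsumm
  obtain ⟨ℓ₀, hℓ₀, hℓ₀m⟩ := exists_label (Ys s₀) ψ₀
  obtain ⟨ℓ₁, hℓ₁, hℓ₁m⟩ := exists_label (Ys s₁) ψ₁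
  set T₀ : Eu d → Eu d := fun x => Ys s₀ (ℓ₀ x) with hT₀
  set T₁ : Eu d → Eu d := fun x => Ys s₁ (ℓ₁ x) with hT₁
  have hopt₀ : IsOptimalMap (unif K) (Measure.map T₀ (unif K)) T₀ :=
    cell_map_optimal hK h0 hY₀ hℓ₀ hℓ₀m
  have hopt₁ : IsOptimalMap (unif K) (Measure.map T₁ (unif K)) T₁ :=
    cell_map_optimal hK h0 hY₁ hℓ₁ hℓ₁m
  have hρprob : IsProbabilityMeasure (unif K) := isProbabilityMeasure_unif h0 htop hKm
  have hfib : ∀ (Y' : ι → Eu d) (ψ' : ι → ℝ) (ℓ' : Eu d → ι), Function.Injective Y' →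
      (∀ x, x ∈ ucell Y' ψ' (ℓ' x)) → (∀ i, MeasurableSet (ℓ' ⁻¹' {i})) → IsDualW K Y' ψ' m →
      ∀ i, π (lab ⁻¹' {i}) = unif K (ℓ' ⁻¹' {i}) := by
    intro Y' ψ' ℓ' hY' hℓ' hℓ'm hd' i
    rw [unif_fiber hK hY' hℓ' hℓ'm hd' hm0 i]
    have e : m i / volume.real K = pi i := by
      rw [← hV]
      simp only [hm]
      field_simp
    rw [e]
    simp only [hpi]
    rw [ENNReal.ofReal_toReal (measure_ne_top _ _)]
  have hmap₀ : Measure.map T₀ (unif K) = Measure.map (fun p => Ys s₀ (lab p)) π :=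
    (map_eq_of_fibers hlabm hℓ₀m (hfib _ ψ₀ ℓ₀ hY₀ hℓ₀ hℓ₀m hd₀) (Ys s₀)).symm
  have hmap₁ : Measure.map T₁ (unif K) = Measure.map (fun p => Ys s₁ (lab p)) π :=
    (map_eq_of_fibers hlabm hℓ₁m (hfib _ ψ₁ ℓ₁ hY₁ hℓ₁ hℓ₁m hd₁) (Ys s₁)).symm
  -- the approximation in `W₁`
  have hW₀ : W1 μ (Measure.map T₀ (unif K)) ≤ ENNReal.ofReal (2 * θ) := by
    rw [hmap₀, ← hπ₁]
    refine W1_le_of_map measurable_fst (measurable_comp_fiber hlabm (Ys s₀)) ?_
    filter_upwards [hlabae, hae₁] with p hp h1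
    have hvb := hYR _ (huvY (lab p)).2
    have hub := hYR _ (huvY (lab p)).1
    have e : p.1 - Ys s₀ (lab p) = (p.1 - u (lab p)) - s₀ • (v (lab p) - u (lab p)) := by
      simp only [hYs]
      abel
    rw [e]
    have h2 := norm_sub_le (p.1 - u (lab p)) (s₀ • (v (lab p) - u (lab p)))
    rw [norm_smul, Real.norm_of_nonneg hs₀0] at h2
    have h3 : ‖v (lab p) - u (lab p)‖ ≤ 2 * R' := by
      have := norm_sub_le (v (lab p)) (u (lab p))
      linarith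
    have h4 : s₀ * ‖v (lab p) - u (lab p)‖ ≤ ξ * (2 * R') :=
      mul_le_mul hs₀.2.le h3 (norm_nonneg _) hξ0.le
    linarith [hp.1]
  have hW₁ : W1 (Measure.map T₁ (unif K)) ν ≤ ENNReal.ofReal (2 * θ) := by
    rw [hmap₁, ← hπ₂]
    refine W1_le_of_map (measurable_comp_fiber hlabm (Ys s₁)) measurable_snd ?_
    filter_upwards [hlabae, hae₂] with p hp h1
    have hvb := hYR _ (huvY (lab p)).2
    have hub := hYR _ (huvY (lab p)).1
    have e : Ys s₁ (lab p) - p.2 = (1 - s₁) • (u (lab p) - v (lab p)) - (p.2 - v (lab p)) := by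
      simp only [hYs, smul_sub, sub_smul, one_smul]
      abel
    rw [e]
    have h2 := norm_sub_le ((1 - s₁) • (u (lab p) - v (lab p))) (p.2 - v (lab p))
    rw [norm_smul, Real.norm_of_nonneg (by linarith : 0 ≤ 1 - s₁)] at h2
    have h3 : ‖u (lab p) - v (lab p)‖ ≤ 2 * R' := by
      have := norm_sub_le (u (lab p)) (v (lab p))
      linarith
    have h4 : (1 - s₁) * ‖u (lab p) - v (lab p)‖ ≤ ξ * (2 * R') :=
      mul_le_mul (by linarith [hs₁.1]) h3 (norm_nonneg _) hξ0.le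
    linarith [hp.2]
  -- the application of the first estimate
  have hT₀m : Measurable T₀ := hopt₀.1
  have hT₁m : Measurable T₁ := hopt₁.1
  have hball : ∀ μ' : Measure (Eu d), μ' Yᶜ = 0 → μ' (closedBall 0 R')ᶜ = 0 := by
    intro μ' h
    refine measure_mono_null ?_ h
    intro x hx hxY
    apply hx
    rw [mem_closedBall, dist_zero_right]
    exact hYR x hxY
  have hsupp : ∀ (s : ℝ) (ℓ' : Eu d → ι), 0 ≤ s → s ≤ 1 → (∀ i, MeasurableSet (ℓ' ⁻¹' {i})) →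
      (Measure.map (fun x => Ys s (ℓ' x)) (unif K)) (closedBall 0 R')ᶜ = 0 := by
    intro s ℓ' hs0 hs1 hℓ'm
    rw [Measure.map_apply (measurable_comp_fiber hℓ'm (Ys s)) measurableSet_closedBall.compl]
    have : (fun x => Ys s (ℓ' x)) ⁻¹' (closedBall 0 R')ᶜ = ∅ := by
      ext x
      simp only [mem_preimage, mem_compl_iff, mem_closedBall, dist_zero_right, mem_empty_iff_false,
        iff_false, not_not]
      exact hYb s hs0 hs1 _
    rw [this]
    simp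
  have hprob₀ : IsProbabilityMeasure (Measure.map T₀ (unif K)) :=
    Measure.isProbabilityMeasure_map hT₀m.aemeasurable
  have hprob₁ : IsProbabilityMeasure (Measure.map T₁ (unif K)) :=
    Measure.isProbabilityMeasure_map hT₁m.aemeasurable
  have he₀ : eLpNorm (fun x => Tμ x - T₀ x) 2 (unif K)
      ≤ (C₁ : ℝ≥0∞) * ENNReal.ofReal (2 * θ) ^ (1 / 4 : ℝ) := by
    refine (hC₁ μ _ inferInstance hprob₀ (hball μ hμ) (hsupp s₀ ℓ₀ hs₀0 hs₀1 hℓ₀m) Tμ T₀ hTμ hopt₀).trans ?_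
    gcongr
  have he₁ : eLpNorm (fun x => T₁ x - Tν x) 2 (unif K)
      ≤ (C₁ : ℝ≥0∞) * ENNReal.ofReal (2 * θ) ^ (1 / 4 : ℝ) := by
    refine (hC₁ _ ν hprob₁ inferInstance (hsupp s₁ ℓ₁ hs₁0 hs₁1 hℓ₁m) (hball ν hν) T₁ Tν hopt₁ hTν).trans ?_
    gcongr
  -- the displacement
  set f : ι → ℝ := fun i => ‖v i - u i‖ ^ 2 with hf
  have hf0 : ∀ i, 0 ≤ f i := fun i => sq_nonneg _
  have hsumf : ∑ i, pi i * f i ≤ 2 * cπ + 8 * θ ^ 2 := by
    have hrhs : 0 ≤ 2 * cπ + 8 * θ ^ 2 := by positivity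
    rw [← ENNReal.ofReal_le_ofReal_iff hrhs]
    have e1 : ENNReal.ofReal (∑ i, pi i * f i) = ∑ i, ENNReal.ofReal (f i) * π (lab ⁻¹' {i}) := by
      rw [ENNReal.ofReal_sum_of_nonneg (fun i _ => mul_nonneg (hpi0 i).le (hf0 i))]
      refine Finset.sum_congr rfl (fun i _ => ?_)
      rw [ENNReal.ofReal_mul (hpi0 i).le, mul_comm]
      simp only [hpi]
      rw [ENNReal.ofReal_toReal (measure_ne_top _ _)]
    have e2 : ∫⁻ p, ENNReal.ofReal (f (lab p)) ∂π = ∑ i, ENNReal.ofReal (f i) * π (lab ⁻¹' {i}) := by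
      have hU : (⋃ i, lab ⁻¹' {i}) = univ := by
        ext x; simp
      rw [← setLIntegral_univ, ← hU, lintegral_iUnion hlabm (fun i j hij => by
        refine Set.disjoint_left.2 ?_
        intro x hx hx'
        exact hij (hx.symm.trans hx')), tsum_fintype]
      refine Finset.sum_congr rfl (fun i _ => ?_)
      have h3 : ∫⁻ p in lab ⁻¹' {i}, ENNReal.ofReal (f (lab p)) ∂π
          = ∫⁻ _ in lab ⁻¹' {i}, ENNReal.ofReal (f i) ∂π := by
        refine setLIntegral_congr_fun (hlabm i) ?_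
        intro p hp
        have hp' : lab p = i := hp
        simp only [hp']
      rw [h3, setLIntegral_const]
    have e3 : ∫⁻ p, ENNReal.ofReal (f (lab p)) ∂π
        ≤ ∫⁻ p, (2 * ‖p.1 - p.2‖ₑ ^ (2 : ℕ) + ENNReal.ofReal (8 * θ ^ 2)) ∂π := by
      refine lintegral_mono_ae ?_
      filter_upwards [hlabae] with p hp
      rw [enorm_sq_eq']
      have h1 : ‖v (lab p) - u (lab p)‖ ≤ ‖p.1 - p.2‖ + 2 * θ := by
        have e' : v (lab p) - u (lab p) = (p.1 - u (lab p)) - (p.1 - p.2) - (p.2 - v (lab p)) := by abel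
        rw [e']
        have h2 := norm_sub_le ((p.1 - u (lab p)) - (p.1 - p.2)) (p.2 - v (lab p))
        have h3 := norm_sub_le (p.1 - u (lab p)) (p.1 - p.2)
        linarith [hp.1, hp.2]
      have h2 : f (lab p) ≤ 2 * ‖p.1 - p.2‖ ^ 2 + 8 * θ ^ 2 := by
        simp only [hf]
        have h3 : ‖v (lab p) - u (lab p)‖ ^ 2 ≤ (‖p.1 - p.2‖ + 2 * θ) ^ 2 :=
          pow_le_pow_left₀ (norm_nonneg _) h1 2
        nlinarith [sq_nonneg (‖p.1 - p.2‖ - 2 * θ)]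
      refine (ENNReal.ofReal_le_ofReal h2).trans (le_of_eq ?_)
      rw [ENNReal.ofReal_add (by positivity) (by positivity), ENNReal.ofReal_mul (by norm_num)]
      simp
    have hmeas : Measurable (fun p : Eu d × Eu d => ‖p.1 - p.2‖ₑ ^ (2 : ℕ)) :=
      (measurable_fst.sub measurable_snd).enorm.pow_const 2
    have e4 : ∫⁻ p, (2 * ‖p.1 - p.2‖ₑ ^ (2 : ℕ) + ENNReal.ofReal (8 * θ ^ 2)) ∂π
        = 2 * (∫⁻ p, ‖p.1 - p.2‖ₑ ^ (2 : ℕ) ∂π) + ENNReal.ofReal (8 * θ ^ 2) := by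
      rw [lintegral_add_right _ measurable_const, lintegral_const_mul _ hmeas]
      simp
    rw [e1, ← e2]
    refine e3.trans ?_
    have e6 : ENNReal.ofReal (2 * cπ) = 2 * ENNReal.ofReal cπ := by
      rw [ENNReal.ofReal_mul (by norm_num)]
      simp
    rw [e4, ENNReal.ofReal_add (by positivity) (by positivity), e6]
    gcongr
  have hcoef : 0 < V * (2 * cπ + 8 * θ ^ 2) := by positivity
  set t := (V * (2 * cπ + 8 * θ ^ 2)) ^ (1 / 3 : ℝ) with ht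
  have ht0 : 0 < t := Real.rpow_pos_of_pos hcoef _
  have ht3 : t ^ 3 = V * (2 * cπ + 8 * θ ^ 2) := by
    rw [ht, ← Real.rpow_natCast, ← Real.rpow_mul hcoef.le]
    norm_num
  have hW : ∑ i, m i * ‖Ys s₁ i - Ys s₀ i‖ ^ 2 ≤ t ^ 3 := by
    rw [ht3]
    have h1 : ∀ i, m i * ‖Ys s₁ i - Ys s₀ i‖ ^ 2 ≤ V * (pi i * f i) := by
      intro i
      have e : Ys s₁ i - Ys s₀ i = (s₁ - s₀) • (v i - u i) := by
        simp only [hYs, sub_smul]
        abel
      rw [e, norm_smul, mul_pow, Real.norm_eq_abs, sq_abs]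
      have h2 : (s₁ - s₀) ^ 2 ≤ 1 := by
        have h3 : -1 ≤ s₁ - s₀ := by linarith
        have h4 : s₁ - s₀ ≤ 1 := by linarith
        nlinarith
      have h5 : 0 ≤ V * (pi i * f i) := mul_nonneg hV0.le (mul_nonneg (hpi0 i).le (hf0 i))
      calc m i * ((s₁ - s₀) ^ 2 * ‖v i - u i‖ ^ 2) = (s₁ - s₀) ^ 2 * (V * (pi i * f i)) := by
            simp only [hm, hf]; ring
        _ ≤ 1 * (V * (pi i * f i)) := mul_le_mul_of_nonneg_right h2 h5
        _ = _ := one_mul _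
    refine (Finset.sum_le_sum fun i _ => h1 i).trans ?_
    rw [← Finset.mul_sum]
    exact mul_le_mul_of_nonneg_left hsumf hV0.le
  have hfc := finite_core hK hconv hint hR hKR hc hY₀ hY₁ (hYb s₀ hs₀0 hs₀1) (hYb s₁ hs₁0 hs₁1)
    hd₀ hd₁ hm0 hℓ₀ hℓ₁ hℓ₀m hℓ₁m ht0 hW
  have hbd : ∀ x, ‖T₀ x - T₁ x‖ ≤ 2 * R' := by
    intro x
    have h1 := norm_sub_le (T₀ x) (T₁ x)
    have h2 := hYb s₀ hs₀0 hs₀1 (ℓ₀ x)
    have h3 := hYb s₁ hs₁0 hs₁1 (ℓ₁ x)
    simp only [hT₀, hT₁] at h1 ⊢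
    linarith
  have heLp := eLpNorm_two_eq (ρ := unif K) (f := fun x => T₀ x - T₁ x) (hT₀m.sub hT₁m) hbd
  have hI : ∫ x, ‖T₀ x - T₁ x‖ ^ 2 ∂(unif K) = V⁻¹ * ∫ x in K, ‖T₀ x - T₁ x‖ ^ 2 := unif_apply_eq _
  have hmid : eLpNorm (fun x => T₀ x - T₁ x) 2 (unif K)
      ≤ ENNReal.ofReal (Real.sqrt (V⁻¹ * (Cf d R R' c * t))) := by
    rw [heLp, hI]
    refine ENNReal.ofReal_le_ofReal (Real.sqrt_le_sqrt ?_)
    exact mul_le_mul_of_nonneg_left hfc (by positivity)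
  -- the triangle inequality
  have hTμm : Measurable Tμ := hTμ.1
  have hTνm : Measurable Tν := hTν.1
  have hsplit : (fun x => Tμ x - Tν x)
      = ((fun x => Tμ x - T₀ x) + (fun x => T₀ x - T₁ x)) + (fun x => T₁ x - Tν x) := by
    funext x
    simp only [Pi.add_apply]
    abel
  rw [hsplit]
  refine (eLpNorm_add_le (((hTμm.sub hT₀m).add (hT₀m.sub hT₁m)).aestronglyMeasurable)
    ((hT₁m.sub hTνm).aestronglyMeasurable) (by norm_num)).trans ?_
  refine add_le_add ?_ he₁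
  refine (eLpNorm_add_le ((hTμm.sub hT₀m).aestronglyMeasurable)
    ((hT₀m.sub hT₁m).aestronglyMeasurable) (by norm_num)).trans ?_
  exact add_le_add he₀ hmid

end Vale.Agent.P074
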