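import Vale.Agent.P074.Third

open MeasureTheory Set Metric Filter Topology
open scoped ENNReal NNReal

set_option linter.unusedSectionVars false

namespace Vale.Agent.P074

variable {d : ℕ}

/-- **The exponent `1/3` is admissible.** -/
theorem admissible_third (hd : 1 ≤ d) : Admissible d (1 / 3) := by
  intro K hK hconv hint Y hY hYne
  have htop : volume K ≠ ∞ := hK.measure_lt_top.ne
  have h0 : volume K ≠ 0 :=
    ((isOpen_interior.measure_pos volume hint).trans_le (measure_mono interior_subset)).ne'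
  set V := volume.real K with hV
  have hV0 : 0 < V := ENNReal.toReal_pos h0 htop
  obtain ⟨R, hR, hKR⟩ := hK.isBounded.exists_pos_norm_le
  obtain ⟨R', hR', hYR⟩ := hY.isBounded.exists_pos_norm_le
  obtain ⟨x₀, hx₀⟩ := hint
  obtain ⟨r₀, hr₀, hball⟩ := Metric.nhds_basis_closedBall.mem_iff.1 (mem_interior_iff_mem_nhds.1 hx₀)
  set c : ℝ := (d + 1) * V / r₀ with hc
  have hcbound : ∀ h : Eu d, (volume (K \ {x | x + h ∈ K})).toReal ≤ c * ‖h‖ :=
    fun h => volume_diff_translate_le hK hconv hr₀ hball h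
  have hc0 : 0 ≤ c := by positivity
  obtain ⟨C₁, hC₁⟩ := main_W1 hd hK hconv ⟨x₀, hx₀⟩ (isCompact_closedBall (0 : Eu d) R')
    (nonempty_closedBall.2 hR'.le)
  set Cc := Cf d R R' c with hCc
  have hCc0 : 0 ≤ Cc := by
    rw [hCc]
    unfold Cf
    positivity
  set C₃ := Real.sqrt (V⁻¹ * (Cc * (V * 2) ^ (1 / 3 : ℝ))) with hC₃
  refine ⟨Real.toNNReal C₃ + 1, ?_⟩
  intro μ ν hμp hνp hμ hν Tμ Tν hTμ hTν
  set I := ⨅ (π : Measure (Eu d × Eu d)) (_ : π.map Prod.fst = μ ∧ π.map Prod.snd = ν),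
      ∫⁻ p, ‖p.1 - p.2‖ₑ ^ (2 : ℕ) ∂π with hI
  have hW2 : W2 μ ν = I ^ (1 / 2 : ℝ) := rfl
  by_cases hItop : I = ∞
  · rw [hW2, hItop, ENNReal.top_rpow_of_pos (by norm_num), ENNReal.top_rpow_of_pos (by norm_num),
      ENNReal.mul_top (by simp)]
    exact le_top
  set i := I.toReal with hi
  have hi0 : 0 ≤ i := ENNReal.toReal_nonneg
  have hIi : I = ENNReal.ofReal i := (ENNReal.ofReal_toReal hItop).symm
  set E := eLpNorm (fun x => Tμ x - Tν x) 2 (unif K) with hE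
  set C₁r : ℝ := (C₁ : ℝ) with hC₁r
  have hC₁r0 : 0 ≤ C₁r := C₁.2
  set G : ℝ → ℝ := fun θ => C₁r * (2 * θ) ^ (1 / 4 : ℝ)
    + Real.sqrt (V⁻¹ * (Cc * (V * (2 * (i + θ) + 8 * θ ^ 2)) ^ (1 / 3 : ℝ)))
    + C₁r * (2 * θ) ^ (1 / 4 : ℝ) with hG
  have hEG : ∀ θ : ℝ, 0 < θ → E ≤ ENNReal.ofReal (G θ) := by
    intro θ hθ
    have hlt : I < ENNReal.ofReal (i + θ) := by
      rw [hIi]
      exact (ENNReal.ofReal_lt_ofReal_iff (by positivity)).2 (by linarith)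
    rw [hI, iInf_lt_iff] at hlt
    obtain ⟨π, hlt2⟩ := hlt
    rw [iInf_lt_iff] at hlt2
    obtain ⟨⟨hπ₁, hπ₂⟩, hcost⟩ := hlt2
    have h1 := one_coupling hK h0 hconv ⟨x₀, hx₀⟩ hR hKR hcbound hY hYne hYR (C₁ := C₁) hC₁ hμ hν
      hTμ hTν hπ₁ hπ₂ hθ (cπ := i + θ) (by positivity) hcost.le
    refine h1.trans (le_of_eq ?_)
    have h2θ : 0 ≤ 2 * θ := by positivity
    have e1 : (C₁ : ℝ≥0∞) * ENNReal.ofReal (2 * θ) ^ (1 / 4 : ℝ)
        = ENNReal.ofReal (C₁r * (2 * θ) ^ (1 / 4 : ℝ)) := by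
      rw [ENNReal.ofReal_mul hC₁r0, ENNReal.ofReal_rpow_of_nonneg h2θ (by norm_num)]
      congr 1
      rw [hC₁r]
      simp
    rw [e1, hG]
    rw [ENNReal.ofReal_add (by positivity) (by positivity),
      ENNReal.ofReal_add (by positivity) (by positivity)]
  have hGc : Continuous G := by
    have h1 : Continuous (fun θ : ℝ => (2 * θ) ^ (1 / 4 : ℝ)) :=
      (Real.continuous_rpow_const (by norm_num)).comp (continuous_const.mul continuous_id)
    have h2 : Continuous (fun θ : ℝ => (V * (2 * (i + θ) + 8 * θ ^ 2)) ^ (1 / 3 : ℝ)) :=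
      (Real.continuous_rpow_const (by norm_num)).comp (by fun_prop)
    have h3 : Continuous (fun θ : ℝ => Real.sqrt (V⁻¹ * (Cc * (V * (2 * (i + θ) + 8 * θ ^ 2)) ^ (1 / 3 : ℝ)))) :=
      Real.continuous_sqrt.comp (continuous_const.mul (continuous_const.mul h2))
    exact ((continuous_const.mul h1).add h3).add (continuous_const.mul h1)
  have hlim : Tendsto (fun θ => ENNReal.ofReal (G θ)) (𝓝[>] 0) (𝓝 (ENNReal.ofReal (G 0))) :=
    ((ENNReal.continuous_ofReal.comp hGc).tendsto 0).mono_left nhdsWithin_le_nhds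
  have hElim : E ≤ ENNReal.ofReal (G 0) :=
    ge_of_tendsto hlim (eventually_mem_nhdsWithin.mono fun θ hθ => hEG θ hθ)
  have hG0 : G 0 = Real.sqrt (V⁻¹ * (Cc * (V * (2 * i)) ^ (1 / 3 : ℝ))) := by
    simp only [hG]
    have e : (2 * (0 : ℝ)) ^ (1 / 4 : ℝ) = 0 := by
      rw [mul_zero, Real.zero_rpow (by norm_num)]
    rw [e]
    have e2 : V * (2 * (i + 0) + 8 * (0 : ℝ) ^ 2) = V * (2 * i) := by ring
    rw [e2]
    ring
  have hG0' : G 0 = C₃ * i ^ (1 / 6 : ℝ) := by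
    rw [hG0, hC₃]
    have e1 : V * (2 * i) = (V * 2) * i := by ring
    rw [e1, Real.mul_rpow (by positivity) hi0]
    have e2 : V⁻¹ * (Cc * ((V * 2) ^ (1 / 3 : ℝ) * i ^ (1 / 3 : ℝ)))
        = (V⁻¹ * (Cc * (V * 2) ^ (1 / 3 : ℝ))) * i ^ (1 / 3 : ℝ) := by ring
    rw [e2, Real.sqrt_mul (by positivity)]
    congr 1
    rw [Real.sqrt_eq_rpow, ← Real.rpow_mul hi0]
    norm_num
  have hW3 : W2 μ ν ^ (1 / 3 : ℝ) = ENNReal.ofReal (i ^ (1 / 6 : ℝ)) := by
    rw [hW2, hIi, ← ENNReal.rpow_mul, ENNReal.ofReal_rpow_of_nonneg hi0 (by norm_num)]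
    norm_num
  refine hElim.trans ?_
  rw [hG0', hW3, ENNReal.ofReal_mul (Real.sqrt_nonneg _)]
  refine mul_le_mul_left ?_ _
  rw [ENNReal.ofReal]
  exact_mod_cast le_self_add

end Vale.Agent.P074
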