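import Vale.Agent.P074.PL
import Vale.Agent.P074.Laguerre

open MeasureTheory Set Metric Filter Topology
open scoped ENNReal NNReal

set_option linter.unusedSectionVars false

namespace Vale.Agent.P074

variable {d : ℕ}

/-- The Gaussian weight. -/
noncomputable def gam (β : ℝ) (x : Eu d) : ℝ := Real.exp (-(β * ‖x‖ ^ 2))

lemma continuous_gam (β : ℝ) : Continuous (gam (d := d) β) := by
  unfold gam; fun_prop

lemma gam_pos (β : ℝ) (x : Eu d) : 0 < gam β x := Real.exp_pos _

lemma mid_parallelogram (x z : Eu d) :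
    2 * ‖(1 / 2 : ℝ) • (x + z)‖ ^ 2 + ‖x - z‖ ^ 2 / 2 = ‖x‖ ^ 2 + ‖z‖ ^ 2 := by
  have h := parallelogram_law_with_norm ℝ x z
  rw [norm_smul, mul_pow]
  norm_num
  nlinarith

/-- Prekopa-Leindler with a Gaussian weight and an exponential tilt. -/
lemma tilted_pl {β : ℝ} (hβ : 0 < β) {K A B M : Set (Eu d)} (hK : IsCompact K)
    (hA : MeasurableSet A) (hB : MeasurableSet B) (hM : MeasurableSet M) (hAK : A ⊆ K) (hBK : B ⊆ K)
    (hMK : M ⊆ K) (hmid : ∀ x ∈ A, ∀ z ∈ B, (1 / 2 : ℝ) • (x + z) ∈ M)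
    {Θ : Eu d → ℝ} (hΘ : Continuous Θ) {L : ℝ} (hlip : ∀ x ∈ K, ∀ z ∈ K, Θ x - Θ z ≤ L * ‖x - z‖) :
    (∫ x in A, gam β x * Real.exp (Θ x)) * (∫ x in B, gam β x * Real.exp (-Θ x))
      ≤ (Real.exp (L ^ 2 / (4 * β)) * ∫ x in M, gam β x) ^ 2 := by
  have hc1 : Continuous (fun x => gam (d := d) β x * Real.exp (Θ x)) :=
    (continuous_gam β).mul (Real.continuous_exp.comp hΘ)
  have hc2 : Continuous (fun x => gam (d := d) β x * Real.exp (-Θ x)) :=
    (continuous_gam β).mul (Real.continuous_exp.comp hΘ.neg)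
  have hc3 : Continuous (fun x => Real.exp (L ^ 2 / (4 * β)) * gam (d := d) β x) :=
    continuous_const.mul (continuous_gam β)
  have key := pl_real
    (f := A.indicator (fun x => gam β x * Real.exp (Θ x)))
    (g := B.indicator (fun x => gam β x * Real.exp (-Θ x)))
    (h := M.indicator (fun x => Real.exp (L ^ 2 / (4 * β)) * gam β x))
    (hc1.measurable.indicator hA) (hc2.measurable.indicator hB) (hc3.measurable.indicator hM)
    (((integrableOn_of_continuous hK hc1).mono_set hAK).integrable_indicator hA)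
    (((integrableOn_of_continuous hK hc2).mono_set hBK).integrable_indicator hB)
    (((integrableOn_of_continuous hK hc3).mono_set hMK).integrable_indicator hM)
    (indicator_nonneg (fun x _ => by have := gam_pos β x; positivity))
    (indicator_nonneg (fun x _ => by have := gam_pos β x; positivity))
    (indicator_nonneg (fun x _ => by have := gam_pos β x; positivity))
    (by
      intro x z
      by_cases hx : x ∈ A
      swap
      · rw [indicator_of_notMem hx, zero_mul]; positivity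
      by_cases hz : z ∈ B
      swap
      · rw [indicator_of_notMem hz, mul_zero]; positivity
      rw [indicator_of_mem hx, indicator_of_mem hz, indicator_of_mem (hmid x hx z hz)]
      set m := (1 / 2 : ℝ) • (x + z) with hm
      unfold gam
      rw [← Real.exp_add, ← Real.exp_add, ← Real.exp_add, ← Real.exp_add, ← Real.exp_nat_mul]
      apply Real.exp_le_exp.mpr
      push_cast
      have h1 := mid_parallelogram x z
      rw [← hm] at h1
      have h2 := hlip x (hAK hx) z (hBK hz)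
      set u := ‖x - z‖ with hu
      have h3 : 0 ≤ (L - β * u) ^ 2 / (2 * β) := by positivity
      have h4 : (L - β * u) ^ 2 / (2 * β) = L ^ 2 / (2 * β) - L * u + β * u ^ 2 / 2 := by
        field_simp
        ring
      have h5 : (2 : ℝ) * (L ^ 2 / (4 * β)) = L ^ 2 / (2 * β) := by
        field_simp
        ring
      nlinarith)
  rwa [integral_indicator hA, integral_indicator hB, integral_indicator hM,
    integral_const_mul] at key

/-- The lower bound of the exponential average by the exponential of the average. -/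
lemma exp_avg_ge {β : ℝ} {K A : Set (Eu d)} (hK : IsCompact K) (hA : MeasurableSet A)
    (hAK : A ⊆ K) (hZ : 0 < ∫ x in A, gam β x) {Θ : Eu d → ℝ} (hΘ : Continuous Θ) :
    (∫ x in A, gam β x) * Real.exp ((∫ x in A, gam β x * Θ x) / ∫ x in A, gam β x)
      ≤ ∫ x in A, gam β x * Real.exp (Θ x) := by
  set Z := ∫ x in A, gam β x with hZd
  set I := ∫ x in A, gam β x * Θ x with hI
  set t₀ := I / Z with ht₀
  have hc1 : Continuous (fun x => gam (d := d) β x) := continuous_gam β
  have hc2 : Continuous (fun x => gam (d := d) β x * Θ x) := hc1.mul hΘ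
  have hc3 : Continuous (fun x => gam (d := d) β x * Real.exp (Θ x)) :=
    hc1.mul (Real.continuous_exp.comp hΘ)
  have hi : ∀ {f : Eu d → ℝ}, Continuous f → IntegrableOn f A :=
    fun hf => (integrableOn_of_continuous hK hf).mono_set hAK
  have hpt : ∀ x, Real.exp t₀ * ((1 - t₀) * gam β x + gam β x * Θ x)
      ≤ gam β x * Real.exp (Θ x) := by
    intro x
    have h1 := Real.add_one_le_exp (Θ x - t₀)
    have h2 : Real.exp (Θ x) = Real.exp t₀ * Real.exp (Θ x - t₀) := by
      rw [← Real.exp_add]; congr 1; ring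
    rw [h2]
    have h3 := gam_pos β x
    have h4 := Real.exp_pos t₀
    have h5 : Real.exp t₀ * gam β x * (Θ x - t₀ + 1) ≤ Real.exp t₀ * gam β x * Real.exp (Θ x - t₀) :=
      mul_le_mul_of_nonneg_left h1 (by positivity)
    nlinarith
  have hint : ∫ x in A, Real.exp t₀ * ((1 - t₀) * gam β x + gam β x * Θ x)
      ≤ ∫ x in A, gam β x * Real.exp (Θ x) :=
    setIntegral_mono (hi ((hc1.const_mul (1 - t₀)).add hc2 |>.const_mul (Real.exp t₀)))
      (hi hc3) hpt
  rw [integral_const_mul, integral_add (hi (hc1.const_mul (1 - t₀))) (hi hc2),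
    integral_const_mul] at hint
  refine le_trans (le_of_eq ?_) hint
  rw [← hZd, ← hI]
  have : I = t₀ * Z := by rw [ht₀]; field_simp
  rw [this]
  ring

/-- The gain from Prekopa-Leindler for a Lipschitz test function. -/
lemma tilt_gain {β : ℝ} (hβ : 0 < β) {K A B M : Set (Eu d)} (hK : IsCompact K)
    (hA : MeasurableSet A) (hB : MeasurableSet B) (hM : MeasurableSet M) (hAK : A ⊆ K) (hBK : B ⊆ K)
    (hMK : M ⊆ K) (hmid : ∀ x ∈ A, ∀ z ∈ B, (1 / 2 : ℝ) • (x + z) ∈ M)
    (hZA : 0 < ∫ x in A, gam β x) (hZB : 0 < ∫ x in B, gam β x)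
    {Θ : Eu d → ℝ} (hΘ : Continuous Θ) {L : ℝ} (hL : 0 < L)
    (hlip : ∀ x ∈ K, ∀ z ∈ K, Θ x - Θ z ≤ L * ‖x - z‖) :
    Real.sqrt ((∫ x in A, gam β x) * ∫ x in B, gam β x) *
      (1 + β * ((∫ x in A, gam β x * Θ x) / (∫ x in A, gam β x)
        - (∫ x in B, gam β x * Θ x) / (∫ x in B, gam β x)) ^ 2 / (4 * L ^ 2))
      ≤ ∫ x in M, gam β x := by
  set ZA := ∫ x in A, gam β x with hZAd
  set ZB := ∫ x in B, gam β x with hZBd
  set ZM := ∫ x in M, gam β x with hZMd
  set a := (∫ x in A, gam β x * Θ x) / ZA with ha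
  set b := (∫ x in B, gam β x * Θ x) / ZB with hb
  set D := a - b with hD
  set lam := β * D / L ^ 2 with hlam
  set q := β * D ^ 2 / (4 * L ^ 2) with hq
  have hZM0 : 0 ≤ ZM := setIntegral_nonneg hM (fun x _ => (gam_pos β x).le)
  have hlip' : ∀ x ∈ K, ∀ z ∈ K, lam * Θ x - lam * Θ z ≤ (|lam| * L) * ‖x - z‖ := by
    intro x hx z hz
    have h1 := hlip x hx z hz
    have h2 := hlip z hz x hx
    rw [norm_sub_rev] at h2
    have h3 : |Θ x - Θ z| ≤ L * ‖x - z‖ := abs_le.mpr ⟨by linarith, h1⟩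
    calc lam * Θ x - lam * Θ z = lam * (Θ x - Θ z) := by ring
      _ ≤ |lam * (Θ x - Θ z)| := le_abs_self _
      _ = |lam| * |Θ x - Θ z| := abs_mul _ _
      _ ≤ |lam| * (L * ‖x - z‖) := mul_le_mul_of_nonneg_left h3 (abs_nonneg _)
      _ = (|lam| * L) * ‖x - z‖ := by ring
  have hPL := tilted_pl hβ hK hA hB hM hAK hBK hMK hmid (Θ := fun x => lam * Θ x)
    (continuous_const.mul hΘ) hlip'
  have hexpo : (|lam| * L) ^ 2 / (4 * β) = q := by
    rw [mul_pow, sq_abs, hlam, hq]
    field_simp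
  rw [hexpo, ← hZMd] at hPL
  have h1 := exp_avg_ge hK hA hAK hZA (Θ := fun x => lam * Θ x) (continuous_const.mul hΘ)
  have h2 := exp_avg_ge hK hB hBK hZB (Θ := fun x => - (lam * Θ x))
    (continuous_const.mul hΘ).neg
  have hI1 : ∫ x in A, gam β x * (lam * Θ x) = lam * ∫ x in A, gam β x * Θ x := by
    rw [← integral_const_mul]
    refine integral_congr_ae (ae_of_all _ (fun x => ?_))
    ring
  have hI2 : ∫ x in B, gam β x * (-(lam * Θ x)) = -lam * ∫ x in B, gam β x * Θ x := by
    rw [← integral_const_mul]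
    refine integral_congr_ae (ae_of_all _ (fun x => ?_))
    ring
  rw [hI1, ← hZAd] at h1
  rw [hI2, ← hZBd] at h2
  have e1 : lam * (∫ x in A, gam β x * Θ x) / ZA = lam * a := by rw [ha]; ring
  have e2 : -lam * (∫ x in B, gam β x * Θ x) / ZB = -(lam * b) := by rw [hb]; ring
  rw [e1] at h1
  rw [e2] at h2
  have hprod : ZA * Real.exp (lam * a) * (ZB * Real.exp (-(lam * b)))
      ≤ (Real.exp q * ZM) ^ 2 := by
    refine le_trans (mul_le_mul h1 h2 (by positivity) ?_) hPL
    exact le_trans (by positivity) h1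
  have hlamD : lam * a + -(lam * b) = 4 * q := by
    rw [hlam, hq, hD]
    field_simp
    ring
  have hprod2 : (ZA * ZB) * Real.exp (4 * q) ≤ Real.exp (2 * q) * ZM ^ 2 := by
    have e3 : ZA * Real.exp (lam * a) * (ZB * Real.exp (-(lam * b)))
        = (ZA * ZB) * Real.exp (4 * q) := by
      rw [← hlamD, Real.exp_add]; ring
    have e4 : (Real.exp q * ZM) ^ 2 = Real.exp (2 * q) * ZM ^ 2 := by
      rw [mul_pow, ← Real.exp_nat_mul]
      norm_num
    rwa [e3, e4] at hprod
  have hprod3 : (ZA * ZB) * Real.exp (2 * q) ≤ ZM ^ 2 := by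
    have e5 : Real.exp (4 * q) = Real.exp (2 * q) * Real.exp (2 * q) := by
      rw [← Real.exp_add]; congr 1; ring
    have h3 := Real.exp_pos (2 * q)
    have h4 : Real.exp (2 * q) * ((ZA * ZB) * Real.exp (2 * q)) ≤ Real.exp (2 * q) * ZM ^ 2 := by
      calc Real.exp (2 * q) * ((ZA * ZB) * Real.exp (2 * q))
          = (ZA * ZB) * Real.exp (4 * q) := by rw [e5]; ring
        _ ≤ _ := hprod2
    exact le_of_mul_le_mul_left h4 h3
  have hs0 : 0 ≤ ZA * ZB := by positivity
  have hsq : (Real.sqrt (ZA * ZB) * Real.exp q) ^ 2 ≤ ZM ^ 2 := by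
    rw [mul_pow, Real.sq_sqrt hs0, ← Real.exp_nat_mul]
    simpa using hprod3
  have h5 : Real.sqrt (ZA * ZB) * Real.exp q ≤ ZM :=
    (pow_le_pow_iff_left₀ (by positivity) hZM0 (by norm_num)).1 hsq
  have h6 : 1 + q ≤ Real.exp q := by linarith [Real.add_one_le_exp q]
  calc Real.sqrt (ZA * ZB) * (1 + q) ≤ Real.sqrt (ZA * ZB) * Real.exp q :=
        mul_le_mul_of_nonneg_left h6 (Real.sqrt_nonneg _)
    _ ≤ ZM := h5

end Vale.Agent.P074
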