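import Vale.Agent.P074.Defs

open MeasureTheory Set Metric
open scoped ENNReal NNReal

namespace Vale.Agent.P074

variable {d : ℕ}

/-- Translating a convex body loses volume at most linearly in the size of the translation. -/
lemma volume_diff_translate_le {K : Set (Eu d)} (hK : IsCompact K) (hconv : Convex ℝ K)
    {p : Eu d} {r₀ : ℝ} (hr₀ : 0 < r₀) (hp : closedBall p r₀ ⊆ K) (h : Eu d) :
    (volume (K \ {x | x + h ∈ K})).toReal ≤ (d + 1) * (volume K).toReal / r₀ * ‖h‖ := by
  have hVfin : volume K ≠ ∞ := hK.measure_lt_top.ne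
  set V := (volume K).toReal with hV
  have hV0 : 0 ≤ V := ENNReal.toReal_nonneg
  set τ := ‖h‖ / r₀ with hτ
  have hτ0 : 0 ≤ τ := by positivity
  have hgoal : (d + 1) * V / r₀ * ‖h‖ = (d + 1) * V * τ := by
    rw [hτ]; field_simp
  rw [hgoal]
  have hmono : (volume (K \ {x | x + h ∈ K})).toReal ≤ V :=
    ENNReal.toReal_mono hVfin (measure_mono diff_subset)
  by_cases hτ1 : 1 ≤ τ
  · calc (volume (K \ {x | x + h ∈ K})).toReal ≤ V := hmono
      _ ≤ (d + 1) * V * τ := by
        have : (1 : ℝ) ≤ (d + 1) * τ := by
          have hd : (1 : ℝ) ≤ d + 1 := by linarith [(Nat.cast_nonneg d : (0 : ℝ) ≤ d)]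
          nlinarith
        nlinarith
  · push_neg at hτ1
    by_cases hh : h = 0
    · subst hh
      simp [hτ]
    have hτpos : 0 < τ := by
      have : 0 < ‖h‖ := norm_pos_iff.mpr hh
      positivity
    set L := AffineMap.homothety p (1 - τ) '' K with hL
    have hLsub : L ⊆ K ∩ {x | x + h ∈ K} := by
      rintro _ ⟨k, hk, rfl⟩
      have hform : AffineMap.homothety p (1 - τ) k = (1 - τ) • k + τ • p := by
        simp [AffineMap.homothety_apply]
        module
      have hpK : p ∈ K := hp (mem_closedBall_self hr₀.le)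
      refine ⟨?_, ?_⟩
      · rw [hform]
        exact hconv hk hpK (by linarith) hτ0 (by ring)
      · show AffineMap.homothety p (1 - τ) k + h ∈ K
        have hq : p + τ⁻¹ • h ∈ K := by
          apply hp
          rw [mem_closedBall, dist_eq_norm]
          simp only [add_sub_cancel_left, norm_smul, Real.norm_eq_abs, abs_of_pos (inv_pos.mpr hτpos)]
          rw [hτ]
          have : 0 < ‖h‖ := norm_pos_iff.mpr hh
          field_simp
          exact le_refl _
        have : AffineMap.homothety p (1 - τ) k + h = (1 - τ) • k + τ • (p + τ⁻¹ • h) := by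
          rw [hform, smul_add, smul_smul, mul_inv_cancel₀ hτpos.ne', one_smul]
          abel
        rw [this]
        exact hconv hk hq (by linarith) hτ0 (by ring)
    have hLvol : volume L = ENNReal.ofReal |(1 - τ) ^ Module.finrank ℝ (Eu d)| * volume K :=
      Measure.addHaar_image_homothety volume p (1 - τ) K
    have hfin : Module.finrank ℝ (Eu d) = d := by simp
    rw [hfin] at hLvol
    have hpow : 0 ≤ (1 - τ) ^ d := pow_nonneg (by linarith) d
    rw [abs_of_nonneg hpow] at hLvol
    have hLcomp : IsCompact L :=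
      hK.image (AffineMap.homothety_continuous p (1 - τ))
    have hLsubK : L ⊆ K := fun x hx => (hLsub hx).1
    have hdiff : K \ {x | x + h ∈ K} ⊆ K \ L := by
      intro x hx
      exact ⟨hx.1, fun hxL => hx.2 (hLsub hxL).2⟩
    have hdiffvol : volume (K \ L) = volume K - volume L :=
      measure_diff hLsubK hLcomp.measurableSet.nullMeasurableSet hLcomp.measure_lt_top.ne
    have h2 : (volume (K \ L)).toReal = V - (1 - τ) ^ d * V := by
      rw [hdiffvol, ENNReal.toReal_sub_of_le (measure_mono hLsubK) hVfin, hLvol,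
        ENNReal.toReal_mul, ENNReal.toReal_ofReal hpow]
    have hbern : 1 - d * τ ≤ (1 - τ) ^ d := by
      have := one_add_mul_le_pow (a := -τ) (by linarith) d
      have e : (1 : ℝ) + -τ = 1 - τ := by ring
      rw [e] at this
      linarith
    calc (volume (K \ {x | x + h ∈ K})).toReal ≤ (volume (K \ L)).toReal :=
          ENNReal.toReal_mono (measure_ne_top_of_subset diff_subset hVfin) (measure_mono hdiff)
      _ = V - (1 - τ) ^ d * V := h2
      _ ≤ (d + 1) * V * τ := by
        have hdn : (0 : ℝ) ≤ d := Nat.cast_nonneg d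
        nlinarith [mul_nonneg hV0 hτ0, mul_le_mul_of_nonneg_right hbern hV0]

end Vale.Agent.P074
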